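import Mathlib

namespace Vale.Agent.Lib.P045

open Finset

variable {V : Type*} [DecidableEq V]

/-- `C` is a vertex cover of the hypergraph with edge set `H`: it meets every edge. -/
def IsCover (H : Finset (Finset V)) (C : Finset V) : Prop :=
  ∀ e ∈ H, ∃ v ∈ C, v ∈ e

/-- `M` is a matching of the hypergraph with edge set `H`: a set of pairwise disjoint edges. -/
def IsMatching (H M : Finset (Finset V)) : Prop :=
  M ⊆ H ∧ ∀ e ∈ M, ∀ f ∈ M, e ≠ f → Disjoint e f

/-- The degree of a vertex: the number of edges containing it. -/
def degree (H : Finset (Finset V)) (v : V) : ℕ :=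
  (H.filter (fun e => v ∈ e)).card

/-- The covering number: least size of a vertex cover. -/
noncomputable def coverNumber (H : Finset (Finset V)) : ℕ :=
  sInf {k | ∃ C, IsCover H C ∧ C.card = k}

/-- The matching number: largest size of a matching. -/
noncomputable def matchingNumber (H : Finset (Finset V)) : ℕ :=
  sSup {k | ∃ M, IsMatching H M ∧ M.card = k}

omit [DecidableEq V] in
theorem IsMatching.mono {H H' M : Finset (Finset V)} (h : IsMatching H M) (hH : H ⊆ H') :
    IsMatching H' M := ⟨h.1.trans hH, h.2⟩

theorem degree_mono {H H' : Finset (Finset V)} (hH : H ⊆ H') (v : V) :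
    degree H v ≤ degree H' v := by
  unfold degree
  exact card_le_card (filter_subset_filter _ hH)

/-- Greedy matching: if every edge meets at most `D` other edges, there is a matching with
at least `|F| / (D+1)` edges. -/
theorem greedy_matching (D : ℕ) : ∀ (n : ℕ) (F : Finset (Finset V)), F.card ≤ n →
    (∀ e ∈ F, (F.filter (fun f => f ≠ e ∧ ¬ Disjoint e f)).card ≤ D) →
    ∃ M, IsMatching F M ∧ F.card ≤ (D + 1) * M.card := by
  intro n
  induction n with
  | zero =>
    intro F hF _
    have : F = ∅ := card_eq_zero.mp (Nat.le_zero.mp hF)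
    subst this
    exact ⟨∅, ⟨Subset.refl _, by simp⟩, by simp⟩
  | succ n ih =>
    intro F hF hD
    rcases F.eq_empty_or_nonempty with h0 | ⟨e, he⟩
    · subst h0
      exact ⟨∅, ⟨Subset.refl _, by simp⟩, by simp⟩
    · set F' := F.filter (fun f => f ≠ e ∧ Disjoint e f) with hF'
      set N := F.filter (fun f => f ≠ e ∧ ¬ Disjoint e f) with hN
      have hsub : F' ⊆ F := filter_subset _ _
      have hpart : F = insert e (N ∪ F') := by
        ext f
        simp only [hF', hN, mem_insert, mem_union, mem_filter]
        constructor
        · intro hf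
          by_cases h1 : f = e
          · left; exact h1
          · right
            by_cases h2 : Disjoint e f
            · right; exact ⟨hf, h1, h2⟩
            · left; exact ⟨hf, h1, h2⟩
        · rintro (rfl | ⟨hf, -, -⟩ | ⟨hf, -, -⟩)
          · exact he
          · exact hf
          · exact hf
      have hcard : F.card ≤ 1 + N.card + F'.card := by
        calc F.card = (insert e (N ∪ F')).card := by rw [← hpart]
          _ ≤ (N ∪ F').card + 1 := card_insert_le _ _
          _ ≤ N.card + F'.card + 1 := by
              have := card_union_le N F'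
              omega
          _ = 1 + N.card + F'.card := by ring
      have hNle : N.card ≤ D := hD e he
      have heF' : e ∉ F' := by
        simp [hF']
      have hlt : F'.card ≤ n := by
        have h1 : F'.card < F.card := card_lt_card ⟨hsub, fun h => heF' (h he)⟩
        omega
      have hD' : ∀ g ∈ F', (F'.filter (fun f => f ≠ g ∧ ¬ Disjoint g f)).card ≤ D := by
        intro g hg
        refine le_trans (card_le_card ?_) (hD g (hsub hg))
        intro f hf
        rw [mem_filter] at hf ⊢
        exact ⟨hsub hf.1, hf.2⟩
      obtain ⟨M', hM', hc'⟩ := ih F' hlt hD'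
      refine ⟨insert e M', ⟨?_, ?_⟩, ?_⟩
      · intro f hf
        rcases mem_insert.mp hf with rfl | hf
        · exact he
        · exact hsub (hM'.1 hf)
      · intro f hf g hg hfg
        have hdis : ∀ x ∈ M', Disjoint e x := by
          intro x hx
          have := hM'.1 hx
          rw [hF', mem_filter] at this
          exact this.2.2
        by_cases h1 : f = e
        · by_cases h2 : g = e
          · exact absurd (h1.trans h2.symm) hfg
          · have hg' : g ∈ M' := (mem_insert.mp hg).resolve_left h2
            rw [h1]
            exact hdis g hg'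
        · have hf' : f ∈ M' := (mem_insert.mp hf).resolve_left h1
          by_cases h2 : g = e
          · rw [h2]
            exact (hdis f hf').symm
          · have hg' : g ∈ M' := (mem_insert.mp hg).resolve_left h2
            exact hM'.2 f hf' g hg' hfg
      · have heM' : e ∉ M' := fun h => heF' (hM'.1 h)
        rw [card_insert_of_notMem heM']
        calc F.card ≤ 1 + N.card + F'.card := hcard
          _ ≤ 1 + D + (D + 1) * M'.card := by omega
          _ = (D + 1) * (M'.card + 1) := by ring

/-- If every vertex has degree at most `j+1` and all edges have `r` vertices, every edge meets at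
most `r * j` other edges. -/
theorem nbr_bound (F : Finset (Finset V)) (r j : ℕ) (hunif : ∀ e ∈ F, e.card = r)
    (hdeg : ∀ v, degree F v ≤ j + 1) (e : Finset V) (he : e ∈ F) :
    (F.filter (fun f => f ≠ e ∧ ¬ Disjoint e f)).card ≤ r * j := by
  have hsub : F.filter (fun f => f ≠ e ∧ ¬ Disjoint e f) ⊆
      e.biUnion (fun v => (F.filter (fun f => v ∈ f)).erase e) := by
    intro f hf
    rw [mem_filter] at hf
    obtain ⟨hfF, hne, hnd⟩ := hf
    rw [not_disjoint_iff] at hnd
    obtain ⟨v, hve, hvf⟩ := hnd
    rw [mem_biUnion]
    exact ⟨v, hve, mem_erase.mpr ⟨hne, mem_filter.mpr ⟨hfF, hvf⟩⟩⟩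
  refine le_trans (card_le_card hsub) (le_trans card_biUnion_le ?_)
  have : ∀ v ∈ e, ((F.filter (fun f => v ∈ f)).erase e).card ≤ j := by
    intro v hv
    have hmem : e ∈ F.filter (fun f => v ∈ f) := mem_filter.mpr ⟨he, hv⟩
    rw [card_erase_of_mem hmem]
    have := hdeg v
    unfold degree at this
    omega
  calc ∑ v ∈ e, ((F.filter (fun f => v ∈ f)).erase e).card ≤ ∑ _v ∈ e, j := sum_le_sum this
    _ = r * j := by rw [sum_const, hunif e he, smul_eq_mul]

/-- Star packing: removing stars of vertices of degree at least `j+1` one at a time leaves a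
subfamily of maximum degree at most `j`; the removed edges are covered by the chosen vertices and
there are at least `j+1` of them per chosen vertex. -/
theorem star_packing (j : ℕ) : ∀ (n : ℕ) (F : Finset (Finset V)), F.card ≤ n →
    ∃ (A : Finset V) (F' : Finset (Finset V)), F' ⊆ F ∧
      (∀ e ∈ F, e ∉ F' → ∃ v ∈ A, v ∈ e) ∧
      (j + 1) * A.card + F'.card ≤ F.card ∧ (∀ v, degree F' v ≤ j) := by
  classical
  intro n
  induction n with
  | zero =>
    intro F hF
    have : F = ∅ := card_eq_zero.mp (Nat.le_zero.mp hF)
    subst this
    exact ⟨∅, ∅, Subset.refl _, by simp, by simp, by simp [degree]⟩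
  | succ n ih =>
    intro F hF
    by_cases hall : ∀ v, degree F v ≤ j
    · exact ⟨∅, F, Subset.refl _, fun e he hne => absurd he hne, by simp, hall⟩
    · rw [not_forall] at hall
      obtain ⟨v, hv⟩ := hall
      rw [not_le] at hv
      set S := F.filter (fun e => v ∈ e) with hS
      set F₁ := F.filter (fun e => v ∉ e) with hF₁
      have hScard : j + 1 ≤ S.card := hv
      have hsplit : S.card + F₁.card = F.card := by
        rw [hS, hF₁]
        exact card_filter_add_card_filter_not (s := F) (fun e => v ∈ e)
      have hlt : F₁.card ≤ n := by omega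
      obtain ⟨A₁, F', hsub, hcov, hcnt, hdeg⟩ := ih F₁ hlt
      refine ⟨insert v A₁, F', hsub.trans (filter_subset _ _), ?_, ?_, hdeg⟩
      · intro e he hne
        by_cases hve : v ∈ e
        · exact ⟨v, mem_insert_self _ _, hve⟩
        · have : e ∈ F₁ := mem_filter.mpr ⟨he, hve⟩
          obtain ⟨w, hw, hwe⟩ := hcov e this hne
          exact ⟨w, mem_insert_of_mem hw, hwe⟩
      · have h1 : (insert v A₁).card ≤ A₁.card + 1 := card_insert_le _ _
        calc (j + 1) * (insert v A₁).card + F'.card
            ≤ (j + 1) * (A₁.card + 1) + F'.card := by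
              have := Nat.mul_le_mul_left (j + 1) h1
              omega
          _ = ((j + 1) * A₁.card + F'.card) + (j + 1) := by ring
          _ ≤ F₁.card + S.card := by omega
          _ = F.card := by omega

/-- A family of maximum degree at most one is a matching. -/
theorem matching_of_degree_le_one (F : Finset (Finset V)) (h : ∀ v, degree F v ≤ 1) :
    IsMatching F F := by
  refine ⟨Subset.refl _, ?_⟩
  intro e he f hf hef
  rw [disjoint_left]
  intro v hve hvf
  have h2 : ({e, f} : Finset (Finset V)) ⊆ F.filter (fun g => v ∈ g) := by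
    intro g hg
    rcases mem_insert.mp hg with rfl | hg
    · exact mem_filter.mpr ⟨he, hve⟩
    · rw [mem_singleton] at hg
      subst hg
      exact mem_filter.mpr ⟨hf, hvf⟩
  have h3 := card_le_card h2
  rw [card_pair hef] at h3
  have := h v
  unfold degree at this
  omega

/-- One vertex per edge covers a family of nonempty edges. -/
theorem cover_by_choice : ∀ (F : Finset (Finset V)), (∀ e ∈ F, e.Nonempty) →
    ∃ A : Finset V, A.card ≤ F.card ∧ ∀ e ∈ F, ∃ v ∈ A, v ∈ e := by
  intro F
  induction F using Finset.induction_on with
  | empty => intro _; exact ⟨∅, by simp, by simp⟩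
  | insert e F heF ih =>
    intro hne
    obtain ⟨A, hA, hcov⟩ := ih (fun f hf => hne f (mem_insert_of_mem hf))
    obtain ⟨v, hv⟩ := hne e (mem_insert_self _ _)
    refine ⟨insert v A, ?_, ?_⟩
    · rw [card_insert_of_notMem heF]
      exact le_trans (card_insert_le _ _) (by omega)
    · intro f hf
      rcases mem_insert.mp hf with rfl | hf
      · exact ⟨v, mem_insert_self _ _, hv⟩
      · obtain ⟨w, hw, hwf⟩ := hcov f hf
        exact ⟨w, mem_insert_of_mem hw, hwf⟩

end Vale.Agent.Lib.P045
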