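import Mathlib

/-!
# A checker for counterexamples to the stronger assertion of Lovász

Edges of an `r`-partite hypergraph with parts of size `n` are coded by natural numbers: the
vertex of the edge `c` in part `i` is the base-`n` digit `dig n c i`.  A vertex `(i, x)` has the
code `i * n + x`.  The checker `noHit` verifies, by a bounded search tree, that no set of at most
`b` vertices meets every listed pair of disjoint edges.
-/

namespace Vale.Agent.Lib.P045.Lov

/-- The base-`n` digit number `i` of `c`. -/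
def dig (n c i : ℕ) : ℕ := c / n ^ i % n

/-- The vertex codes of the two edges `e`, `f`. -/
def vertsList (n r e f : ℕ) : List ℕ :=
  (List.range r).flatMap fun i => [i * n + dig n e i, i * n + dig n f i]

/-- The two edges coded by `e` and `f` are disjoint. -/
def djB (n r e f : ℕ) : Bool := (List.range r).all fun i => dig n e i != dig n f i

noncomputable section

/-- Conjunction, evaluated from the left. -/
def band (a b : Bool) : Bool := @Bool.rec (fun _ => Bool) false b a

/-- The mask `m` avoids the mask `cm` of chosen vertices. -/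
def surv (cm m : ℕ) : Bool := Nat.beq (Nat.land m cm) 0

/-- Some listed pair avoids `cm`.  A listed pair is `(mask, e, f, ws)`. -/
def anySurv (cm : ℕ) (L : List (ℕ × ℕ × ℕ × List ℕ)) : Bool :=
  @List.rec (ℕ × ℕ × ℕ × List ℕ) (fun _ => Bool) false
    (fun p _ ih => @Bool.rec (fun _ => Bool) ih true (surv cm p.1)) L

/-- `f` holds for all members of `ws`. -/
def allW (f : ℕ → Bool) (ws : List ℕ) : Bool :=
  @List.rec ℕ (fun _ => Bool) true (fun w _ ih => band (f w) ih) ws

/-- One level of the search tree: find the first listed pair avoiding `cm` and branch on its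
vertices (the last component `ws` holds the powers `2 ^ v` of its vertex codes `v`). -/
def stepR (ih : ℕ → List (ℕ × ℕ × ℕ × List ℕ) → Bool) (cm : ℕ)
    (L : List (ℕ × ℕ × ℕ × List ℕ)) : Bool :=
  @List.rec (ℕ × ℕ × ℕ × List ℕ) (fun _ => Bool) false
    (fun p ps ihL => @Bool.rec (fun _ => Bool) ihL
      (allW (fun w => ih (Nat.lor cm w) ps) p.2.2.2) (surv cm p.1)) L

/-- Bounded search tree: `noHit b cm L = true` certifies that no `b` further vertices meet all
pairs of `L` whose masks avoid `cm`. -/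
def noHit (b : ℕ) : ℕ → List (ℕ × ℕ × ℕ × List ℕ) → Bool :=
  @Nat.rec (fun _ => ℕ → List (ℕ × ℕ × ℕ × List ℕ) → Bool) anySurv (fun _ ih => stepR ih) b

end

theorem band_eq (a b : Bool) : band a b = (a && b) := by cases a <;> rfl

theorem surv_iff (cm m : ℕ) : surv cm m = true ↔ Nat.land m cm = 0 := by
  unfold surv
  rw [Nat.beq_eq]

theorem anySurv_spec (cm : ℕ) :
    ∀ L : List (ℕ × ℕ × ℕ × List ℕ), anySurv cm L = true → ∃ p ∈ L, Nat.land p.1 cm = 0 := by
  intro L
  induction L with
  | nil => intro h; exact absurd h (by simp [anySurv])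
  | cons q qs ih =>
    intro h
    have hq : anySurv cm (q :: qs) =
        @Bool.rec (fun _ => Bool) (anySurv cm qs) true (surv cm q.1) := rfl
    rw [hq] at h
    cases hs : surv cm q.1
    · rw [hs] at h
      obtain ⟨p, hp, hp2⟩ := ih h
      exact ⟨p, List.mem_cons_of_mem _ hp, hp2⟩
    · exact ⟨q, List.mem_cons_self, (surv_iff cm q.1).mp hs⟩

theorem allW_spec (f : ℕ → Bool) :
    ∀ ws : List ℕ, allW f ws = true → ∀ w ∈ ws, f w = true := by
  intro ws
  induction ws with
  | nil => intro _ w hw; simp at hw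
  | cons x xs ih =>
    intro h w hw
    have hx : allW f (x :: xs) = band (f x) (allW f xs) := rfl
    rw [hx, band_eq, Bool.and_eq_true] at h
    rcases List.mem_cons.mp hw with rfl | hw'
    · exact h.1
    · exact ih h.2 w hw'

theorem stepR_spec (g : ℕ → List (ℕ × ℕ × ℕ × List ℕ) → Bool) (cm : ℕ) :
    ∀ L : List (ℕ × ℕ × ℕ × List ℕ), stepR g cm L = true →
      ∃ p rest, p ∈ L ∧ (∀ q ∈ rest, q ∈ L) ∧ Nat.land p.1 cm = 0 ∧
        ∀ w ∈ p.2.2.2, g (Nat.lor cm w) rest = true := by
  intro L
  induction L with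
  | nil => intro h; exact absurd h (by simp [stepR])
  | cons q qs ih =>
    intro h
    have hq : stepR g cm (q :: qs) = @Bool.rec (fun _ => Bool) (stepR g cm qs)
        (allW (fun w => g (Nat.lor cm w) qs) q.2.2.2) (surv cm q.1) := rfl
    rw [hq] at h
    cases hs : surv cm q.1
    · rw [hs] at h
      obtain ⟨p, rest, h1, h2, h3, h4⟩ := ih h
      exact ⟨p, rest, List.mem_cons_of_mem _ h1, fun x hx => List.mem_cons_of_mem _ (h2 x hx),
        h3, h4⟩
    · rw [hs] at h
      exact ⟨q, qs, List.mem_cons_self, fun x hx => List.mem_cons_of_mem _ hx,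
        (surv_iff cm q.1).mp hs, allW_spec _ _ h⟩

theorem land_lor_pow (a cm v : ℕ) (h : Nat.land a (Nat.lor cm (2 ^ v)) = 0) :
    Nat.land a cm = 0 ∧ a.testBit v = false := by
  have h' : a &&& (cm ||| 2 ^ v) = 0 := h
  constructor
  · show a &&& cm = 0
    apply Nat.eq_of_testBit_eq
    intro i
    have := congrArg (fun x => x.testBit i) h'
    simp only [Nat.testBit_and, Nat.testBit_or, Nat.zero_testBit] at this ⊢
    cases ha : a.testBit i <;> cases hc : cm.testBit i <;> simp_all
  · have := congrArg (fun x => x.testBit v) h'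
    simp only [Nat.testBit_and, Nat.testBit_or, Nat.zero_testBit, Nat.testBit_two_pow_self] at this
    cases ha : a.testBit v <;> simp_all

/-- Soundness of the search tree. -/
theorem noHit_sound (n r : ℕ) :
    ∀ (b : ℕ) (cm : ℕ) (L : List (ℕ × ℕ × ℕ × List ℕ)),
      (∀ p ∈ L, p.2.2.2 = (vertsList n r p.2.1 p.2.2.1).map (fun v => 2 ^ v) ∧
        ∀ v ∈ vertsList n r p.2.1 p.2.2.1, p.1.testBit v = true) →
      noHit b cm L = true → ∀ S : Finset ℕ, S.card ≤ b →
        ∃ p ∈ L, Nat.land p.1 cm = 0 ∧ ∀ v ∈ S, v ∉ vertsList n r p.2.1 p.2.2.1 := by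
  intro b
  induction b with
  | zero =>
    intro cm L _ h S hS
    have h0 : noHit 0 cm L = anySurv cm L := rfl
    rw [h0] at h
    obtain ⟨p, h1, h3⟩ := anySurv_spec cm L h
    have hS0 : S = ∅ := Finset.card_eq_zero.mp (Nat.le_zero.mp hS)
    exact ⟨p, h1, h3, by simp [hS0]⟩
  | succ b ih =>
    intro cm L hMC h S hS
    have h0 : noHit (b + 1) cm L = stepR (noHit b) cm L := rfl
    rw [h0] at h
    obtain ⟨p, rest, h1, h2, h3, h4⟩ := stepR_spec (noHit b) cm L h
    by_cases hall : ∀ v ∈ S, v ∉ vertsList n r p.2.1 p.2.2.1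
    · exact ⟨p, h1, h3, hall⟩
    · simp only [not_forall, not_not] at hall
      obtain ⟨v, hvS, hv⟩ := hall
      have hw : 2 ^ v ∈ p.2.2.2 := by
        rw [(hMC p h1).1]
        exact List.mem_map.mpr ⟨v, hv, rfl⟩
      have hrec := h4 (2 ^ v) hw
      have hMC' : ∀ q ∈ rest, q.2.2.2 = (vertsList n r q.2.1 q.2.2.1).map (fun v => 2 ^ v) ∧
          ∀ u ∈ vertsList n r q.2.1 q.2.2.1, q.1.testBit u = true :=
        fun q hq => hMC q (h2 q hq)
      have hcard : (S.erase v).card ≤ b := by
        rw [Finset.card_erase_of_mem hvS]; omega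
      obtain ⟨q, hq, hq1, hq2⟩ := ih (Nat.lor cm (2 ^ v)) rest hMC' hrec (S.erase v) hcard
      obtain ⟨hq1a, hq1b⟩ := land_lor_pow q.1 cm v hq1
      refine ⟨q, h2 q hq, hq1a, ?_⟩
      intro u hu huq
      by_cases huv : u = v
      · subst huv
        have := (hMC q (h2 q hq)).2 u huq
        rw [hq1b] at this
        exact absurd this (by simp)
      · exact hq2 u (Finset.mem_erase.mpr ⟨huv, hu⟩) huq

end Vale.Agent.Lib.P045.Lov
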