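import Mathlib
import Vale.Agent.Lib.P045.LovEngine

/-!
# From the checker to hypergraphs

If the checks succeed for a list of edge codes, the coded `r`-partite hypergraph has matching
number at most two and keeps two disjoint edges after the deletion of any `r - 1` vertices.
-/

namespace Vale.Agent.Lib.P045.Lov

/-- The edge coded by `c`, as a set of vertices `(part, value)`. -/
def edgeSet (n r : ℕ) [NeZero n] (c : ℕ) : Finset (Fin r × Fin n) :=
  Finset.univ.image fun i : Fin r => (i, (⟨dig n c i, Nat.mod_lt _ (NeZero.pos n)⟩ : Fin n))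

theorem mem_edgeSet (n r : ℕ) [NeZero n] (c : ℕ) (v : Fin r × Fin n) :
    v ∈ edgeSet n r c ↔ v.2.val = dig n c v.1.val := by
  unfold edgeSet
  rw [Finset.mem_image]
  constructor
  · rintro ⟨i, _, rfl⟩
    rfl
  · intro h
    refine ⟨v.1, Finset.mem_univ _, ?_⟩
    ext
    · rfl
    · exact h.symm

theorem edgeSet_unique (n r : ℕ) [NeZero n] (c : ℕ) (i : Fin r) :
    ∃! v, v ∈ edgeSet n r c ∧ v.1 = i := by
  refine ⟨(i, ⟨dig n c i, Nat.mod_lt _ (NeZero.pos n)⟩), ⟨(mem_edgeSet n r c _).mpr rfl, rfl⟩, ?_⟩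
  rintro ⟨j, x⟩ ⟨hv, hj⟩
  have hj' : j = i := hj
  subst hj'
  have hx := (mem_edgeSet n r c (j, x)).mp hv
  ext
  · rfl
  · exact hx

theorem djB_iff (n r e f : ℕ) : djB n r e f = true ↔ ∀ i < r, dig n e i ≠ dig n f i := by
  unfold djB
  rw [List.all_eq_true]
  constructor
  · intro h i hi
    have := h i (List.mem_range.mpr hi)
    simpa using this
  · intro h i hi
    have := h i (List.mem_range.mp hi)
    simpa using this

theorem disjoint_edgeSet_iff (n r : ℕ) [NeZero n] (e f : ℕ) :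
    Disjoint (edgeSet n r e) (edgeSet n r f) ↔ djB n r e f = true := by
  rw [djB_iff, Finset.disjoint_left]
  constructor
  · intro h i hi hd
    have h1 : ((⟨i, hi⟩ : Fin r), (⟨dig n e i, Nat.mod_lt _ (NeZero.pos n)⟩ : Fin n)) ∈
        edgeSet n r e := (mem_edgeSet n r e _).mpr rfl
    have h2 : ((⟨i, hi⟩ : Fin r), (⟨dig n e i, Nat.mod_lt _ (NeZero.pos n)⟩ : Fin n)) ∈
        edgeSet n r f := (mem_edgeSet n r f _).mpr hd
    exact h h1 h2
  · intro h v hv1 hv2
    have h1 := (mem_edgeSet n r e v).mp hv1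
    have h2 := (mem_edgeSet n r f v).mp hv2
    exact h v.1.val v.1.isLt (h1.symm.trans h2)

theorem edgeSet_nonempty (n r : ℕ) [NeZero n] (hr : 0 < r) (c : ℕ) : (edgeSet n r c).Nonempty :=
  ⟨((⟨0, hr⟩ : Fin r), ⟨dig n c 0, Nat.mod_lt _ (NeZero.pos n)⟩), (mem_edgeSet n r c _).mpr rfl⟩

theorem mem_vertsList_left (n r e f i : ℕ) (hi : i < r) :
    i * n + dig n e i ∈ vertsList n r e f := by
  unfold vertsList
  rw [List.mem_flatMap]
  exact ⟨i, List.mem_range.mpr hi, by simp⟩

theorem mem_vertsList_right (n r e f i : ℕ) (hi : i < r) :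
    i * n + dig n f i ∈ vertsList n r e f := by
  unfold vertsList
  rw [List.mem_flatMap]
  exact ⟨i, List.mem_range.mpr hi, by simp⟩

/-- The main bridge: the three Boolean checks give an `r`-partite hypergraph without three
pairwise disjoint edges in which, after the deletion of any `r - 1` vertices, two disjoint edges
remain. -/
theorem lovasz_ce (n r : ℕ) [NeZero n] (codes : List ℕ)
    (L : List (ℕ × ℕ × ℕ × List ℕ))
    (hL : L.all (fun p => codes.contains p.2.1 && codes.contains p.2.2.1 &&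
      djB n r p.2.1 p.2.2.1 && (p.2.2.2 == (vertsList n r p.2.1 p.2.2.1).map (fun v => 2 ^ v)) &&
      (vertsList n r p.2.1 p.2.2.1).all fun v => p.1.testBit v) = true)
    (htri : codes.all (fun a => codes.all fun b => !djB n r a b ||
      codes.all fun c => !(djB n r a c && djB n r b c)) = true)
    (hrob : noHit (r - 1) 0 L = true) :
    ∃ E : Finset (Finset (Fin r × Fin n)),
      (∀ e ∈ E, ∀ i : Fin r, ∃! v, v ∈ e ∧ v.1 = i) ∧
      (∀ M : Finset (Finset (Fin r × Fin n)), M ⊆ E →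
        (∀ e ∈ M, ∀ f ∈ M, e ≠ f → Disjoint e f) → M.card ≤ 2) ∧
      ∀ S : Finset (Fin r × Fin n), S.card ≤ r - 1 →
        ∃ e ∈ E, ∃ f ∈ E, Disjoint e f ∧ Disjoint e S ∧ Disjoint f S := by
  classical
  let E : Finset (Finset (Fin r × Fin n)) := (codes.map (edgeSet n r)).toFinset
  have hmemE : ∀ e, e ∈ E ↔ ∃ c ∈ codes, edgeSet n r c = e := by
    intro e
    simp only [E, List.mem_toFinset, List.mem_map]
  refine ⟨E, ?_, ?_, ?_⟩
  · intro e he i
    obtain ⟨c, _, rfl⟩ := (hmemE e).mp he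
    exact edgeSet_unique n r c i
  · -- every matching has at most two edges
    intro M hME hMd
    by_contra hcon
    have h3 : 2 < M.card := by omega
    obtain ⟨a, ha, b, hb, c, hc, hab, hac, hbc⟩ := Finset.two_lt_card.mp h3
    obtain ⟨ca, hca, rfl⟩ := (hmemE a).mp (hME ha)
    obtain ⟨cb, hcb, rfl⟩ := (hmemE b).mp (hME hb)
    obtain ⟨cc, hcc, rfl⟩ := (hmemE c).mp (hME hc)
    have d1 := (disjoint_edgeSet_iff n r _ _).mp (hMd _ ha _ hb hab)
    have d2 := (disjoint_edgeSet_iff n r _ _).mp (hMd _ ha _ hc hac)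
    have d3 := (disjoint_edgeSet_iff n r _ _).mp (hMd _ hb _ hc hbc)
    have t1 := List.all_eq_true.mp htri ca hca
    have t2 := List.all_eq_true.mp t1 cb hcb
    rw [d1] at t2
    simp only [Bool.not_true, Bool.false_or] at t2
    have t3 := List.all_eq_true.mp t2 cc hcc
    rw [d2, d3] at t3
    simp at t3
  · intro S hS
    -- facts about the listed pairs
    have hLp : ∀ p ∈ L, p.2.1 ∈ codes ∧ p.2.2.1 ∈ codes ∧ djB n r p.2.1 p.2.2.1 = true ∧
        p.2.2.2 = (vertsList n r p.2.1 p.2.2.1).map (fun v => 2 ^ v) ∧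
        ∀ v ∈ vertsList n r p.2.1 p.2.2.1, p.1.testBit v = true := by
      intro p hp
      have := List.all_eq_true.mp hL p hp
      simp only [Bool.and_eq_true, List.contains_iff_mem, List.all_eq_true, beq_iff_eq] at this
      exact ⟨this.1.1.1.1, this.1.1.1.2, this.1.1.2, this.1.2, this.2⟩
    -- a pair of disjoint edges avoiding `S`
    let S' : Finset ℕ := S.image fun v => v.1.val * n + v.2.val
    have hS' : S'.card ≤ r - 1 := Finset.card_image_le.trans hS
    obtain ⟨p, hpL, _, hpS⟩ :=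
      noHit_sound n r (r - 1) 0 L (fun p hp => (hLp p hp).2.2.2) hrob S' hS'
    obtain ⟨hc1, hc2, hdj, _, _⟩ := hLp p hpL
    refine ⟨edgeSet n r p.2.1, (hmemE _).mpr ⟨_, hc1, rfl⟩, edgeSet n r p.2.2.1,
      (hmemE _).mpr ⟨_, hc2, rfl⟩, (disjoint_edgeSet_iff n r _ _).mpr hdj, ?_, ?_⟩
    · rw [Finset.disjoint_left]
      intro v hv hvS
      have h1 := (mem_edgeSet n r p.2.1 v).mp hv
      have hmem : v.1.val * n + v.2.val ∈ S' := Finset.mem_image.mpr ⟨v, hvS, rfl⟩
      apply hpS _ hmem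
      rw [h1]
      exact mem_vertsList_left n r _ _ _ v.1.isLt
    · rw [Finset.disjoint_left]
      intro v hv hvS
      have h1 := (mem_edgeSet n r p.2.2.1 v).mp hv
      have hmem : v.1.val * n + v.2.val ∈ S' := Finset.mem_image.mpr ⟨v, hvS, rfl⟩
      apply hpS _ hmem
      rw [h1]
      exact mem_vertsList_right n r _ _ _ v.1.isLt

end Vale.Agent.Lib.P045.Lov
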