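import Mathlib

/-!
# Certificate specification for Ryser-type cover bounds of 4-partite hypergraphs

Everything here is about natural numbers only.  A *code* `x < 4096` stands for the 4-tuple of its
base-8 digits `dg x 0, dg x 1, dg x 2, dg x 3` (an edge or a pattern of a 4-partite hypergraph whose
parts are labelled by `0, 1, 2, 3` and whose vertices in part `c` are labelled by digits).  A vertex
`(c, v)` has the code `8 * c + v`.

`CertSpec mode` says that there is a finite list of nodes, each carrying a family of codes and the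
number `k c` of used digits in every part `c`, such that every node is justified by one of two rules
(see `NodeSpec`) that only refer to earlier nodes, the last node being the family `[0]` with `k = 1`.
`mode = 1` is the intersecting case, `mode = 2` the case of matching number at most two.
-/

namespace Vale.Agent.Lib.P045

/-- Digit `c` (base 8) of the code `x`. -/
def dg (x c : ℕ) : ℕ := x / 8 ^ c % 8

/-- The tuples coded by `a` and `b` differ in every part. -/
def cdisj (a b : ℕ) : Prop := ∀ c < 4, dg a c ≠ dg b c

/-- The pattern `p` cannot be added to the family `F`: in mode 1 some member of `F` is disjoint from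
`p`; in mode 2 two disjoint members of `F` are both disjoint from `p`. -/
def incomp (mode : ℕ) (F : List ℕ) (p : ℕ) : Prop :=
  (mode = 1 ∧ ∃ f ∈ F, cdisj f p) ∨
  (mode = 2 ∧ ∃ f ∈ F, ∃ g ∈ F, cdisj f g ∧ cdisj f p ∧ cdisj g p)

/-- No vertex of the pattern `p` is in the list `S` of vertex codes. -/
def avoids (S : List ℕ) (p : ℕ) : Prop := ∀ c < 4, 8 * c + dg p c ∉ S

/-- `p` is a code all of whose digits are at most `k c` (the digit `k c` means a new vertex). -/
def inRange (k : ℕ → ℕ) (p : ℕ) : Prop := p < 4096 ∧ ∀ c < 4, dg p c ≤ k c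

/-- The numbers of used digits after adding the pattern `p`. -/
def kNext (k : ℕ → ℕ) (p : ℕ) : ℕ → ℕ := fun c => if dg p c = k c then k c + 1 else k c

/-- The family is well formed: at most 7 digits are used in each part and every member only uses
used digits. -/
def WfFam (F : List ℕ) (k : ℕ → ℕ) : Prop :=
  (∀ c < 4, k c ≤ 7) ∧ ∀ f ∈ F, f < 4096 ∧ ∀ c < 4, dg f c < k c

/-- The vertex codes in `S` are vertices with used digits. -/
def WfS (S : List ℕ) (k : ℕ → ℕ) : Prop := ∀ x ∈ S, x / 8 < 4 ∧ x % 8 < k (x / 8)

/-- The family `G` with digit counts `m` maps into the family `p :: F` with digit counts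
`kNext k p`, by the permutation `σ` of the parts and the injective maps `ρ c` of the digits. -/
def RefOK (G : List ℕ) (m : ℕ → ℕ) (F : List ℕ) (k : ℕ → ℕ) (p : ℕ)
    (σ : ℕ → ℕ) (ρ : ℕ → ℕ → ℕ) : Prop :=
  (∀ c < 4, σ c < 4) ∧ (∀ c < 4, ∀ d < 4, σ c = σ d → c = d) ∧
  (∀ c < 4, ∀ v < m c, ρ c v < kNext k p (σ c)) ∧
  (∀ c < 4, ∀ v < m c, ∀ w < m c, ρ c v = ρ c w → v = w) ∧
  (∀ g ∈ G, ∃ f ∈ p :: F, ∀ c < 4, dg f (σ c) = ρ c (dg g c))

/-- Node `i` is justified.  Either (branching rule) there is a list `S` of at most `3 * mode`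
vertices such that every pattern in range avoiding `S` is impossible or leads to an earlier node;
or (mode 2 only, intersecting-remainder rule) there is a list `S` of at most 3 vertices such that
any two possible patterns avoiding `S` share a used digit in some part or are both disjoint from a
member of the family. -/
def NodeSpec (mode : ℕ) (fam : ℕ → List ℕ) (kk : ℕ → ℕ → ℕ) (i : ℕ) : Prop :=
  WfFam (fam i) (kk i) ∧
  ((∃ S : List ℕ, S.length ≤ 3 * mode ∧ WfS S (kk i) ∧
      ∀ p, inRange (kk i) p → avoids S p →
        incomp mode (fam i) p ∨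
        ∃ j, j < i ∧ ∃ σ ρ, RefOK (fam j) (kk j) (fam i) (kk i) p σ ρ) ∨
   (mode = 2 ∧ ∃ S : List ℕ, S.length ≤ 3 ∧ WfS S (kk i) ∧
      ∀ p q, inRange (kk i) p → inRange (kk i) q → avoids S p → avoids S q →
        ¬ incomp 2 (fam i) p → ¬ incomp 2 (fam i) q →
        (∃ c < 4, dg p c = dg q c ∧ dg p c < kk i c) ∨ ∃ f ∈ fam i, cdisj f p ∧ cdisj f q))

/-- A complete certificate: nodes `0, ..., N`, all justified, the last one being the one-edge
family. -/
def CertSpec (mode : ℕ) : Prop :=
  ∃ (fam : ℕ → List ℕ) (kk : ℕ → ℕ → ℕ) (N : ℕ),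
    (∀ i ≤ N, NodeSpec mode fam kk i) ∧ fam N = [0] ∧ ∀ c < 4, kk N c = 1

end Vale.Agent.Lib.P045
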