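import Mathlib
import Vale.Agent.Lib.P045.R42Spec

/-!
# From a certificate to covers of 4-partite hypergraphs

An edge of a 4-partite 4-uniform hypergraph is a function `Fin 4 → α` (the vertex of the edge in
each part; a vertex is a pair `(c, a)`).  `Tau H t` says that `H` has a vertex cover of at most `t`
vertices.  The main results: a certificate `CertSpec 1` gives covers of size 3 for intersecting
families, and `CertSpec 2` together with that gives covers of size 6 for families without three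
pairwise disjoint edges.
-/

namespace Vale.Agent.Lib.P045

universe u

variable {α : Type u}

/-- Two edges are disjoint. -/
def EDisj (e f : Fin 4 → α) : Prop := ∀ c, e c ≠ f c

/-- Any two edges of `H` meet. -/
def Nu1 (H : Set (Fin 4 → α)) : Prop := ∀ e ∈ H, ∀ f ∈ H, ¬ EDisj e f

/-- No three edges of `H` are pairwise disjoint. -/
def Nu2 (H : Set (Fin 4 → α)) : Prop :=
  ∀ e ∈ H, ∀ f ∈ H, ∀ g ∈ H, ¬ (EDisj e f ∧ EDisj e g ∧ EDisj f g)

/-- The matching condition of the given mode. -/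
def NuOK (mode : ℕ) (H : Set (Fin 4 → α)) : Prop := (mode = 1 → Nu1 H) ∧ (mode = 2 → Nu2 H)

/-- `H` has a vertex cover with at most `t` vertices. -/
def Tau (H : Set (Fin 4 → α)) (t : ℕ) : Prop :=
  ∃ S : Finset (Fin 4 × α), S.card ≤ t ∧ ∀ e ∈ H, ∃ c, (c, e c) ∈ S

/-- The edge obtained from the code `f` by the labelling `φ`. -/
def img (φ : Fin 4 → ℕ → α) (f : ℕ) : Fin 4 → α := fun c => φ c (dg f c)

/-- `φ` embeds the family `F` (with digit counts `k`) into `H`. -/
def Emb (F : List ℕ) (k : ℕ → ℕ) (H : Set (Fin 4 → α)) (φ : Fin 4 → ℕ → α) : Prop :=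
  (∀ c : Fin 4, Set.InjOn (φ c) (Set.Iio (k c))) ∧ ∀ f ∈ F, img φ f ∈ H

/-- Every hypergraph of the given mode containing a copy of `F` has a cover of size `3 * mode`. -/
def Claim (mode : ℕ) (α : Type u) (F : List ℕ) (k : ℕ → ℕ) : Prop :=
  ∀ H : Set (Fin 4 → α), NuOK mode H → ∀ φ, Emb F k H φ → Tau H (3 * mode)

theorem dg_zero (x : ℕ) : dg x 0 = x % 8 := by simp [dg]
theorem dg_one (x : ℕ) : dg x 1 = x / 8 % 8 := by simp [dg]
theorem dg_two (x : ℕ) : dg x 2 = x / 64 % 8 := by simp [dg]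
theorem dg_three (x : ℕ) : dg x 3 = x / 512 % 8 := by simp [dg]

theorem dg_lt (x c : ℕ) : dg x c < 8 := Nat.mod_lt _ (by norm_num)

/-- The code of a 4-tuple of digits. -/
def codeOf (p : Fin 4 → ℕ) : ℕ := p 0 + 8 * p 1 + 64 * p 2 + 512 * p 3

theorem codeOf_lt (p : Fin 4 → ℕ) (hp : ∀ c, p c ≤ 7) : codeOf p < 4096 := by
  have h0 := hp 0; have h1 := hp 1; have h2 := hp 2; have h3 := hp 3
  unfold codeOf; omega

theorem dg_codeOf (p : Fin 4 → ℕ) (hp : ∀ c, p c ≤ 7) (c : Fin 4) : dg (codeOf p) c = p c := by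
  have h0 := hp 0; have h1 := hp 1; have h2 := hp 2; have h3 := hp 3
  fin_cases c
  · show dg (codeOf p) 0 = p 0
    rw [dg_zero]; unfold codeOf; omega
  · show dg (codeOf p) 1 = p 1
    rw [dg_one]; unfold codeOf; omega
  · show dg (codeOf p) 2 = p 2
    rw [dg_two]; unfold codeOf; omega
  · show dg (codeOf p) 3 = p 3
    rw [dg_three]; unfold codeOf; omega

/-- The pattern of an edge `e` with respect to a labelling `φ`: a code in range whose used digits
are the labels of the vertices of `e`, the digit `k c` marking a vertex without label. -/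
theorem exists_pattern (k : ℕ → ℕ) (hk : ∀ c < 4, k c ≤ 7) (φ : Fin 4 → ℕ → α) (e : Fin 4 → α) :
    ∃ pc, inRange k pc ∧ (∀ c : Fin 4, dg pc c < k c → φ c (dg pc c) = e c) ∧
      (∀ c : Fin 4, dg pc c = k c → ∀ v < k c, φ c v ≠ e c) := by
  classical
  let p : Fin 4 → ℕ := fun c =>
    if h : ∃ v, v < k c ∧ φ c v = e c then h.choose else k c
  have hp7 : ∀ c, p c ≤ 7 := by
    intro c
    have hkc := hk c c.isLt
    by_cases h : ∃ v, v < k c ∧ φ c v = e c
    · have := h.choose_spec.1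
      simp only [p, dif_pos h]; omega
    · simp only [p, dif_neg h]; exact hkc
  refine ⟨codeOf p, ⟨codeOf_lt p hp7, ?_⟩, ?_, ?_⟩
  · intro c hc
    have := dg_codeOf p hp7 ⟨c, hc⟩
    simp only at this
    rw [this]
    by_cases h : ∃ v, v < k c ∧ φ ⟨c, hc⟩ v = e ⟨c, hc⟩
    · have := h.choose_spec.1
      simp only [p, dif_pos h]; omega
    · simp only [p, dif_neg h]; exact le_refl _
  · intro c hlt
    rw [dg_codeOf p hp7 c] at hlt ⊢
    by_cases h : ∃ v, v < k c ∧ φ c v = e c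
    · simp only [p, dif_pos h]
      exact h.choose_spec.2
    · simp only [p, dif_neg h] at hlt
      exact absurd hlt (lt_irrefl _)
  · intro c heq v hv hφ
    rw [dg_codeOf p hp7 c] at heq
    by_cases h : ∃ v, v < k c ∧ φ c v = e c
    · simp only [p, dif_pos h] at heq
      have := h.choose_spec.1
      omega
    · exact h ⟨v, hv, hφ⟩

theorem edisj_img {F : List ℕ} {k : ℕ → ℕ} (hwf : WfFam F k) {φ : Fin 4 → ℕ → α}
    (hinj : ∀ c : Fin 4, Set.InjOn (φ c) (Set.Iio (k c)))
    {f g : ℕ} (hf : f ∈ F) (hg : g ∈ F) (h : cdisj f g) : EDisj (img φ f) (img φ g) := by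
  intro c heq
  have hfc := (hwf.2 f hf).2 c c.isLt
  have hgc := (hwf.2 g hg).2 c c.isLt
  exact h c c.isLt (hinj c hfc hgc heq)

theorem edisj_pat {F : List ℕ} {k : ℕ → ℕ} (hwf : WfFam F k) {φ : Fin 4 → ℕ → α}
    (hinj : ∀ c : Fin 4, Set.InjOn (φ c) (Set.Iio (k c))) {e : Fin 4 → α} {pc : ℕ}
    (hr : inRange k pc) (hp1 : ∀ c : Fin 4, dg pc c < k c → φ c (dg pc c) = e c)
    (hp2 : ∀ c : Fin 4, dg pc c = k c → ∀ v < k c, φ c v ≠ e c)
    {f : ℕ} (hf : f ∈ F) (h : cdisj f pc) : EDisj (img φ f) e := by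
  intro c heq
  have hfc := (hwf.2 f hf).2 c c.isLt
  rcases Nat.lt_or_ge (dg pc c) (k c) with hlt | hge
  · have h1 := hp1 c hlt
    exact h c c.isLt (hinj c hfc hlt (heq.trans h1.symm))
  · have heqk : dg pc c = k c := le_antisymm (hr.2 c c.isLt) hge
    exact hp2 c heqk _ hfc heq

/-- The vertex labelled by the vertex code `x`. -/
def vmap (φ : Fin 4 → ℕ → α) (x : ℕ) : Fin 4 × α :=
  (⟨x / 8 % 4, Nat.mod_lt _ (by norm_num)⟩, φ ⟨x / 8 % 4, Nat.mod_lt _ (by norm_num)⟩ (x % 8))

open Classical in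
/-- The set of vertices labelled by the list `S` of vertex codes. -/
noncomputable def cover (φ : Fin 4 → ℕ → α) (S : List ℕ) : Finset (Fin 4 × α) :=
  (S.map (vmap φ)).toFinset

theorem cover_card (φ : Fin 4 → ℕ → α) (S : List ℕ) : (cover φ S).card ≤ S.length := by
  classical
  unfold cover
  exact (List.toFinset_card_le _).trans (by simp)

theorem avoids_of_not_covered {k : ℕ → ℕ} {S : List ℕ} (hS : WfS S k) {φ : Fin 4 → ℕ → α}
    {e : Fin 4 → α} {pc : ℕ} (hp1 : ∀ c : Fin 4, dg pc c < k c → φ c (dg pc c) = e c)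
    (hne : ∀ c, (c, e c) ∉ cover φ S) : avoids S pc := by
  classical
  intro c hc hmem
  have hx := hS _ hmem
  have hd : dg pc c < 8 := dg_lt _ _
  have h1 : (8 * c + dg pc c) / 8 = c := by omega
  have h2 : (8 * c + dg pc c) % 8 = dg pc c := by omega
  rw [h1, h2] at hx
  have h3 := hp1 ⟨c, hc⟩ hx.2
  apply hne ⟨c, hc⟩
  unfold cover
  rw [List.mem_toFinset, List.mem_map]
  refine ⟨_, hmem, ?_⟩
  have hfin : (⟨(8 * c + dg pc c) / 8 % 4, Nat.mod_lt _ (by norm_num)⟩ : Fin 4) = ⟨c, hc⟩ := by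
    apply Fin.ext
    show (8 * c + dg pc c) / 8 % 4 = c
    rw [h1]; exact Nat.mod_eq_of_lt hc
  unfold vmap
  rw [hfin, h2]
  exact Prod.ext rfl h3

/-- The labelling `φ` extended by the new vertices of the edge `e` with pattern `pc`. -/
def extL (φ : Fin 4 → ℕ → α) (k : ℕ → ℕ) (pc : ℕ) (e : Fin 4 → α) : Fin 4 → ℕ → α :=
  fun c v => if v = k c ∧ dg pc c = k c then e c else φ c v

theorem extL_old (φ : Fin 4 → ℕ → α) (k : ℕ → ℕ) (pc : ℕ) (e : Fin 4 → α) (c : Fin 4) {v : ℕ}
    (hv : v < k c) : extL φ k pc e c v = φ c v := by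
  unfold extL
  rw [if_neg]
  intro h
  omega

theorem extL_injOn {k : ℕ → ℕ} {φ : Fin 4 → ℕ → α}
    (hinj : ∀ c : Fin 4, Set.InjOn (φ c) (Set.Iio (k c))) {e : Fin 4 → α} {pc : ℕ}
    (hp2 : ∀ c : Fin 4, dg pc c = k c → ∀ v < k c, φ c v ≠ e c) (c : Fin 4) :
    Set.InjOn (extL φ k pc e c) (Set.Iio (kNext k pc c)) := by
  intro v hv w hw hvw
  simp only [Set.mem_Iio, kNext] at hv hw
  by_cases hnew : dg pc c = k c
  · rw [if_pos hnew] at hv hw
    rcases Nat.lt_or_ge v (k c) with hv' | hv' <;> rcases Nat.lt_or_ge w (k c) with hw' | hw'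
    · rw [extL_old φ k pc e c hv', extL_old φ k pc e c hw'] at hvw
      exact hinj c hv' hw' hvw
    · have hwk : w = k c := by omega
      rw [extL_old φ k pc e c hv'] at hvw
      have : extL φ k pc e c w = e c := by
        unfold extL; rw [if_pos ⟨hwk, hnew⟩]
      rw [this] at hvw
      exact absurd hvw (hp2 c hnew v hv')
    · have hvk : v = k c := by omega
      rw [extL_old φ k pc e c hw'] at hvw
      have : extL φ k pc e c v = e c := by
        unfold extL; rw [if_pos ⟨hvk, hnew⟩]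
      rw [this] at hvw
      exact absurd hvw.symm (hp2 c hnew w hw')
    · omega
  · rw [if_neg hnew] at hv hw
    rw [extL_old φ k pc e c hv, extL_old φ k pc e c hw] at hvw
    exact hinj c hv hw hvw

theorem img_extL_old {F : List ℕ} {k : ℕ → ℕ} (hwf : WfFam F k) (φ : Fin 4 → ℕ → α) (pc : ℕ)
    (e : Fin 4 → α) {f : ℕ} (hf : f ∈ F) : img (extL φ k pc e) f = img φ f := by
  funext c
  exact extL_old φ k pc e c ((hwf.2 f hf).2 c c.isLt)

theorem img_extL_pat {k : ℕ → ℕ} {φ : Fin 4 → ℕ → α} {e : Fin 4 → α} {pc : ℕ}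
    (hr : inRange k pc) (hp1 : ∀ c : Fin 4, dg pc c < k c → φ c (dg pc c) = e c) :
    img (extL φ k pc e) pc = e := by
  funext c
  show extL φ k pc e c (dg pc c) = e c
  rcases Nat.lt_or_ge (dg pc c) (k c) with hlt | hge
  · rw [extL_old φ k pc e c hlt]; exact hp1 c hlt
  · have heqk : dg pc c = k c := le_antisymm (hr.2 c c.isLt) hge
    unfold extL; rw [if_pos ⟨heqk, heqk⟩]

theorem nuOK_comp {mode : ℕ} {H : Set (Fin 4 → α)} (hH : NuOK mode H) (τ : Fin 4 → Fin 4)
    (hτ : Function.Surjective τ) : NuOK mode ((fun e : Fin 4 → α => e ∘ τ) '' H) := by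
  have key : ∀ e f : Fin 4 → α, EDisj (e ∘ τ) (f ∘ τ) → EDisj e f := by
    intro e f h d
    obtain ⟨c, rfl⟩ := hτ d
    exact h c
  constructor
  · intro hm
    rintro _ ⟨e, he, rfl⟩ _ ⟨f, hf, rfl⟩ hd
    exact hH.1 hm e he f hf (key e f hd)
  · intro hm
    rintro _ ⟨e, he, rfl⟩ _ ⟨f, hf, rfl⟩ _ ⟨g, hg, rfl⟩ ⟨h1, h2, h3⟩
    exact hH.2 hm e he f hf g hg ⟨key e f h1, key e g h2, key f g h3⟩

/-- Transport of a claim along a permutation of the parts and injective maps of the digits. -/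
theorem claim_transport (mode : ℕ) {G : List ℕ} {m : ℕ → ℕ} {F' : List ℕ} {k' : ℕ → ℕ}
    (σ : ℕ → ℕ) (ρ : ℕ → ℕ → ℕ)
    (hσ : ∀ c < 4, σ c < 4) (hσi : ∀ c < 4, ∀ d < 4, σ c = σ d → c = d)
    (hρ : ∀ c < 4, ∀ v < m c, ρ c v < k' (σ c))
    (hρi : ∀ c < 4, ∀ v < m c, ∀ w < m c, ρ c v = ρ c w → v = w)
    (hG : ∀ g ∈ G, ∃ f ∈ F', ∀ c < 4, dg f (σ c) = ρ c (dg g c))
    (hcl : Claim mode α G m) : Claim mode α F' k' := by
  classical
  intro H hH φ hemb
  let τ : Fin 4 → Fin 4 := fun c => ⟨σ c, hσ c c.isLt⟩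
  have hτi : Function.Injective τ := by
    intro c d h
    have h' : σ c = σ d := congrArg Fin.val h
    exact Fin.ext (hσi c c.isLt d d.isLt h')
  have hτs : Function.Surjective τ := Finite.injective_iff_surjective.mp hτi
  let ψ : Fin 4 → ℕ → α := fun c v => φ (τ c) (ρ c v)
  have hemb' : Emb G m ((fun e : Fin 4 → α => e ∘ τ) '' H) ψ := by
    constructor
    · intro c v hv w hw hvw
      simp only [Set.mem_Iio] at hv hw
      have h1 := hρ c c.isLt v hv
      have h2 := hρ c c.isLt w hw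
      exact hρi c c.isLt v hv w hw (hemb.1 (τ c) h1 h2 hvw)
    · intro g hg
      obtain ⟨f, hf, hfg⟩ := hG g hg
      refine ⟨img φ f, hemb.2 f hf, ?_⟩
      funext c
      show φ (τ c) (dg f (τ c)) = φ (τ c) (ρ c (dg g c))
      have := hfg c c.isLt
      show φ (τ c) (dg f (σ c)) = φ (τ c) (ρ c (dg g c))
      rw [this]
  obtain ⟨S, hcard, hcov⟩ := hcl _ (nuOK_comp hH τ hτs) ψ hemb'
  refine ⟨S.image (fun x : Fin 4 × α => (τ x.1, x.2)), (Finset.card_image_le).trans hcard, ?_⟩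
  intro e he
  obtain ⟨c, hc⟩ := hcov (e ∘ τ) ⟨e, he, rfl⟩
  refine ⟨τ c, ?_⟩
  rw [Finset.mem_image]
  exact ⟨(c, (e ∘ τ) c), hc, rfl⟩

/-- A node justified by `NodeSpec` satisfies its claim, given the claims of all earlier nodes and
(for the second rule) covers of size 3 for intersecting families. -/
theorem claim_of_nodeSpec (mode : ℕ) (hmode : mode = 1 ∨ mode = 2)
    (h41 : mode = 2 → ∀ H : Set (Fin 4 → α), Nu1 H → Tau H 3)
    (fam : ℕ → List ℕ) (kk : ℕ → ℕ → ℕ) (i : ℕ) (hspec : NodeSpec mode fam kk i)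
    (ih : ∀ j < i, Claim mode α (fam j) (kk j)) : Claim mode α (fam i) (kk i) := by
  classical
  obtain ⟨hwf, hrule⟩ := hspec
  intro H hH φ hemb
  have hk := hwf.1
  rcases hrule with ⟨S, hlen, hSwf, hbr⟩ | ⟨hm2, S, hlen, hSwf, hI⟩
  · -- branching rule
    by_cases hcov : ∀ e ∈ H, ∃ c, (c, e c) ∈ cover φ S
    · exact ⟨cover φ S, (cover_card φ S).trans hlen, hcov⟩
    · push Not at hcov
      obtain ⟨e, he, hne⟩ := hcov
      obtain ⟨pc, hr, hp1, hp2⟩ := exists_pattern (kk i) hk φ e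
      have hav : avoids S pc := avoids_of_not_covered hSwf hp1 hne
      rcases hbr pc hr hav with hinc | ⟨j, hj, σ, ρ, hσ, hσi, hρ, hρi, hG⟩
      · exfalso
        rcases hinc with ⟨hm, f, hf, hfp⟩ | ⟨hm, f, hf, g, hg, hfg, hfp, hgp⟩
        · exact hH.1 hm _ (hemb.2 f hf) e he (edisj_pat hwf hemb.1 hr hp1 hp2 hf hfp)
        · exact hH.2 hm _ (hemb.2 f hf) _ (hemb.2 g hg) e he
            ⟨edisj_img hwf hemb.1 hf hg hfg, edisj_pat hwf hemb.1 hr hp1 hp2 hf hfp,
              edisj_pat hwf hemb.1 hr hp1 hp2 hg hgp⟩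
      · have hcl : Claim mode α (pc :: fam i) (kNext (kk i) pc) :=
          claim_transport mode σ ρ hσ hσi hρ hρi hG (ih j hj)
        refine hcl H hH (extL φ (kk i) pc e) ⟨extL_injOn hemb.1 hp2, ?_⟩
        intro f hf
        rcases List.mem_cons.mp hf with rfl | hf'
        · rw [img_extL_pat hr hp1]; exact he
        · rw [img_extL_old hwf φ pc e hf']; exact hemb.2 f hf'
  · -- intersecting remainder
    have h41' := h41 hm2
    subst hm2
    have hnu2 : Nu2 H := hH.2 rfl
    let H' : Set (Fin 4 → α) := {e | e ∈ H ∧ ∀ c, (c, e c) ∉ cover φ S}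
    have hH' : Nu1 H' := by
      rintro e ⟨he, hne⟩ e' ⟨he', hne'⟩ hd
      obtain ⟨pc, hr, hp1, hp2⟩ := exists_pattern (kk i) hk φ e
      obtain ⟨qc, hr', hq1, hq2⟩ := exists_pattern (kk i) hk φ e'
      have hav : avoids S pc := avoids_of_not_covered hSwf hp1 hne
      have hav' : avoids S qc := avoids_of_not_covered hSwf hq1 hne'
      have hnp : ¬ incomp 2 (fam i) pc := by
        rintro (⟨hm, -⟩ | ⟨-, f, hf, g, hg, hfg, hfp, hgp⟩)
        · exact absurd hm (by norm_num)
        · exact hnu2 _ (hemb.2 f hf) _ (hemb.2 g hg) e he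
            ⟨edisj_img hwf hemb.1 hf hg hfg, edisj_pat hwf hemb.1 hr hp1 hp2 hf hfp,
              edisj_pat hwf hemb.1 hr hp1 hp2 hg hgp⟩
      have hnq : ¬ incomp 2 (fam i) qc := by
        rintro (⟨hm, -⟩ | ⟨-, f, hf, g, hg, hfg, hfp, hgp⟩)
        · exact absurd hm (by norm_num)
        · exact hnu2 _ (hemb.2 f hf) _ (hemb.2 g hg) e' he'
            ⟨edisj_img hwf hemb.1 hf hg hfg, edisj_pat hwf hemb.1 hr' hq1 hq2 hf hfp,
              edisj_pat hwf hemb.1 hr' hq1 hq2 hg hgp⟩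
      rcases hI pc qc hr hr' hav hav' hnp hnq with ⟨c, hc, hpq, hlt⟩ | ⟨f, hf, hfp, hfq⟩
      · have h1 := hp1 ⟨c, hc⟩ hlt
        have h2 := hq1 ⟨c, hc⟩ (by rw [← hpq]; exact hlt)
        apply hd ⟨c, hc⟩
        rw [← h1, ← h2]
        show φ ⟨c, hc⟩ (dg pc c) = φ ⟨c, hc⟩ (dg qc c)
        rw [hpq]
      · exact hnu2 _ (hemb.2 f hf) e he e' he'
          ⟨edisj_pat hwf hemb.1 hr hp1 hp2 hf hfp, edisj_pat hwf hemb.1 hr' hq1 hq2 hf hfq, hd⟩
    obtain ⟨S2, hS2, hcov2⟩ := h41' H' hH'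
    refine ⟨cover φ S ∪ S2, ?_, ?_⟩
    · have h1 := cover_card φ S
      have h2 := Finset.card_union_le (cover φ S) S2
      omega
    · intro e he
      by_cases hc : ∃ c, (c, e c) ∈ cover φ S
      · obtain ⟨c, hc⟩ := hc
        exact ⟨c, Finset.mem_union_left _ hc⟩
      · push Not at hc
        obtain ⟨c, hc2⟩ := hcov2 e ⟨he, hc⟩
        exact ⟨c, Finset.mem_union_right _ hc2⟩

/-- A complete certificate gives covers of size `3 * mode` for every hypergraph of that mode. -/
theorem tau_of_cert (mode : ℕ) (hmode : mode = 1 ∨ mode = 2) (hc : CertSpec mode)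
    (h41 : mode = 2 → ∀ H : Set (Fin 4 → α), Nu1 H → Tau H 3)
    (H : Set (Fin 4 → α)) (hH : NuOK mode H) : Tau H (3 * mode) := by
  classical
  obtain ⟨fam, kk, N, hnodes, hroot, hkroot⟩ := hc
  have hall : ∀ i, i ≤ N → Claim mode α (fam i) (kk i) := by
    intro i
    induction i using Nat.strong_induction_on with
    | _ i ih =>
      intro hi
      exact claim_of_nodeSpec mode hmode h41 fam kk i (hnodes i hi)
        (fun j hj => ih j hj (le_trans (le_of_lt hj) hi))
  have hrootc := hall N (le_refl N)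
  by_cases hne : H.Nonempty
  · obtain ⟨e, he⟩ := hne
    refine hrootc H hH (fun c _ => e c) ⟨?_, ?_⟩
    · intro c v hv w hw _
      simp only [Set.mem_Iio] at hv hw
      rw [hkroot c c.isLt] at hv hw
      omega
    · intro f hf
      rw [hroot] at hf
      have : img (fun c _ => e c) f = e := rfl
      rw [this]; exact he
  · rw [Set.not_nonempty_iff_eq_empty] at hne
    exact ⟨∅, by simp, by simp [hne]⟩

/-- Intersecting 4-partite families have covers of size 3 (from the mode-1 certificate). -/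
theorem tau_three_of_cert (hc1 : CertSpec 1) (H : Set (Fin 4 → α)) (hH : Nu1 H) : Tau H 3 :=
  tau_of_cert 1 (Or.inl rfl) hc1 (fun h => absurd h (by norm_num)) H
    ⟨fun _ => hH, fun h => absurd h (by norm_num)⟩

/-- Families without three pairwise disjoint edges have covers of size 6. -/
theorem tau_six_of_cert (hc1 : CertSpec 1) (hc2 : CertSpec 2) (H : Set (Fin 4 → α)) (hH : Nu2 H) :
    Tau H 6 :=
  tau_of_cert 2 (Or.inr rfl) hc2 (fun _ => tau_three_of_cert hc1) H
    ⟨fun h => absurd h (by norm_num), fun _ => hH⟩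

/-- The statement for hypergraphs given as sets of finite vertex sets: if every edge has exactly
one vertex in each of the four parts and the matching number is at most `ν ≤ 2`, then there is a
vertex cover of size at most `3 * ν`. -/
theorem ryser_four_of_cert (hc1 : CertSpec 1) (hc2 : CertSpec 2) {V : Type u} (part : V → Fin 4)
    (E : Set (Finset V)) (hE : ∀ e ∈ E, ∀ i : Fin 4, ∃! v, v ∈ e ∧ part v = i)
    (ν : ℕ) (hν2 : ν ≤ 2)
    (hν : ∀ M : Finset (Finset V), (∀ e ∈ M, e ∈ E) →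
      (∀ e ∈ M, ∀ f ∈ M, e ≠ f → Disjoint e f) → M.card ≤ ν) :
    ∃ C : Finset V, C.card ≤ 3 * ν ∧ ∀ e ∈ E, ∃ v ∈ C, v ∈ e := by
  classical
  let H : Set (Fin 4 → V) := {f | ∃ e ∈ E, ∀ i, f i ∈ e ∧ part (f i) = i}
  have hdisj : ∀ (f g : Fin 4 → V) (e e' : Finset V), e ∈ E → e' ∈ E →
      (∀ i, f i ∈ e ∧ part (f i) = i) → (∀ i, g i ∈ e' ∧ part (g i) = i) →
      EDisj f g → Disjoint e e' := by
    intro f g e e' he he' hf hg hd
    rw [Finset.disjoint_left]
    intro v hv hv'
    have h1 : f (part v) = v := (hE e he (part v)).unique (hf (part v)) ⟨hv, rfl⟩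
    have h2 : g (part v) = v := (hE e' he' (part v)).unique (hg (part v)) ⟨hv', rfl⟩
    exact hd (part v) (h1.trans h2.symm)
  have hne : ∀ e ∈ E, e.Nonempty := fun e he => ⟨_, (hE e he 0).exists.choose_spec.1⟩
  have hself : ∀ e ∈ E, ¬ Disjoint e e := fun e he h =>
    (hne e he).ne_empty (Finset.disjoint_self_iff_empty e |>.mp h)
  have hcoverOf : ∀ t, Tau H t → ∃ C : Finset V, C.card ≤ t ∧ ∀ e ∈ E, ∃ v ∈ C, v ∈ e := by
    rintro t ⟨S, hS, hcov⟩
    refine ⟨S.image Prod.snd, (Finset.card_image_le).trans hS, ?_⟩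
    intro e he
    let f : Fin 4 → V := fun i => (hE e he i).exists.choose
    have hf : ∀ i, f i ∈ e ∧ part (f i) = i := fun i => (hE e he i).exists.choose_spec
    obtain ⟨c, hc⟩ := hcov f ⟨e, he, hf⟩
    exact ⟨f c, Finset.mem_image.mpr ⟨(c, f c), hc, rfl⟩, (hf c).1⟩
  -- the matching number of `H` is controlled by `ν`
  have hmatch2 : ν ≤ 1 → Nu1 H := by
    rintro hν1 f ⟨e, he, hf⟩ g ⟨e', he', hg⟩ hd
    have hdis := hdisj f g e e' he he' hf hg hd
    have hne' : e ≠ e' := fun h => hself e he (h ▸ hdis)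
    have := hν {e, e'} (by
      intro x hx
      simp only [Finset.mem_insert, Finset.mem_singleton] at hx
      rcases hx with rfl | rfl
      · exact he
      · exact he') (by
      intro x hx y hy hxy
      simp only [Finset.mem_insert, Finset.mem_singleton] at hx hy
      rcases hx with rfl | rfl <;> rcases hy with rfl | rfl
      · exact absurd rfl hxy
      · exact hdis
      · exact hdis.symm
      · exact absurd rfl hxy)
    rw [Finset.card_pair hne'] at this
    omega
  have hmatch3 : Nu2 H := by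
    rintro f ⟨e, he, hf⟩ g ⟨e', he', hg⟩ h ⟨e'', he'', hh⟩ ⟨h1, h2, h3⟩
    have d1 := hdisj f g e e' he he' hf hg h1
    have d2 := hdisj f h e e'' he he'' hf hh h2
    have d3 := hdisj g h e' e'' he' he'' hg hh h3
    have n1 : e ≠ e' := fun hx => hself e he (hx ▸ d1)
    have n2 : e ≠ e'' := fun hx => hself e he (hx ▸ d2)
    have n3 : e' ≠ e'' := fun hx => hself e' he' (hx ▸ d3)
    have := hν {e, e', e''} (by
      intro x hx
      simp only [Finset.mem_insert, Finset.mem_singleton] at hx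
      rcases hx with rfl | rfl | rfl
      · exact he
      · exact he'
      · exact he'') (by
      intro x hx y hy hxy
      simp only [Finset.mem_insert, Finset.mem_singleton] at hx hy
      rcases hx with rfl | rfl | rfl <;> rcases hy with rfl | rfl | rfl
      · exact absurd rfl hxy
      · exact d1
      · exact d2
      · exact d1.symm
      · exact absurd rfl hxy
      · exact d3
      · exact d2.symm
      · exact d3.symm
      · exact absurd rfl hxy)
    rw [Finset.card_eq_three.mpr ⟨e, e', e'', n1, n2, n3, rfl⟩] at this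
    omega
  rcases Nat.lt_or_ge ν 1 with h0 | h1
  · -- no edges at all
    have hν0 : ν = 0 := by omega
    refine ⟨∅, by simp, ?_⟩
    intro e he
    have := hν {e} (by simpa using he) (by
      intro x hx y hy hxy
      rw [Finset.mem_singleton.mp hx, Finset.mem_singleton.mp hy] at hxy
      exact absurd rfl hxy)
    rw [Finset.card_singleton] at this
    omega
  · rcases Nat.lt_or_ge ν 2 with h2 | h2
    · have hν1 : ν = 1 := by omega
      subst hν1
      exact hcoverOf 3 (tau_three_of_cert hc1 H (hmatch2 (le_refl 1)))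
    · have hν2' : ν = 2 := by omega
      subst hν2'
      exact hcoverOf 6 (tau_six_of_cert hc1 hc2 H hmatch3)

end Vale.Agent.Lib.P045
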