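import Vale.Agent.Lib.P045.R42BD2

/-! Kernel-checked blocks of the certificate for matching number two (part 0). -/

namespace Vale.Agent.Lib.P045.RK

theorem ckB2_0 : ckB 2 tabB2 0 16 = true := by decide +kernel

theorem ckB2_1 : ckB 2 tabB2 16 16 = true := by decide +kernel

theorem ckB2_2 : ckB 2 tabB2 32 16 = true := by decide +kernel

theorem ckB2_3 : ckB 2 tabB2 48 16 = true := by decide +kernel

theorem ckB2_4 : ckB 2 tabB2 64 16 = true := by decide +kernel

theorem ckB2_5 : ckB 2 tabB2 80 16 = true := by decide +kernel

theorem ckB2_6 : ckB 2 tabB2 96 16 = true := by decide +kernel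

theorem ckB2_7 : ckB 2 tabB2 112 16 = true := by decide +kernel

theorem ckB2_8 : ckB 2 tabB2 128 16 = true := by decide +kernel

theorem ckB2_9 : ckB 2 tabB2 144 16 = true := by decide +kernel

theorem ckB2_10 : ckB 2 tabB2 160 16 = true := by decide +kernel

theorem ckB2_11 : ckB 2 tabB2 176 16 = true := by decide +kernel

theorem ckB2_12 : ckB 2 tabB2 192 16 = true := by decide +kernel

theorem ckB2_13 : ckB 2 tabB2 208 16 = true := by decide +kernel

theorem ckB2_14 : ckB 2 tabB2 224 16 = true := by decide +kernel

theorem ckB2_15 : ckB 2 tabB2 240 16 = true := by decide +kernel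

theorem ckB2_16 : ckB 2 tabB2 256 16 = true := by decide +kernel

theorem ckB2_17 : ckB 2 tabB2 272 16 = true := by decide +kernel

theorem ckB2_18 : ckB 2 tabB2 288 16 = true := by decide +kernel

theorem ckB2_19 : ckB 2 tabB2 304 16 = true := by decide +kernel

theorem ckB2_20 : ckB 2 tabB2 320 16 = true := by decide +kernel

theorem ckB2_21 : ckB 2 tabB2 336 16 = true := by decide +kernel

theorem ckB2_22 : ckB 2 tabB2 352 16 = true := by decide +kernel

theorem ckB2_23 : ckB 2 tabB2 368 16 = true := by decide +kernel

theorem ckB2_24 : ckB 2 tabB2 384 16 = true := by decide +kernel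

theorem ckB2_25 : ckB 2 tabB2 400 16 = true := by decide +kernel

theorem ckB2_26 : ckB 2 tabB2 416 16 = true := by decide +kernel

theorem ckB2_27 : ckB 2 tabB2 432 16 = true := by decide +kernel

theorem ckB2_28 : ckB 2 tabB2 448 16 = true := by decide +kernel

theorem ckB2_29 : ckB 2 tabB2 464 16 = true := by decide +kernel

theorem ckB2_30 : ckB 2 tabB2 480 16 = true := by decide +kernel

theorem ckB2_31 : ckB 2 tabB2 496 16 = true := by decide +kernel

theorem ckB2_32 : ckB 2 tabB2 512 16 = true := by decide +kernel

theorem ckB2_33 : ckB 2 tabB2 528 16 = true := by decide +kernel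

theorem ckB2_34 : ckB 2 tabB2 544 16 = true := by decide +kernel

theorem ckB2_35 : ckB 2 tabB2 560 16 = true := by decide +kernel

theorem ckB2_36 : ckB 2 tabB2 576 16 = true := by decide +kernel

theorem ckB2_37 : ckB 2 tabB2 592 16 = true := by decide +kernel

theorem ckB2_38 : ckB 2 tabB2 608 16 = true := by decide +kernel

end Vale.Agent.Lib.P045.RK
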