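import Vale.Agent.Lib.P045.R42BC2a

/-! Kernel-checked blocks of the certificate for matching number two (part 1). -/

namespace Vale.Agent.Lib.P045.RK

theorem ckB2_39 : ckB 2 tabB2 624 16 = true := by decide +kernel

theorem ckB2_40 : ckB 2 tabB2 640 16 = true := by decide +kernel

theorem ckB2_41 : ckB 2 tabB2 656 16 = true := by decide +kernel

theorem ckB2_42 : ckB 2 tabB2 672 16 = true := by decide +kernel

theorem ckB2_43 : ckB 2 tabB2 688 16 = true := by decide +kernel

theorem ckB2_44 : ckB 2 tabB2 704 16 = true := by decide +kernel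

theorem ckB2_45 : ckB 2 tabB2 720 16 = true := by decide +kernel

theorem ckB2_46 : ckB 2 tabB2 736 16 = true := by decide +kernel

theorem ckB2_47 : ckB 2 tabB2 752 16 = true := by decide +kernel

theorem ckB2_48 : ckB 2 tabB2 768 16 = true := by decide +kernel

theorem ckB2_49 : ckB 2 tabB2 784 16 = true := by decide +kernel

theorem ckB2_50 : ckB 2 tabB2 800 16 = true := by decide +kernel

theorem ckB2_51 : ckB 2 tabB2 816 16 = true := by decide +kernel

theorem ckB2_52 : ckB 2 tabB2 832 16 = true := by decide +kernel

theorem ckB2_53 : ckB 2 tabB2 848 16 = true := by decide +kernel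

theorem ckB2_54 : ckB 2 tabB2 864 16 = true := by decide +kernel

theorem ckB2_55 : ckB 2 tabB2 880 16 = true := by decide +kernel

theorem ckB2_56 : ckB 2 tabB2 896 16 = true := by decide +kernel

theorem ckB2_57 : ckB 2 tabB2 912 16 = true := by decide +kernel

theorem ckB2_58 : ckB 2 tabB2 928 16 = true := by decide +kernel

theorem ckB2_59 : ckB 2 tabB2 944 16 = true := by decide +kernel

theorem ckB2_60 : ckB 2 tabB2 960 16 = true := by decide +kernel

theorem ckB2_61 : ckB 2 tabB2 976 16 = true := by decide +kernel

theorem ckB2_62 : ckB 2 tabB2 992 16 = true := by decide +kernel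

theorem ckB2_63 : ckB 2 tabB2 1008 16 = true := by decide +kernel

theorem ckB2_64 : ckB 2 tabB2 1024 16 = true := by decide +kernel

theorem ckB2_65 : ckB 2 tabB2 1040 16 = true := by decide +kernel

theorem ckB2_66 : ckB 2 tabB2 1056 16 = true := by decide +kernel

theorem ckB2_67 : ckB 2 tabB2 1072 16 = true := by decide +kernel

theorem ckB2_68 : ckB 2 tabB2 1088 16 = true := by decide +kernel

theorem ckB2_69 : ckB 2 tabB2 1104 16 = true := by decide +kernel

theorem ckB2_70 : ckB 2 tabB2 1120 16 = true := by decide +kernel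

theorem ckB2_71 : ckB 2 tabB2 1136 16 = true := by decide +kernel

theorem ckB2_72 : ckB 2 tabB2 1152 16 = true := by decide +kernel

theorem ckB2_73 : ckB 2 tabB2 1168 16 = true := by decide +kernel

theorem ckB2_74 : ckB 2 tabB2 1184 16 = true := by decide +kernel

theorem ckB2_75 : ckB 2 tabB2 1200 16 = true := by decide +kernel

theorem ckB2_76 : ckB 2 tabB2 1216 16 = true := by decide +kernel

theorem ckB2_77 : ckB 2 tabB2 1232 16 = true := by decide +kernel

end Vale.Agent.Lib.P045.RK
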