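import Vale.Agent.Lib.P045.R42BC2b

/-! Kernel-checked blocks of the certificate for matching number two (part 2). -/

namespace Vale.Agent.Lib.P045.RK

theorem ckB2_78 : ckB 2 tabB2 1248 16 = true := by decide +kernel

theorem ckB2_79 : ckB 2 tabB2 1264 16 = true := by decide +kernel

theorem ckB2_80 : ckB 2 tabB2 1280 16 = true := by decide +kernel

theorem ckB2_81 : ckB 2 tabB2 1296 16 = true := by decide +kernel

theorem ckB2_82 : ckB 2 tabB2 1312 16 = true := by decide +kernel

theorem ckB2_83 : ckB 2 tabB2 1328 16 = true := by decide +kernel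

theorem ckB2_84 : ckB 2 tabB2 1344 16 = true := by decide +kernel

theorem ckB2_85 : ckB 2 tabB2 1360 16 = true := by decide +kernel

theorem ckB2_86 : ckB 2 tabB2 1376 16 = true := by decide +kernel

theorem ckB2_87 : ckB 2 tabB2 1392 16 = true := by decide +kernel

theorem ckB2_88 : ckB 2 tabB2 1408 16 = true := by decide +kernel

theorem ckB2_89 : ckB 2 tabB2 1424 16 = true := by decide +kernel

theorem ckB2_90 : ckB 2 tabB2 1440 16 = true := by decide +kernel

theorem ckB2_91 : ckB 2 tabB2 1456 16 = true := by decide +kernel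

theorem ckB2_92 : ckB 2 tabB2 1472 16 = true := by decide +kernel

theorem ckB2_93 : ckB 2 tabB2 1488 16 = true := by decide +kernel

theorem ckB2_94 : ckB 2 tabB2 1504 16 = true := by decide +kernel

theorem ckB2_95 : ckB 2 tabB2 1520 16 = true := by decide +kernel

theorem ckB2_96 : ckB 2 tabB2 1536 16 = true := by decide +kernel

theorem ckB2_97 : ckB 2 tabB2 1552 16 = true := by decide +kernel

theorem ckB2_98 : ckB 2 tabB2 1568 16 = true := by decide +kernel

theorem ckB2_99 : ckB 2 tabB2 1584 16 = true := by decide +kernel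

theorem ckB2_100 : ckB 2 tabB2 1600 16 = true := by decide +kernel

theorem ckB2_101 : ckB 2 tabB2 1616 16 = true := by decide +kernel

theorem ckB2_102 : ckB 2 tabB2 1632 16 = true := by decide +kernel

theorem ckB2_103 : ckB 2 tabB2 1648 16 = true := by decide +kernel

theorem ckB2_104 : ckB 2 tabB2 1664 16 = true := by decide +kernel

theorem ckB2_105 : ckB 2 tabB2 1680 16 = true := by decide +kernel

theorem ckB2_106 : ckB 2 tabB2 1696 16 = true := by decide +kernel

theorem ckB2_107 : ckB 2 tabB2 1712 16 = true := by decide +kernel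

theorem ckB2_108 : ckB 2 tabB2 1728 16 = true := by decide +kernel

theorem ckB2_109 : ckB 2 tabB2 1744 16 = true := by decide +kernel

theorem ckB2_110 : ckB 2 tabB2 1760 16 = true := by decide +kernel

theorem ckB2_111 : ckB 2 tabB2 1776 16 = true := by decide +kernel

theorem ckB2_112 : ckB 2 tabB2 1792 16 = true := by decide +kernel

theorem ckB2_113 : ckB 2 tabB2 1808 16 = true := by decide +kernel

theorem ckB2_114 : ckB 2 tabB2 1824 16 = true := by decide +kernel

theorem ckB2_115 : ckB 2 tabB2 1840 16 = true := by decide +kernel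

theorem ckB2_116 : ckB 2 tabB2 1856 16 = true := by decide +kernel

end Vale.Agent.Lib.P045.RK
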