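import Vale.Agent.Lib.P045.R42BC2c

/-! Kernel-checked blocks of the certificate for matching number two (part 3). -/

namespace Vale.Agent.Lib.P045.RK

theorem ckB2_117 : ckB 2 tabB2 1872 16 = true := by decide +kernel

theorem ckB2_118 : ckB 2 tabB2 1888 16 = true := by decide +kernel

theorem ckB2_119 : ckB 2 tabB2 1904 16 = true := by decide +kernel

theorem ckB2_120 : ckB 2 tabB2 1920 16 = true := by decide +kernel

theorem ckB2_121 : ckB 2 tabB2 1936 16 = true := by decide +kernel

theorem ckB2_122 : ckB 2 tabB2 1952 16 = true := by decide +kernel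

theorem ckB2_123 : ckB 2 tabB2 1968 16 = true := by decide +kernel

theorem ckB2_124 : ckB 2 tabB2 1984 16 = true := by decide +kernel

theorem ckB2_125 : ckB 2 tabB2 2000 16 = true := by decide +kernel

theorem ckB2_126 : ckB 2 tabB2 2016 16 = true := by decide +kernel

theorem ckB2_127 : ckB 2 tabB2 2032 16 = true := by decide +kernel

theorem ckB2_128 : ckB 2 tabB2 2048 16 = true := by decide +kernel

theorem ckB2_129 : ckB 2 tabB2 2064 16 = true := by decide +kernel

theorem ckB2_130 : ckB 2 tabB2 2080 16 = true := by decide +kernel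

theorem ckB2_131 : ckB 2 tabB2 2096 16 = true := by decide +kernel

theorem ckB2_132 : ckB 2 tabB2 2112 16 = true := by decide +kernel

theorem ckB2_133 : ckB 2 tabB2 2128 16 = true := by decide +kernel

theorem ckB2_134 : ckB 2 tabB2 2144 16 = true := by decide +kernel

theorem ckB2_135 : ckB 2 tabB2 2160 16 = true := by decide +kernel

theorem ckB2_136 : ckB 2 tabB2 2176 16 = true := by decide +kernel

theorem ckB2_137 : ckB 2 tabB2 2192 16 = true := by decide +kernel

theorem ckB2_138 : ckB 2 tabB2 2208 16 = true := by decide +kernel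

theorem ckB2_139 : ckB 2 tabB2 2224 16 = true := by decide +kernel

theorem ckB2_140 : ckB 2 tabB2 2240 16 = true := by decide +kernel

theorem ckB2_141 : ckB 2 tabB2 2256 16 = true := by decide +kernel

theorem ckB2_142 : ckB 2 tabB2 2272 16 = true := by decide +kernel

theorem ckB2_143 : ckB 2 tabB2 2288 16 = true := by decide +kernel

theorem ckB2_144 : ckB 2 tabB2 2304 16 = true := by decide +kernel

theorem ckB2_145 : ckB 2 tabB2 2320 16 = true := by decide +kernel

theorem ckB2_146 : ckB 2 tabB2 2336 16 = true := by decide +kernel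

theorem ckB2_147 : ckB 2 tabB2 2352 16 = true := by decide +kernel

theorem ckB2_148 : ckB 2 tabB2 2368 16 = true := by decide +kernel

theorem ckB2_149 : ckB 2 tabB2 2384 16 = true := by decide +kernel

theorem ckB2_150 : ckB 2 tabB2 2400 16 = true := by decide +kernel

theorem ckB2_151 : ckB 2 tabB2 2416 16 = true := by decide +kernel

theorem ckB2_152 : ckB 2 tabB2 2432 16 = true := by decide +kernel

theorem ckB2_153 : ckB 2 tabB2 2448 16 = true := by decide +kernel

theorem ckB2_154 : ckB 2 tabB2 2464 16 = true := by decide +kernel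

theorem ckB2_155 : ckB 2 tabB2 2480 16 = true := by decide +kernel

end Vale.Agent.Lib.P045.RK
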