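import Vale.Agent.Lib.P045.R42BC2d

/-! Kernel-checked blocks of the certificate for matching number two (part 4). -/

namespace Vale.Agent.Lib.P045.RK

theorem ckB2_156 : ckB 2 tabB2 2496 16 = true := by decide +kernel

theorem ckB2_157 : ckB 2 tabB2 2512 16 = true := by decide +kernel

theorem ckB2_158 : ckB 2 tabB2 2528 16 = true := by decide +kernel

theorem ckB2_159 : ckB 2 tabB2 2544 16 = true := by decide +kernel

theorem ckB2_160 : ckB 2 tabB2 2560 16 = true := by decide +kernel

theorem ckB2_161 : ckB 2 tabB2 2576 16 = true := by decide +kernel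

theorem ckB2_162 : ckB 2 tabB2 2592 16 = true := by decide +kernel

theorem ckB2_163 : ckB 2 tabB2 2608 16 = true := by decide +kernel

theorem ckB2_164 : ckB 2 tabB2 2624 16 = true := by decide +kernel

theorem ckB2_165 : ckB 2 tabB2 2640 16 = true := by decide +kernel

theorem ckB2_166 : ckB 2 tabB2 2656 16 = true := by decide +kernel

theorem ckB2_167 : ckB 2 tabB2 2672 16 = true := by decide +kernel

theorem ckB2_168 : ckB 2 tabB2 2688 16 = true := by decide +kernel

theorem ckB2_169 : ckB 2 tabB2 2704 16 = true := by decide +kernel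

theorem ckB2_170 : ckB 2 tabB2 2720 16 = true := by decide +kernel

theorem ckB2_171 : ckB 2 tabB2 2736 16 = true := by decide +kernel

theorem ckB2_172 : ckB 2 tabB2 2752 16 = true := by decide +kernel

theorem ckB2_173 : ckB 2 tabB2 2768 16 = true := by decide +kernel

theorem ckB2_174 : ckB 2 tabB2 2784 16 = true := by decide +kernel

theorem ckB2_175 : ckB 2 tabB2 2800 16 = true := by decide +kernel

theorem ckB2_176 : ckB 2 tabB2 2816 16 = true := by decide +kernel

theorem ckB2_177 : ckB 2 tabB2 2832 16 = true := by decide +kernel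

theorem ckB2_178 : ckB 2 tabB2 2848 16 = true := by decide +kernel

theorem ckB2_179 : ckB 2 tabB2 2864 16 = true := by decide +kernel

theorem ckB2_180 : ckB 2 tabB2 2880 16 = true := by decide +kernel

theorem ckB2_181 : ckB 2 tabB2 2896 16 = true := by decide +kernel

theorem ckB2_182 : ckB 2 tabB2 2912 16 = true := by decide +kernel

theorem ckB2_183 : ckB 2 tabB2 2928 16 = true := by decide +kernel

theorem ckB2_184 : ckB 2 tabB2 2944 16 = true := by decide +kernel

theorem ckB2_185 : ckB 2 tabB2 2960 16 = true := by decide +kernel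

theorem ckB2_186 : ckB 2 tabB2 2976 16 = true := by decide +kernel

theorem ckB2_187 : ckB 2 tabB2 2992 16 = true := by decide +kernel

theorem ckB2_188 : ckB 2 tabB2 3008 16 = true := by decide +kernel

theorem ckB2_189 : ckB 2 tabB2 3024 16 = true := by decide +kernel

theorem ckB2_190 : ckB 2 tabB2 3040 16 = true := by decide +kernel

theorem ckB2_191 : ckB 2 tabB2 3056 16 = true := by decide +kernel

theorem ckB2_192 : ckB 2 tabB2 3072 16 = true := by decide +kernel

theorem ckB2_193 : ckB 2 tabB2 3088 16 = true := by decide +kernel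

theorem ckB2_194 : ckB 2 tabB2 3104 16 = true := by decide +kernel

end Vale.Agent.Lib.P045.RK
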