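import Vale.Agent.Lib.P045.R42BC2e

/-! Kernel-checked blocks of the certificate for matching number two (part 5). -/

namespace Vale.Agent.Lib.P045.RK

theorem ckB2_195 : ckB 2 tabB2 3120 16 = true := by decide +kernel

theorem ckB2_196 : ckB 2 tabB2 3136 16 = true := by decide +kernel

theorem ckB2_197 : ckB 2 tabB2 3152 16 = true := by decide +kernel

theorem ckB2_198 : ckB 2 tabB2 3168 16 = true := by decide +kernel

theorem ckB2_199 : ckB 2 tabB2 3184 16 = true := by decide +kernel

theorem ckB2_200 : ckB 2 tabB2 3200 16 = true := by decide +kernel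

theorem ckB2_201 : ckB 2 tabB2 3216 16 = true := by decide +kernel

theorem ckB2_202 : ckB 2 tabB2 3232 16 = true := by decide +kernel

theorem ckB2_203 : ckB 2 tabB2 3248 16 = true := by decide +kernel

theorem ckB2_204 : ckB 2 tabB2 3264 16 = true := by decide +kernel

theorem ckB2_205 : ckB 2 tabB2 3280 16 = true := by decide +kernel

theorem ckB2_206 : ckB 2 tabB2 3296 16 = true := by decide +kernel

theorem ckB2_207 : ckB 2 tabB2 3312 16 = true := by decide +kernel

theorem ckB2_208 : ckB 2 tabB2 3328 16 = true := by decide +kernel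

theorem ckB2_209 : ckB 2 tabB2 3344 16 = true := by decide +kernel

theorem ckB2_210 : ckB 2 tabB2 3360 16 = true := by decide +kernel

theorem ckB2_211 : ckB 2 tabB2 3376 16 = true := by decide +kernel

theorem ckB2_212 : ckB 2 tabB2 3392 16 = true := by decide +kernel

theorem ckB2_213 : ckB 2 tabB2 3408 16 = true := by decide +kernel

theorem ckB2_214 : ckB 2 tabB2 3424 16 = true := by decide +kernel

theorem ckB2_215 : ckB 2 tabB2 3440 16 = true := by decide +kernel

theorem ckB2_216 : ckB 2 tabB2 3456 16 = true := by decide +kernel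

theorem ckB2_217 : ckB 2 tabB2 3472 16 = true := by decide +kernel

theorem ckB2_218 : ckB 2 tabB2 3488 16 = true := by decide +kernel

theorem ckB2_219 : ckB 2 tabB2 3504 16 = true := by decide +kernel

theorem ckB2_220 : ckB 2 tabB2 3520 16 = true := by decide +kernel

theorem ckB2_221 : ckB 2 tabB2 3536 16 = true := by decide +kernel

theorem ckB2_222 : ckB 2 tabB2 3552 16 = true := by decide +kernel

theorem ckB2_223 : ckB 2 tabB2 3568 16 = true := by decide +kernel

theorem ckB2_224 : ckB 2 tabB2 3584 16 = true := by decide +kernel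

theorem ckB2_225 : ckB 2 tabB2 3600 16 = true := by decide +kernel

theorem ckB2_226 : ckB 2 tabB2 3616 16 = true := by decide +kernel

theorem ckB2_227 : ckB 2 tabB2 3632 16 = true := by decide +kernel

theorem ckB2_228 : ckB 2 tabB2 3648 16 = true := by decide +kernel

theorem ckB2_229 : ckB 2 tabB2 3664 16 = true := by decide +kernel

theorem ckB2_230 : ckB 2 tabB2 3680 16 = true := by decide +kernel

theorem ckB2_231 : ckB 2 tabB2 3696 16 = true := by decide +kernel

theorem ckB2_232 : ckB 2 tabB2 3712 16 = true := by decide +kernel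

theorem ckB2_233 : ckB 2 tabB2 3728 16 = true := by decide +kernel

end Vale.Agent.Lib.P045.RK
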