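import Vale.Agent.Lib.P045.R42BC2f

/-! Kernel-checked blocks of the certificate for matching number two (part 6). -/

namespace Vale.Agent.Lib.P045.RK

theorem ckB2_234 : ckB 2 tabB2 3744 16 = true := by decide +kernel

theorem ckB2_235 : ckB 2 tabB2 3760 16 = true := by decide +kernel

theorem ckB2_236 : ckB 2 tabB2 3776 16 = true := by decide +kernel

theorem ckB2_237 : ckB 2 tabB2 3792 16 = true := by decide +kernel

theorem ckB2_238 : ckB 2 tabB2 3808 16 = true := by decide +kernel

theorem ckB2_239 : ckB 2 tabB2 3824 16 = true := by decide +kernel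

theorem ckB2_240 : ckB 2 tabB2 3840 16 = true := by decide +kernel

theorem ckB2_241 : ckB 2 tabB2 3856 16 = true := by decide +kernel

theorem ckB2_242 : ckB 2 tabB2 3872 16 = true := by decide +kernel

theorem ckB2_243 : ckB 2 tabB2 3888 16 = true := by decide +kernel

theorem ckB2_244 : ckB 2 tabB2 3904 16 = true := by decide +kernel

theorem ckB2_245 : ckB 2 tabB2 3920 16 = true := by decide +kernel

theorem ckB2_246 : ckB 2 tabB2 3936 16 = true := by decide +kernel

theorem ckB2_247 : ckB 2 tabB2 3952 16 = true := by decide +kernel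

theorem ckB2_248 : ckB 2 tabB2 3968 16 = true := by decide +kernel

theorem ckB2_249 : ckB 2 tabB2 3984 16 = true := by decide +kernel

theorem ckB2_250 : ckB 2 tabB2 4000 16 = true := by decide +kernel

theorem ckB2_251 : ckB 2 tabB2 4016 16 = true := by decide +kernel

theorem ckB2_252 : ckB 2 tabB2 4032 16 = true := by decide +kernel

theorem ckB2_253 : ckB 2 tabB2 4048 16 = true := by decide +kernel

theorem ckB2_254 : ckB 2 tabB2 4064 16 = true := by decide +kernel

theorem ckB2_255 : ckB 2 tabB2 4080 16 = true := by decide +kernel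

theorem ckB2_256 : ckB 2 tabB2 4096 16 = true := by decide +kernel

theorem ckB2_257 : ckB 2 tabB2 4112 16 = true := by decide +kernel

theorem ckB2_258 : ckB 2 tabB2 4128 16 = true := by decide +kernel

theorem ckB2_259 : ckB 2 tabB2 4144 16 = true := by decide +kernel

theorem ckB2_260 : ckB 2 tabB2 4160 16 = true := by decide +kernel

theorem ckB2_261 : ckB 2 tabB2 4176 16 = true := by decide +kernel

theorem ckB2_262 : ckB 2 tabB2 4192 16 = true := by decide +kernel

theorem ckB2_263 : ckB 2 tabB2 4208 16 = true := by decide +kernel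

theorem ckB2_264 : ckB 2 tabB2 4224 16 = true := by decide +kernel

theorem ckB2_265 : ckB 2 tabB2 4240 16 = true := by decide +kernel

theorem ckB2_266 : ckB 2 tabB2 4256 16 = true := by decide +kernel

theorem ckB2_267 : ckB 2 tabB2 4272 16 = true := by decide +kernel

theorem ckB2_268 : ckB 2 tabB2 4288 16 = true := by decide +kernel

theorem ckB2_269 : ckB 2 tabB2 4304 16 = true := by decide +kernel

theorem ckB2_270 : ckB 2 tabB2 4320 16 = true := by decide +kernel

theorem ckB2_271 : ckB 2 tabB2 4336 16 = true := by decide +kernel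

theorem ckB2_272 : ckB 2 tabB2 4352 16 = true := by decide +kernel

end Vale.Agent.Lib.P045.RK
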