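import Vale.Agent.Lib.P045.R42BC2g

/-! Kernel-checked blocks of the certificate for matching number two (part 7). -/

namespace Vale.Agent.Lib.P045.RK

theorem ckB2_273 : ckB 2 tabB2 4368 16 = true := by decide +kernel

theorem ckB2_274 : ckB 2 tabB2 4384 16 = true := by decide +kernel

theorem ckB2_275 : ckB 2 tabB2 4400 16 = true := by decide +kernel

theorem ckB2_276 : ckB 2 tabB2 4416 16 = true := by decide +kernel

theorem ckB2_277 : ckB 2 tabB2 4432 16 = true := by decide +kernel

theorem ckB2_278 : ckB 2 tabB2 4448 16 = true := by decide +kernel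

theorem ckB2_279 : ckB 2 tabB2 4464 16 = true := by decide +kernel

theorem ckB2_280 : ckB 2 tabB2 4480 16 = true := by decide +kernel

theorem ckB2_281 : ckB 2 tabB2 4496 16 = true := by decide +kernel

theorem ckB2_282 : ckB 2 tabB2 4512 16 = true := by decide +kernel

theorem ckB2_283 : ckB 2 tabB2 4528 16 = true := by decide +kernel

theorem ckB2_284 : ckB 2 tabB2 4544 16 = true := by decide +kernel

theorem ckB2_285 : ckB 2 tabB2 4560 16 = true := by decide +kernel

theorem ckB2_286 : ckB 2 tabB2 4576 16 = true := by decide +kernel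

theorem ckB2_287 : ckB 2 tabB2 4592 16 = true := by decide +kernel

theorem ckB2_288 : ckB 2 tabB2 4608 16 = true := by decide +kernel

theorem ckB2_289 : ckB 2 tabB2 4624 16 = true := by decide +kernel

theorem ckB2_290 : ckB 2 tabB2 4640 16 = true := by decide +kernel

theorem ckB2_291 : ckB 2 tabB2 4656 16 = true := by decide +kernel

theorem ckB2_292 : ckB 2 tabB2 4672 16 = true := by decide +kernel

theorem ckB2_293 : ckB 2 tabB2 4688 16 = true := by decide +kernel

theorem ckB2_294 : ckB 2 tabB2 4704 16 = true := by decide +kernel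

theorem ckB2_295 : ckB 2 tabB2 4720 16 = true := by decide +kernel

theorem ckB2_296 : ckB 2 tabB2 4736 16 = true := by decide +kernel

theorem ckB2_297 : ckB 2 tabB2 4752 16 = true := by decide +kernel

theorem ckB2_298 : ckB 2 tabB2 4768 16 = true := by decide +kernel

theorem ckB2_299 : ckB 2 tabB2 4784 16 = true := by decide +kernel

theorem ckB2_300 : ckB 2 tabB2 4800 16 = true := by decide +kernel

theorem ckB2_301 : ckB 2 tabB2 4816 16 = true := by decide +kernel

theorem ckB2_302 : ckB 2 tabB2 4832 16 = true := by decide +kernel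

theorem ckB2_303 : ckB 2 tabB2 4848 16 = true := by decide +kernel

theorem ckB2_304 : ckB 2 tabB2 4864 16 = true := by decide +kernel

theorem ckB2_305 : ckB 2 tabB2 4880 16 = true := by decide +kernel

theorem ckB2_306 : ckB 2 tabB2 4896 16 = true := by decide +kernel

theorem ckB2_307 : ckB 2 tabB2 4912 16 = true := by decide +kernel

theorem ckB2_308 : ckB 2 tabB2 4928 16 = true := by decide +kernel

theorem ckB2_309 : ckB 2 tabB2 4944 16 = true := by decide +kernel

theorem ckB2_310 : ckB 2 tabB2 4960 16 = true := by decide +kernel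

theorem ckB2_311 : ckB 2 tabB2 4976 16 = true := by decide +kernel

end Vale.Agent.Lib.P045.RK
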