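import Vale.Agent.Lib.P045.R42BD2

/-! Kernel-checked blocks of the certificate for matching number two (part 8). -/

namespace Vale.Agent.Lib.P045.RK

theorem ckB2_312 : ckB 2 tabB2 4992 16 = true := by decide +kernel

theorem ckB2_313 : ckB 2 tabB2 5008 16 = true := by decide +kernel

theorem ckB2_314 : ckB 2 tabB2 5024 16 = true := by decide +kernel

theorem ckB2_315 : ckB 2 tabB2 5040 16 = true := by decide +kernel

theorem ckB2_316 : ckB 2 tabB2 5056 16 = true := by decide +kernel

theorem ckB2_317 : ckB 2 tabB2 5072 16 = true := by decide +kernel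

theorem ckB2_318 : ckB 2 tabB2 5088 16 = true := by decide +kernel

theorem ckB2_319 : ckB 2 tabB2 5104 16 = true := by decide +kernel

theorem ckB2_320 : ckB 2 tabB2 5120 16 = true := by decide +kernel

theorem ckB2_321 : ckB 2 tabB2 5136 16 = true := by decide +kernel

theorem ckB2_322 : ckB 2 tabB2 5152 16 = true := by decide +kernel

theorem ckB2_323 : ckB 2 tabB2 5168 16 = true := by decide +kernel

theorem ckB2_324 : ckB 2 tabB2 5184 16 = true := by decide +kernel

theorem ckB2_325 : ckB 2 tabB2 5200 16 = true := by decide +kernel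

theorem ckB2_326 : ckB 2 tabB2 5216 16 = true := by decide +kernel

theorem ckB2_327 : ckB 2 tabB2 5232 16 = true := by decide +kernel

theorem ckB2_328 : ckB 2 tabB2 5248 16 = true := by decide +kernel

theorem ckB2_329 : ckB 2 tabB2 5264 16 = true := by decide +kernel

theorem ckB2_330 : ckB 2 tabB2 5280 16 = true := by decide +kernel

theorem ckB2_331 : ckB 2 tabB2 5296 16 = true := by decide +kernel

theorem ckB2_332 : ckB 2 tabB2 5312 16 = true := by decide +kernel

theorem ckB2_333 : ckB 2 tabB2 5328 16 = true := by decide +kernel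

theorem ckB2_334 : ckB 2 tabB2 5344 16 = true := by decide +kernel

theorem ckB2_335 : ckB 2 tabB2 5360 16 = true := by decide +kernel

theorem ckB2_336 : ckB 2 tabB2 5376 16 = true := by decide +kernel

theorem ckB2_337 : ckB 2 tabB2 5392 16 = true := by decide +kernel

theorem ckB2_338 : ckB 2 tabB2 5408 16 = true := by decide +kernel

theorem ckB2_339 : ckB 2 tabB2 5424 16 = true := by decide +kernel

theorem ckB2_340 : ckB 2 tabB2 5440 16 = true := by decide +kernel

theorem ckB2_341 : ckB 2 tabB2 5456 16 = true := by decide +kernel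

theorem ckB2_342 : ckB 2 tabB2 5472 16 = true := by decide +kernel

theorem ckB2_343 : ckB 2 tabB2 5488 16 = true := by decide +kernel

theorem ckB2_344 : ckB 2 tabB2 5504 16 = true := by decide +kernel

theorem ckB2_345 : ckB 2 tabB2 5520 16 = true := by decide +kernel

theorem ckB2_346 : ckB 2 tabB2 5536 16 = true := by decide +kernel

theorem ckB2_347 : ckB 2 tabB2 5552 16 = true := by decide +kernel

theorem ckB2_348 : ckB 2 tabB2 5568 16 = true := by decide +kernel

theorem ckB2_349 : ckB 2 tabB2 5584 16 = true := by decide +kernel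

theorem ckB2_350 : ckB 2 tabB2 5600 16 = true := by decide +kernel

end Vale.Agent.Lib.P045.RK
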