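import Vale.Agent.Lib.P045.R42BC2i

/-! Kernel-checked blocks of the certificate for matching number two (part 9). -/

namespace Vale.Agent.Lib.P045.RK

theorem ckB2_351 : ckB 2 tabB2 5616 16 = true := by decide +kernel

theorem ckB2_352 : ckB 2 tabB2 5632 16 = true := by decide +kernel

theorem ckB2_353 : ckB 2 tabB2 5648 16 = true := by decide +kernel

theorem ckB2_354 : ckB 2 tabB2 5664 16 = true := by decide +kernel

theorem ckB2_355 : ckB 2 tabB2 5680 16 = true := by decide +kernel

theorem ckB2_356 : ckB 2 tabB2 5696 16 = true := by decide +kernel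

theorem ckB2_357 : ckB 2 tabB2 5712 16 = true := by decide +kernel

theorem ckB2_358 : ckB 2 tabB2 5728 16 = true := by decide +kernel

theorem ckB2_359 : ckB 2 tabB2 5744 16 = true := by decide +kernel

theorem ckB2_360 : ckB 2 tabB2 5760 16 = true := by decide +kernel

theorem ckB2_361 : ckB 2 tabB2 5776 16 = true := by decide +kernel

theorem ckB2_362 : ckB 2 tabB2 5792 16 = true := by decide +kernel

theorem ckB2_363 : ckB 2 tabB2 5808 16 = true := by decide +kernel

theorem ckB2_364 : ckB 2 tabB2 5824 16 = true := by decide +kernel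

theorem ckB2_365 : ckB 2 tabB2 5840 16 = true := by decide +kernel

theorem ckB2_366 : ckB 2 tabB2 5856 16 = true := by decide +kernel

theorem ckB2_367 : ckB 2 tabB2 5872 16 = true := by decide +kernel

theorem ckB2_368 : ckB 2 tabB2 5888 16 = true := by decide +kernel

theorem ckB2_369 : ckB 2 tabB2 5904 16 = true := by decide +kernel

theorem ckB2_370 : ckB 2 tabB2 5920 16 = true := by decide +kernel

theorem ckB2_371 : ckB 2 tabB2 5936 16 = true := by decide +kernel

theorem ckB2_372 : ckB 2 tabB2 5952 16 = true := by decide +kernel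

theorem ckB2_373 : ckB 2 tabB2 5968 16 = true := by decide +kernel

theorem ckB2_374 : ckB 2 tabB2 5984 16 = true := by decide +kernel

theorem ckB2_375 : ckB 2 tabB2 6000 16 = true := by decide +kernel

theorem ckB2_376 : ckB 2 tabB2 6016 16 = true := by decide +kernel

theorem ckB2_377 : ckB 2 tabB2 6032 16 = true := by decide +kernel

theorem ckB2_378 : ckB 2 tabB2 6048 16 = true := by decide +kernel

theorem ckB2_379 : ckB 2 tabB2 6064 16 = true := by decide +kernel

theorem ckB2_380 : ckB 2 tabB2 6080 16 = true := by decide +kernel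

theorem ckB2_381 : ckB 2 tabB2 6096 16 = true := by decide +kernel

theorem ckB2_382 : ckB 2 tabB2 6112 16 = true := by decide +kernel

theorem ckB2_383 : ckB 2 tabB2 6128 16 = true := by decide +kernel

theorem ckB2_384 : ckB 2 tabB2 6144 16 = true := by decide +kernel

theorem ckB2_385 : ckB 2 tabB2 6160 16 = true := by decide +kernel

theorem ckB2_386 : ckB 2 tabB2 6176 16 = true := by decide +kernel

theorem ckB2_387 : ckB 2 tabB2 6192 16 = true := by decide +kernel

theorem ckB2_388 : ckB 2 tabB2 6208 16 = true := by decide +kernel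

theorem ckB2_389 : ckB 2 tabB2 6224 16 = true := by decide +kernel

end Vale.Agent.Lib.P045.RK
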