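import Vale.Agent.Lib.P045.R42BC2j

/-! Kernel-checked blocks of the certificate for matching number two (part 10). -/

namespace Vale.Agent.Lib.P045.RK

theorem ckB2_390 : ckB 2 tabB2 6240 16 = true := by decide +kernel

theorem ckB2_391 : ckB 2 tabB2 6256 16 = true := by decide +kernel

theorem ckB2_392 : ckB 2 tabB2 6272 16 = true := by decide +kernel

theorem ckB2_393 : ckB 2 tabB2 6288 16 = true := by decide +kernel

theorem ckB2_394 : ckB 2 tabB2 6304 16 = true := by decide +kernel

theorem ckB2_395 : ckB 2 tabB2 6320 16 = true := by decide +kernel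

theorem ckB2_396 : ckB 2 tabB2 6336 16 = true := by decide +kernel

theorem ckB2_397 : ckB 2 tabB2 6352 16 = true := by decide +kernel

theorem ckB2_398 : ckB 2 tabB2 6368 16 = true := by decide +kernel

theorem ckB2_399 : ckB 2 tabB2 6384 16 = true := by decide +kernel

theorem ckB2_400 : ckB 2 tabB2 6400 16 = true := by decide +kernel

theorem ckB2_401 : ckB 2 tabB2 6416 16 = true := by decide +kernel

theorem ckB2_402 : ckB 2 tabB2 6432 16 = true := by decide +kernel

theorem ckB2_403 : ckB 2 tabB2 6448 16 = true := by decide +kernel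

theorem ckB2_404 : ckB 2 tabB2 6464 16 = true := by decide +kernel

theorem ckB2_405 : ckB 2 tabB2 6480 16 = true := by decide +kernel

theorem ckB2_406 : ckB 2 tabB2 6496 16 = true := by decide +kernel

theorem ckB2_407 : ckB 2 tabB2 6512 16 = true := by decide +kernel

theorem ckB2_408 : ckB 2 tabB2 6528 16 = true := by decide +kernel

theorem ckB2_409 : ckB 2 tabB2 6544 16 = true := by decide +kernel

theorem ckB2_410 : ckB 2 tabB2 6560 16 = true := by decide +kernel

theorem ckB2_411 : ckB 2 tabB2 6576 16 = true := by decide +kernel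

theorem ckB2_412 : ckB 2 tabB2 6592 16 = true := by decide +kernel

theorem ckB2_413 : ckB 2 tabB2 6608 16 = true := by decide +kernel

theorem ckB2_414 : ckB 2 tabB2 6624 16 = true := by decide +kernel

theorem ckB2_415 : ckB 2 tabB2 6640 16 = true := by decide +kernel

theorem ckB2_416 : ckB 2 tabB2 6656 16 = true := by decide +kernel

theorem ckB2_417 : ckB 2 tabB2 6672 16 = true := by decide +kernel

theorem ckB2_418 : ckB 2 tabB2 6688 16 = true := by decide +kernel

theorem ckB2_419 : ckB 2 tabB2 6704 16 = true := by decide +kernel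

theorem ckB2_420 : ckB 2 tabB2 6720 16 = true := by decide +kernel

theorem ckB2_421 : ckB 2 tabB2 6736 16 = true := by decide +kernel

theorem ckB2_422 : ckB 2 tabB2 6752 16 = true := by decide +kernel

theorem ckB2_423 : ckB 2 tabB2 6768 16 = true := by decide +kernel

theorem ckB2_424 : ckB 2 tabB2 6784 16 = true := by decide +kernel

theorem ckB2_425 : ckB 2 tabB2 6800 16 = true := by decide +kernel

theorem ckB2_426 : ckB 2 tabB2 6816 16 = true := by decide +kernel

theorem ckB2_427 : ckB 2 tabB2 6832 16 = true := by decide +kernel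

theorem ckB2_428 : ckB 2 tabB2 6848 16 = true := by decide +kernel

end Vale.Agent.Lib.P045.RK
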