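import Vale.Agent.Lib.P045.R42BC2k

/-! Kernel-checked blocks of the certificate for matching number two (part 11). -/

namespace Vale.Agent.Lib.P045.RK

theorem ckB2_429 : ckB 2 tabB2 6864 16 = true := by decide +kernel

theorem ckB2_430 : ckB 2 tabB2 6880 16 = true := by decide +kernel

theorem ckB2_431 : ckB 2 tabB2 6896 16 = true := by decide +kernel

theorem ckB2_432 : ckB 2 tabB2 6912 16 = true := by decide +kernel

theorem ckB2_433 : ckB 2 tabB2 6928 16 = true := by decide +kernel

theorem ckB2_434 : ckB 2 tabB2 6944 16 = true := by decide +kernel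

theorem ckB2_435 : ckB 2 tabB2 6960 16 = true := by decide +kernel

theorem ckB2_436 : ckB 2 tabB2 6976 16 = true := by decide +kernel

theorem ckB2_437 : ckB 2 tabB2 6992 16 = true := by decide +kernel

theorem ckB2_438 : ckB 2 tabB2 7008 16 = true := by decide +kernel

theorem ckB2_439 : ckB 2 tabB2 7024 16 = true := by decide +kernel

theorem ckB2_440 : ckB 2 tabB2 7040 16 = true := by decide +kernel

theorem ckB2_441 : ckB 2 tabB2 7056 16 = true := by decide +kernel

theorem ckB2_442 : ckB 2 tabB2 7072 16 = true := by decide +kernel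

theorem ckB2_443 : ckB 2 tabB2 7088 16 = true := by decide +kernel

theorem ckB2_444 : ckB 2 tabB2 7104 16 = true := by decide +kernel

theorem ckB2_445 : ckB 2 tabB2 7120 16 = true := by decide +kernel

theorem ckB2_446 : ckB 2 tabB2 7136 16 = true := by decide +kernel

theorem ckB2_447 : ckB 2 tabB2 7152 16 = true := by decide +kernel

theorem ckB2_448 : ckB 2 tabB2 7168 16 = true := by decide +kernel

theorem ckB2_449 : ckB 2 tabB2 7184 16 = true := by decide +kernel

theorem ckB2_450 : ckB 2 tabB2 7200 16 = true := by decide +kernel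

theorem ckB2_451 : ckB 2 tabB2 7216 16 = true := by decide +kernel

theorem ckB2_452 : ckB 2 tabB2 7232 16 = true := by decide +kernel

theorem ckB2_453 : ckB 2 tabB2 7248 16 = true := by decide +kernel

theorem ckB2_454 : ckB 2 tabB2 7264 16 = true := by decide +kernel

theorem ckB2_455 : ckB 2 tabB2 7280 16 = true := by decide +kernel

theorem ckB2_456 : ckB 2 tabB2 7296 16 = true := by decide +kernel

theorem ckB2_457 : ckB 2 tabB2 7312 16 = true := by decide +kernel

theorem ckB2_458 : ckB 2 tabB2 7328 16 = true := by decide +kernel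

theorem ckB2_459 : ckB 2 tabB2 7344 16 = true := by decide +kernel

theorem ckB2_460 : ckB 2 tabB2 7360 16 = true := by decide +kernel

theorem ckB2_461 : ckB 2 tabB2 7376 16 = true := by decide +kernel

theorem ckB2_462 : ckB 2 tabB2 7392 16 = true := by decide +kernel

theorem ckB2_463 : ckB 2 tabB2 7408 16 = true := by decide +kernel

theorem ckB2_464 : ckB 2 tabB2 7424 16 = true := by decide +kernel

theorem ckB2_465 : ckB 2 tabB2 7440 16 = true := by decide +kernel

theorem ckB2_466 : ckB 2 tabB2 7456 16 = true := by decide +kernel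

theorem ckB2_467 : ckB 2 tabB2 7472 16 = true := by decide +kernel

end Vale.Agent.Lib.P045.RK
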