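import Vale.Agent.Lib.P045.R42BC2l

/-! Kernel-checked blocks of the certificate for matching number two (part 12). -/

namespace Vale.Agent.Lib.P045.RK

theorem ckB2_468 : ckB 2 tabB2 7488 16 = true := by decide +kernel

theorem ckB2_469 : ckB 2 tabB2 7504 16 = true := by decide +kernel

theorem ckB2_470 : ckB 2 tabB2 7520 16 = true := by decide +kernel

theorem ckB2_471 : ckB 2 tabB2 7536 16 = true := by decide +kernel

theorem ckB2_472 : ckB 2 tabB2 7552 16 = true := by decide +kernel

theorem ckB2_473 : ckB 2 tabB2 7568 16 = true := by decide +kernel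

theorem ckB2_474 : ckB 2 tabB2 7584 16 = true := by decide +kernel

theorem ckB2_475 : ckB 2 tabB2 7600 16 = true := by decide +kernel

theorem ckB2_476 : ckB 2 tabB2 7616 16 = true := by decide +kernel

theorem ckB2_477 : ckB 2 tabB2 7632 16 = true := by decide +kernel

theorem ckB2_478 : ckB 2 tabB2 7648 16 = true := by decide +kernel

theorem ckB2_479 : ckB 2 tabB2 7664 16 = true := by decide +kernel

theorem ckB2_480 : ckB 2 tabB2 7680 16 = true := by decide +kernel

theorem ckB2_481 : ckB 2 tabB2 7696 16 = true := by decide +kernel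

theorem ckB2_482 : ckB 2 tabB2 7712 16 = true := by decide +kernel

theorem ckB2_483 : ckB 2 tabB2 7728 16 = true := by decide +kernel

theorem ckB2_484 : ckB 2 tabB2 7744 16 = true := by decide +kernel

theorem ckB2_485 : ckB 2 tabB2 7760 16 = true := by decide +kernel

theorem ckB2_486 : ckB 2 tabB2 7776 16 = true := by decide +kernel

theorem ckB2_487 : ckB 2 tabB2 7792 16 = true := by decide +kernel

theorem ckB2_488 : ckB 2 tabB2 7808 16 = true := by decide +kernel

theorem ckB2_489 : ckB 2 tabB2 7824 16 = true := by decide +kernel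

theorem ckB2_490 : ckB 2 tabB2 7840 16 = true := by decide +kernel

theorem ckB2_491 : ckB 2 tabB2 7856 16 = true := by decide +kernel

theorem ckB2_492 : ckB 2 tabB2 7872 16 = true := by decide +kernel

theorem ckB2_493 : ckB 2 tabB2 7888 16 = true := by decide +kernel

theorem ckB2_494 : ckB 2 tabB2 7904 16 = true := by decide +kernel

theorem ckB2_495 : ckB 2 tabB2 7920 16 = true := by decide +kernel

theorem ckB2_496 : ckB 2 tabB2 7936 16 = true := by decide +kernel

theorem ckB2_497 : ckB 2 tabB2 7952 16 = true := by decide +kernel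

theorem ckB2_498 : ckB 2 tabB2 7968 16 = true := by decide +kernel

theorem ckB2_499 : ckB 2 tabB2 7984 16 = true := by decide +kernel

theorem ckB2_500 : ckB 2 tabB2 8000 16 = true := by decide +kernel

theorem ckB2_501 : ckB 2 tabB2 8016 16 = true := by decide +kernel

theorem ckB2_502 : ckB 2 tabB2 8032 16 = true := by decide +kernel

theorem ckB2_503 : ckB 2 tabB2 8048 16 = true := by decide +kernel

theorem ckB2_504 : ckB 2 tabB2 8064 16 = true := by decide +kernel

theorem ckB2_505 : ckB 2 tabB2 8080 16 = true := by decide +kernel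

theorem ckB2_506 : ckB 2 tabB2 8096 16 = true := by decide +kernel

end Vale.Agent.Lib.P045.RK
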