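import Vale.Agent.Lib.P045.R42BC2m

/-! Kernel-checked blocks of the certificate for matching number two (part 13). -/

namespace Vale.Agent.Lib.P045.RK

theorem ckB2_507 : ckB 2 tabB2 8112 16 = true := by decide +kernel

theorem ckB2_508 : ckB 2 tabB2 8128 16 = true := by decide +kernel

theorem ckB2_509 : ckB 2 tabB2 8144 16 = true := by decide +kernel

theorem ckB2_510 : ckB 2 tabB2 8160 16 = true := by decide +kernel

theorem ckB2_511 : ckB 2 tabB2 8176 16 = true := by decide +kernel

theorem ckB2_512 : ckB 2 tabB2 8192 16 = true := by decide +kernel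

theorem ckB2_513 : ckB 2 tabB2 8208 16 = true := by decide +kernel

theorem ckB2_514 : ckB 2 tabB2 8224 16 = true := by decide +kernel

theorem ckB2_515 : ckB 2 tabB2 8240 16 = true := by decide +kernel

theorem ckB2_516 : ckB 2 tabB2 8256 16 = true := by decide +kernel

theorem ckB2_517 : ckB 2 tabB2 8272 16 = true := by decide +kernel

theorem ckB2_518 : ckB 2 tabB2 8288 16 = true := by decide +kernel

theorem ckB2_519 : ckB 2 tabB2 8304 16 = true := by decide +kernel

theorem ckB2_520 : ckB 2 tabB2 8320 16 = true := by decide +kernel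

theorem ckB2_521 : ckB 2 tabB2 8336 16 = true := by decide +kernel

theorem ckB2_522 : ckB 2 tabB2 8352 16 = true := by decide +kernel

theorem ckB2_523 : ckB 2 tabB2 8368 16 = true := by decide +kernel

theorem ckB2_524 : ckB 2 tabB2 8384 16 = true := by decide +kernel

theorem ckB2_525 : ckB 2 tabB2 8400 16 = true := by decide +kernel

theorem ckB2_526 : ckB 2 tabB2 8416 16 = true := by decide +kernel

theorem ckB2_527 : ckB 2 tabB2 8432 16 = true := by decide +kernel

theorem ckB2_528 : ckB 2 tabB2 8448 16 = true := by decide +kernel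

theorem ckB2_529 : ckB 2 tabB2 8464 16 = true := by decide +kernel

theorem ckB2_530 : ckB 2 tabB2 8480 16 = true := by decide +kernel

theorem ckB2_531 : ckB 2 tabB2 8496 16 = true := by decide +kernel

theorem ckB2_532 : ckB 2 tabB2 8512 16 = true := by decide +kernel

theorem ckB2_533 : ckB 2 tabB2 8528 16 = true := by decide +kernel

theorem ckB2_534 : ckB 2 tabB2 8544 16 = true := by decide +kernel

theorem ckB2_535 : ckB 2 tabB2 8560 16 = true := by decide +kernel

theorem ckB2_536 : ckB 2 tabB2 8576 16 = true := by decide +kernel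

theorem ckB2_537 : ckB 2 tabB2 8592 16 = true := by decide +kernel

theorem ckB2_538 : ckB 2 tabB2 8608 16 = true := by decide +kernel

theorem ckB2_539 : ckB 2 tabB2 8624 16 = true := by decide +kernel

theorem ckB2_540 : ckB 2 tabB2 8640 16 = true := by decide +kernel

theorem ckB2_541 : ckB 2 tabB2 8656 16 = true := by decide +kernel

theorem ckB2_542 : ckB 2 tabB2 8672 16 = true := by decide +kernel

theorem ckB2_543 : ckB 2 tabB2 8688 16 = true := by decide +kernel

theorem ckB2_544 : ckB 2 tabB2 8704 16 = true := by decide +kernel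

theorem ckB2_545 : ckB 2 tabB2 8720 16 = true := by decide +kernel

end Vale.Agent.Lib.P045.RK
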