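import Vale.Agent.Lib.P045.R42BC2n

/-! Kernel-checked blocks of the certificate for matching number two (part 14). -/

namespace Vale.Agent.Lib.P045.RK

theorem ckB2_546 : ckB 2 tabB2 8736 16 = true := by decide +kernel

theorem ckB2_547 : ckB 2 tabB2 8752 16 = true := by decide +kernel

theorem ckB2_548 : ckB 2 tabB2 8768 16 = true := by decide +kernel

theorem ckB2_549 : ckB 2 tabB2 8784 16 = true := by decide +kernel

theorem ckB2_550 : ckB 2 tabB2 8800 16 = true := by decide +kernel

theorem ckB2_551 : ckB 2 tabB2 8816 16 = true := by decide +kernel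

theorem ckB2_552 : ckB 2 tabB2 8832 16 = true := by decide +kernel

theorem ckB2_553 : ckB 2 tabB2 8848 16 = true := by decide +kernel

theorem ckB2_554 : ckB 2 tabB2 8864 16 = true := by decide +kernel

theorem ckB2_555 : ckB 2 tabB2 8880 16 = true := by decide +kernel

theorem ckB2_556 : ckB 2 tabB2 8896 16 = true := by decide +kernel

theorem ckB2_557 : ckB 2 tabB2 8912 16 = true := by decide +kernel

theorem ckB2_558 : ckB 2 tabB2 8928 16 = true := by decide +kernel

theorem ckB2_559 : ckB 2 tabB2 8944 16 = true := by decide +kernel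

theorem ckB2_560 : ckB 2 tabB2 8960 16 = true := by decide +kernel

theorem ckB2_561 : ckB 2 tabB2 8976 16 = true := by decide +kernel

theorem ckB2_562 : ckB 2 tabB2 8992 16 = true := by decide +kernel

theorem ckB2_563 : ckB 2 tabB2 9008 16 = true := by decide +kernel

theorem ckB2_564 : ckB 2 tabB2 9024 16 = true := by decide +kernel

theorem ckB2_565 : ckB 2 tabB2 9040 16 = true := by decide +kernel

theorem ckB2_566 : ckB 2 tabB2 9056 16 = true := by decide +kernel

theorem ckB2_567 : ckB 2 tabB2 9072 16 = true := by decide +kernel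

theorem ckB2_568 : ckB 2 tabB2 9088 16 = true := by decide +kernel

theorem ckB2_569 : ckB 2 tabB2 9104 16 = true := by decide +kernel

theorem ckB2_570 : ckB 2 tabB2 9120 16 = true := by decide +kernel

theorem ckB2_571 : ckB 2 tabB2 9136 16 = true := by decide +kernel

theorem ckB2_572 : ckB 2 tabB2 9152 16 = true := by decide +kernel

theorem ckB2_573 : ckB 2 tabB2 9168 16 = true := by decide +kernel

theorem ckB2_574 : ckB 2 tabB2 9184 16 = true := by decide +kernel

theorem ckB2_575 : ckB 2 tabB2 9200 16 = true := by decide +kernel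

theorem ckB2_576 : ckB 2 tabB2 9216 16 = true := by decide +kernel

theorem ckB2_577 : ckB 2 tabB2 9232 16 = true := by decide +kernel

theorem ckB2_578 : ckB 2 tabB2 9248 16 = true := by decide +kernel

theorem ckB2_579 : ckB 2 tabB2 9264 16 = true := by decide +kernel

theorem ckB2_580 : ckB 2 tabB2 9280 16 = true := by decide +kernel

theorem ckB2_581 : ckB 2 tabB2 9296 16 = true := by decide +kernel

theorem ckB2_582 : ckB 2 tabB2 9312 16 = true := by decide +kernel

theorem ckB2_583 : ckB 2 tabB2 9328 16 = true := by decide +kernel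

theorem ckB2_584 : ckB 2 tabB2 9344 16 = true := by decide +kernel

end Vale.Agent.Lib.P045.RK
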