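import Vale.Agent.Lib.P045.R42BC2o

/-! Kernel-checked blocks of the certificate for matching number two (part 15). -/

namespace Vale.Agent.Lib.P045.RK

theorem ckB2_585 : ckB 2 tabB2 9360 16 = true := by decide +kernel

theorem ckB2_586 : ckB 2 tabB2 9376 16 = true := by decide +kernel

theorem ckB2_587 : ckB 2 tabB2 9392 16 = true := by decide +kernel

theorem ckB2_588 : ckB 2 tabB2 9408 16 = true := by decide +kernel

theorem ckB2_589 : ckB 2 tabB2 9424 16 = true := by decide +kernel

theorem ckB2_590 : ckB 2 tabB2 9440 16 = true := by decide +kernel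

theorem ckB2_591 : ckB 2 tabB2 9456 16 = true := by decide +kernel

theorem ckB2_592 : ckB 2 tabB2 9472 16 = true := by decide +kernel

theorem ckB2_593 : ckB 2 tabB2 9488 16 = true := by decide +kernel

theorem ckB2_594 : ckB 2 tabB2 9504 16 = true := by decide +kernel

theorem ckB2_595 : ckB 2 tabB2 9520 16 = true := by decide +kernel

theorem ckB2_596 : ckB 2 tabB2 9536 16 = true := by decide +kernel

theorem ckB2_597 : ckB 2 tabB2 9552 16 = true := by decide +kernel

theorem ckB2_598 : ckB 2 tabB2 9568 16 = true := by decide +kernel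

theorem ckB2_599 : ckB 2 tabB2 9584 16 = true := by decide +kernel

theorem ckB2_600 : ckB 2 tabB2 9600 16 = true := by decide +kernel

theorem ckB2_601 : ckB 2 tabB2 9616 16 = true := by decide +kernel

theorem ckB2_602 : ckB 2 tabB2 9632 16 = true := by decide +kernel

theorem ckB2_603 : ckB 2 tabB2 9648 16 = true := by decide +kernel

theorem ckB2_604 : ckB 2 tabB2 9664 16 = true := by decide +kernel

theorem ckB2_605 : ckB 2 tabB2 9680 16 = true := by decide +kernel

theorem ckB2_606 : ckB 2 tabB2 9696 16 = true := by decide +kernel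

theorem ckB2_607 : ckB 2 tabB2 9712 16 = true := by decide +kernel

theorem ckB2_608 : ckB 2 tabB2 9728 16 = true := by decide +kernel

theorem ckB2_609 : ckB 2 tabB2 9744 16 = true := by decide +kernel

theorem ckB2_610 : ckB 2 tabB2 9760 16 = true := by decide +kernel

theorem ckB2_611 : ckB 2 tabB2 9776 16 = true := by decide +kernel

theorem ckB2_612 : ckB 2 tabB2 9792 16 = true := by decide +kernel

theorem ckB2_613 : ckB 2 tabB2 9808 16 = true := by decide +kernel

theorem ckB2_614 : ckB 2 tabB2 9824 16 = true := by decide +kernel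

theorem ckB2_615 : ckB 2 tabB2 9840 16 = true := by decide +kernel

theorem ckB2_616 : ckB 2 tabB2 9856 16 = true := by decide +kernel

theorem ckB2_617 : ckB 2 tabB2 9872 16 = true := by decide +kernel

theorem ckB2_618 : ckB 2 tabB2 9888 16 = true := by decide +kernel

theorem ckB2_619 : ckB 2 tabB2 9904 16 = true := by decide +kernel

theorem ckB2_620 : ckB 2 tabB2 9920 16 = true := by decide +kernel

theorem ckB2_621 : ckB 2 tabB2 9936 16 = true := by decide +kernel

theorem ckB2_622 : ckB 2 tabB2 9952 16 = true := by decide +kernel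

theorem ckB2_623 : ckB 2 tabB2 9968 16 = true := by decide +kernel

end Vale.Agent.Lib.P045.RK
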