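import Vale.Agent.Lib.P045.R42BD2

/-! Kernel-checked blocks of the certificate for matching number two (part 16). -/

namespace Vale.Agent.Lib.P045.RK

theorem ckB2_624 : ckB 2 tabB2 9984 16 = true := by decide +kernel

theorem ckB2_625 : ckB 2 tabB2 10000 16 = true := by decide +kernel

theorem ckB2_626 : ckB 2 tabB2 10016 16 = true := by decide +kernel

theorem ckB2_627 : ckB 2 tabB2 10032 16 = true := by decide +kernel

theorem ckB2_628 : ckB 2 tabB2 10048 16 = true := by decide +kernel

theorem ckB2_629 : ckB 2 tabB2 10064 16 = true := by decide +kernel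

theorem ckB2_630 : ckB 2 tabB2 10080 16 = true := by decide +kernel

theorem ckB2_631 : ckB 2 tabB2 10096 16 = true := by decide +kernel

theorem ckB2_632 : ckB 2 tabB2 10112 16 = true := by decide +kernel

theorem ckB2_633 : ckB 2 tabB2 10128 16 = true := by decide +kernel

theorem ckB2_634 : ckB 2 tabB2 10144 16 = true := by decide +kernel

theorem ckB2_635 : ckB 2 tabB2 10160 16 = true := by decide +kernel

theorem ckB2_636 : ckB 2 tabB2 10176 16 = true := by decide +kernel

theorem ckB2_637 : ckB 2 tabB2 10192 16 = true := by decide +kernel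

theorem ckB2_638 : ckB 2 tabB2 10208 16 = true := by decide +kernel

theorem ckB2_639 : ckB 2 tabB2 10224 16 = true := by decide +kernel

theorem ckB2_640 : ckB 2 tabB2 10240 16 = true := by decide +kernel

theorem ckB2_641 : ckB 2 tabB2 10256 16 = true := by decide +kernel

theorem ckB2_642 : ckB 2 tabB2 10272 16 = true := by decide +kernel

theorem ckB2_643 : ckB 2 tabB2 10288 16 = true := by decide +kernel

theorem ckB2_644 : ckB 2 tabB2 10304 16 = true := by decide +kernel

theorem ckB2_645 : ckB 2 tabB2 10320 16 = true := by decide +kernel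

theorem ckB2_646 : ckB 2 tabB2 10336 16 = true := by decide +kernel

theorem ckB2_647 : ckB 2 tabB2 10352 16 = true := by decide +kernel

theorem ckB2_648 : ckB 2 tabB2 10368 16 = true := by decide +kernel

theorem ckB2_649 : ckB 2 tabB2 10384 16 = true := by decide +kernel

theorem ckB2_650 : ckB 2 tabB2 10400 16 = true := by decide +kernel

theorem ckB2_651 : ckB 2 tabB2 10416 16 = true := by decide +kernel

theorem ckB2_652 : ckB 2 tabB2 10432 16 = true := by decide +kernel

theorem ckB2_653 : ckB 2 tabB2 10448 16 = true := by decide +kernel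

theorem ckB2_654 : ckB 2 tabB2 10464 16 = true := by decide +kernel

theorem ckB2_655 : ckB 2 tabB2 10480 16 = true := by decide +kernel

theorem ckB2_656 : ckB 2 tabB2 10496 16 = true := by decide +kernel

theorem ckB2_657 : ckB 2 tabB2 10512 16 = true := by decide +kernel

theorem ckB2_658 : ckB 2 tabB2 10528 16 = true := by decide +kernel

theorem ckB2_659 : ckB 2 tabB2 10544 16 = true := by decide +kernel

theorem ckB2_660 : ckB 2 tabB2 10560 16 = true := by decide +kernel

theorem ckB2_661 : ckB 2 tabB2 10576 16 = true := by decide +kernel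

theorem ckB2_662 : ckB 2 tabB2 10592 16 = true := by decide +kernel

end Vale.Agent.Lib.P045.RK
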