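import Vale.Agent.Lib.P045.R42BC2q

/-! Kernel-checked blocks of the certificate for matching number two (part 17). -/

namespace Vale.Agent.Lib.P045.RK

theorem ckB2_663 : ckB 2 tabB2 10608 16 = true := by decide +kernel

theorem ckB2_664 : ckB 2 tabB2 10624 16 = true := by decide +kernel

theorem ckB2_665 : ckB 2 tabB2 10640 16 = true := by decide +kernel

theorem ckB2_666 : ckB 2 tabB2 10656 16 = true := by decide +kernel

theorem ckB2_667 : ckB 2 tabB2 10672 16 = true := by decide +kernel

theorem ckB2_668 : ckB 2 tabB2 10688 16 = true := by decide +kernel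

theorem ckB2_669 : ckB 2 tabB2 10704 16 = true := by decide +kernel

theorem ckB2_670 : ckB 2 tabB2 10720 16 = true := by decide +kernel

theorem ckB2_671 : ckB 2 tabB2 10736 16 = true := by decide +kernel

theorem ckB2_672 : ckB 2 tabB2 10752 16 = true := by decide +kernel

theorem ckB2_673 : ckB 2 tabB2 10768 16 = true := by decide +kernel

theorem ckB2_674 : ckB 2 tabB2 10784 16 = true := by decide +kernel

theorem ckB2_675 : ckB 2 tabB2 10800 16 = true := by decide +kernel

theorem ckB2_676 : ckB 2 tabB2 10816 16 = true := by decide +kernel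

theorem ckB2_677 : ckB 2 tabB2 10832 16 = true := by decide +kernel

theorem ckB2_678 : ckB 2 tabB2 10848 16 = true := by decide +kernel

theorem ckB2_679 : ckB 2 tabB2 10864 16 = true := by decide +kernel

theorem ckB2_680 : ckB 2 tabB2 10880 16 = true := by decide +kernel

theorem ckB2_681 : ckB 2 tabB2 10896 16 = true := by decide +kernel

theorem ckB2_682 : ckB 2 tabB2 10912 16 = true := by decide +kernel

theorem ckB2_683 : ckB 2 tabB2 10928 16 = true := by decide +kernel

theorem ckB2_684 : ckB 2 tabB2 10944 16 = true := by decide +kernel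

theorem ckB2_685 : ckB 2 tabB2 10960 16 = true := by decide +kernel

theorem ckB2_686 : ckB 2 tabB2 10976 16 = true := by decide +kernel

theorem ckB2_687 : ckB 2 tabB2 10992 16 = true := by decide +kernel

theorem ckB2_688 : ckB 2 tabB2 11008 16 = true := by decide +kernel

theorem ckB2_689 : ckB 2 tabB2 11024 16 = true := by decide +kernel

theorem ckB2_690 : ckB 2 tabB2 11040 16 = true := by decide +kernel

theorem ckB2_691 : ckB 2 tabB2 11056 16 = true := by decide +kernel

theorem ckB2_692 : ckB 2 tabB2 11072 16 = true := by decide +kernel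

theorem ckB2_693 : ckB 2 tabB2 11088 16 = true := by decide +kernel

theorem ckB2_694 : ckB 2 tabB2 11104 16 = true := by decide +kernel

theorem ckB2_695 : ckB 2 tabB2 11120 16 = true := by decide +kernel

theorem ckB2_696 : ckB 2 tabB2 11136 16 = true := by decide +kernel

theorem ckB2_697 : ckB 2 tabB2 11152 16 = true := by decide +kernel

theorem ckB2_698 : ckB 2 tabB2 11168 16 = true := by decide +kernel

theorem ckB2_699 : ckB 2 tabB2 11184 16 = true := by decide +kernel

theorem ckB2_700 : ckB 2 tabB2 11200 16 = true := by decide +kernel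

theorem ckB2_701 : ckB 2 tabB2 11216 16 = true := by decide +kernel

end Vale.Agent.Lib.P045.RK
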