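import Vale.Agent.Lib.P045.R42BC2r

/-! Kernel-checked blocks of the certificate for matching number two (part 18). -/

namespace Vale.Agent.Lib.P045.RK

theorem ckB2_702 : ckB 2 tabB2 11232 16 = true := by decide +kernel

theorem ckB2_703 : ckB 2 tabB2 11248 16 = true := by decide +kernel

theorem ckB2_704 : ckB 2 tabB2 11264 16 = true := by decide +kernel

theorem ckB2_705 : ckB 2 tabB2 11280 16 = true := by decide +kernel

theorem ckB2_706 : ckB 2 tabB2 11296 16 = true := by decide +kernel

theorem ckB2_707 : ckB 2 tabB2 11312 16 = true := by decide +kernel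

theorem ckB2_708 : ckB 2 tabB2 11328 16 = true := by decide +kernel

theorem ckB2_709 : ckB 2 tabB2 11344 16 = true := by decide +kernel

theorem ckB2_710 : ckB 2 tabB2 11360 16 = true := by decide +kernel

theorem ckB2_711 : ckB 2 tabB2 11376 16 = true := by decide +kernel

theorem ckB2_712 : ckB 2 tabB2 11392 16 = true := by decide +kernel

theorem ckB2_713 : ckB 2 tabB2 11408 16 = true := by decide +kernel

theorem ckB2_714 : ckB 2 tabB2 11424 16 = true := by decide +kernel

theorem ckB2_715 : ckB 2 tabB2 11440 16 = true := by decide +kernel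

theorem ckB2_716 : ckB 2 tabB2 11456 16 = true := by decide +kernel

theorem ckB2_717 : ckB 2 tabB2 11472 16 = true := by decide +kernel

theorem ckB2_718 : ckB 2 tabB2 11488 16 = true := by decide +kernel

theorem ckB2_719 : ckB 2 tabB2 11504 16 = true := by decide +kernel

theorem ckB2_720 : ckB 2 tabB2 11520 16 = true := by decide +kernel

theorem ckB2_721 : ckB 2 tabB2 11536 16 = true := by decide +kernel

theorem ckB2_722 : ckB 2 tabB2 11552 16 = true := by decide +kernel

theorem ckB2_723 : ckB 2 tabB2 11568 16 = true := by decide +kernel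

theorem ckB2_724 : ckB 2 tabB2 11584 16 = true := by decide +kernel

theorem ckB2_725 : ckB 2 tabB2 11600 16 = true := by decide +kernel

theorem ckB2_726 : ckB 2 tabB2 11616 16 = true := by decide +kernel

theorem ckB2_727 : ckB 2 tabB2 11632 16 = true := by decide +kernel

theorem ckB2_728 : ckB 2 tabB2 11648 16 = true := by decide +kernel

theorem ckB2_729 : ckB 2 tabB2 11664 16 = true := by decide +kernel

theorem ckB2_730 : ckB 2 tabB2 11680 16 = true := by decide +kernel

theorem ckB2_731 : ckB 2 tabB2 11696 16 = true := by decide +kernel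

theorem ckB2_732 : ckB 2 tabB2 11712 16 = true := by decide +kernel

theorem ckB2_733 : ckB 2 tabB2 11728 16 = true := by decide +kernel

theorem ckB2_734 : ckB 2 tabB2 11744 16 = true := by decide +kernel

theorem ckB2_735 : ckB 2 tabB2 11760 16 = true := by decide +kernel

theorem ckB2_736 : ckB 2 tabB2 11776 16 = true := by decide +kernel

theorem ckB2_737 : ckB 2 tabB2 11792 16 = true := by decide +kernel

theorem ckB2_738 : ckB 2 tabB2 11808 16 = true := by decide +kernel

theorem ckB2_739 : ckB 2 tabB2 11824 16 = true := by decide +kernel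

theorem ckB2_740 : ckB 2 tabB2 11840 16 = true := by decide +kernel

end Vale.Agent.Lib.P045.RK
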