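import Vale.Agent.Lib.P045.R42BC2s

/-! Kernel-checked blocks of the certificate for matching number two (part 19). -/

namespace Vale.Agent.Lib.P045.RK

theorem ckB2_741 : ckB 2 tabB2 11856 16 = true := by decide +kernel

theorem ckB2_742 : ckB 2 tabB2 11872 16 = true := by decide +kernel

theorem ckB2_743 : ckB 2 tabB2 11888 16 = true := by decide +kernel

theorem ckB2_744 : ckB 2 tabB2 11904 16 = true := by decide +kernel

theorem ckB2_745 : ckB 2 tabB2 11920 16 = true := by decide +kernel

theorem ckB2_746 : ckB 2 tabB2 11936 16 = true := by decide +kernel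

theorem ckB2_747 : ckB 2 tabB2 11952 16 = true := by decide +kernel

theorem ckB2_748 : ckB 2 tabB2 11968 16 = true := by decide +kernel

theorem ckB2_749 : ckB 2 tabB2 11984 16 = true := by decide +kernel

theorem ckB2_750 : ckB 2 tabB2 12000 16 = true := by decide +kernel

theorem ckB2_751 : ckB 2 tabB2 12016 16 = true := by decide +kernel

theorem ckB2_752 : ckB 2 tabB2 12032 16 = true := by decide +kernel

theorem ckB2_753 : ckB 2 tabB2 12048 16 = true := by decide +kernel

theorem ckB2_754 : ckB 2 tabB2 12064 16 = true := by decide +kernel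

theorem ckB2_755 : ckB 2 tabB2 12080 16 = true := by decide +kernel

theorem ckB2_756 : ckB 2 tabB2 12096 16 = true := by decide +kernel

theorem ckB2_757 : ckB 2 tabB2 12112 16 = true := by decide +kernel

theorem ckB2_758 : ckB 2 tabB2 12128 16 = true := by decide +kernel

theorem ckB2_759 : ckB 2 tabB2 12144 16 = true := by decide +kernel

theorem ckB2_760 : ckB 2 tabB2 12160 16 = true := by decide +kernel

theorem ckB2_761 : ckB 2 tabB2 12176 16 = true := by decide +kernel

theorem ckB2_762 : ckB 2 tabB2 12192 16 = true := by decide +kernel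

theorem ckB2_763 : ckB 2 tabB2 12208 16 = true := by decide +kernel

theorem ckB2_764 : ckB 2 tabB2 12224 16 = true := by decide +kernel

theorem ckB2_765 : ckB 2 tabB2 12240 16 = true := by decide +kernel

theorem ckB2_766 : ckB 2 tabB2 12256 16 = true := by decide +kernel

theorem ckB2_767 : ckB 2 tabB2 12272 16 = true := by decide +kernel

theorem ckB2_768 : ckB 2 tabB2 12288 16 = true := by decide +kernel

theorem ckB2_769 : ckB 2 tabB2 12304 16 = true := by decide +kernel

theorem ckB2_770 : ckB 2 tabB2 12320 16 = true := by decide +kernel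

theorem ckB2_771 : ckB 2 tabB2 12336 16 = true := by decide +kernel

theorem ckB2_772 : ckB 2 tabB2 12352 16 = true := by decide +kernel

theorem ckB2_773 : ckB 2 tabB2 12368 16 = true := by decide +kernel

theorem ckB2_774 : ckB 2 tabB2 12384 16 = true := by decide +kernel

theorem ckB2_775 : ckB 2 tabB2 12400 16 = true := by decide +kernel

theorem ckB2_776 : ckB 2 tabB2 12416 16 = true := by decide +kernel

theorem ckB2_777 : ckB 2 tabB2 12432 16 = true := by decide +kernel

theorem ckB2_778 : ckB 2 tabB2 12448 16 = true := by decide +kernel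

theorem ckB2_779 : ckB 2 tabB2 12464 16 = true := by decide +kernel

end Vale.Agent.Lib.P045.RK
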