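import Vale.Agent.Lib.P045.R42BC2t

/-! Kernel-checked blocks of the certificate for matching number two (part 20). -/

namespace Vale.Agent.Lib.P045.RK

theorem ckB2_780 : ckB 2 tabB2 12480 16 = true := by decide +kernel

theorem ckB2_781 : ckB 2 tabB2 12496 16 = true := by decide +kernel

theorem ckB2_782 : ckB 2 tabB2 12512 16 = true := by decide +kernel

theorem ckB2_783 : ckB 2 tabB2 12528 16 = true := by decide +kernel

theorem ckB2_784 : ckB 2 tabB2 12544 16 = true := by decide +kernel

theorem ckB2_785 : ckB 2 tabB2 12560 16 = true := by decide +kernel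

theorem ckB2_786 : ckB 2 tabB2 12576 16 = true := by decide +kernel

theorem ckB2_787 : ckB 2 tabB2 12592 16 = true := by decide +kernel

theorem ckB2_788 : ckB 2 tabB2 12608 16 = true := by decide +kernel

theorem ckB2_789 : ckB 2 tabB2 12624 16 = true := by decide +kernel

theorem ckB2_790 : ckB 2 tabB2 12640 16 = true := by decide +kernel

theorem ckB2_791 : ckB 2 tabB2 12656 16 = true := by decide +kernel

theorem ckB2_792 : ckB 2 tabB2 12672 16 = true := by decide +kernel

theorem ckB2_793 : ckB 2 tabB2 12688 16 = true := by decide +kernel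

theorem ckB2_794 : ckB 2 tabB2 12704 16 = true := by decide +kernel

theorem ckB2_795 : ckB 2 tabB2 12720 16 = true := by decide +kernel

theorem ckB2_796 : ckB 2 tabB2 12736 16 = true := by decide +kernel

theorem ckB2_797 : ckB 2 tabB2 12752 16 = true := by decide +kernel

theorem ckB2_798 : ckB 2 tabB2 12768 16 = true := by decide +kernel

theorem ckB2_799 : ckB 2 tabB2 12784 16 = true := by decide +kernel

theorem ckB2_800 : ckB 2 tabB2 12800 16 = true := by decide +kernel

theorem ckB2_801 : ckB 2 tabB2 12816 16 = true := by decide +kernel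

theorem ckB2_802 : ckB 2 tabB2 12832 16 = true := by decide +kernel

theorem ckB2_803 : ckB 2 tabB2 12848 16 = true := by decide +kernel

theorem ckB2_804 : ckB 2 tabB2 12864 16 = true := by decide +kernel

theorem ckB2_805 : ckB 2 tabB2 12880 16 = true := by decide +kernel

theorem ckB2_806 : ckB 2 tabB2 12896 16 = true := by decide +kernel

theorem ckB2_807 : ckB 2 tabB2 12912 16 = true := by decide +kernel

theorem ckB2_808 : ckB 2 tabB2 12928 16 = true := by decide +kernel

theorem ckB2_809 : ckB 2 tabB2 12944 16 = true := by decide +kernel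

theorem ckB2_810 : ckB 2 tabB2 12960 16 = true := by decide +kernel

theorem ckB2_811 : ckB 2 tabB2 12976 16 = true := by decide +kernel

theorem ckB2_812 : ckB 2 tabB2 12992 16 = true := by decide +kernel

theorem ckB2_813 : ckB 2 tabB2 13008 16 = true := by decide +kernel

theorem ckB2_814 : ckB 2 tabB2 13024 16 = true := by decide +kernel

theorem ckB2_815 : ckB 2 tabB2 13040 16 = true := by decide +kernel

theorem ckB2_816 : ckB 2 tabB2 13056 16 = true := by decide +kernel

theorem ckB2_817 : ckB 2 tabB2 13072 16 = true := by decide +kernel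

theorem ckB2_818 : ckB 2 tabB2 13088 16 = true := by decide +kernel

end Vale.Agent.Lib.P045.RK
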