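import Vale.Agent.Lib.P045.R42BC2u

/-! Kernel-checked blocks of the certificate for matching number two (part 21). -/

namespace Vale.Agent.Lib.P045.RK

theorem ckB2_819 : ckB 2 tabB2 13104 16 = true := by decide +kernel

theorem ckB2_820 : ckB 2 tabB2 13120 16 = true := by decide +kernel

theorem ckB2_821 : ckB 2 tabB2 13136 16 = true := by decide +kernel

theorem ckB2_822 : ckB 2 tabB2 13152 16 = true := by decide +kernel

theorem ckB2_823 : ckB 2 tabB2 13168 16 = true := by decide +kernel

theorem ckB2_824 : ckB 2 tabB2 13184 16 = true := by decide +kernel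

theorem ckB2_825 : ckB 2 tabB2 13200 16 = true := by decide +kernel

theorem ckB2_826 : ckB 2 tabB2 13216 16 = true := by decide +kernel

theorem ckB2_827 : ckB 2 tabB2 13232 16 = true := by decide +kernel

theorem ckB2_828 : ckB 2 tabB2 13248 16 = true := by decide +kernel

theorem ckB2_829 : ckB 2 tabB2 13264 16 = true := by decide +kernel

theorem ckB2_830 : ckB 2 tabB2 13280 16 = true := by decide +kernel

theorem ckB2_831 : ckB 2 tabB2 13296 16 = true := by decide +kernel

theorem ckB2_832 : ckB 2 tabB2 13312 16 = true := by decide +kernel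

theorem ckB2_833 : ckB 2 tabB2 13328 16 = true := by decide +kernel

theorem ckB2_834 : ckB 2 tabB2 13344 16 = true := by decide +kernel

theorem ckB2_835 : ckB 2 tabB2 13360 16 = true := by decide +kernel

theorem ckB2_836 : ckB 2 tabB2 13376 16 = true := by decide +kernel

theorem ckB2_837 : ckB 2 tabB2 13392 16 = true := by decide +kernel

theorem ckB2_838 : ckB 2 tabB2 13408 16 = true := by decide +kernel

theorem ckB2_839 : ckB 2 tabB2 13424 16 = true := by decide +kernel

theorem ckB2_840 : ckB 2 tabB2 13440 16 = true := by decide +kernel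

theorem ckB2_841 : ckB 2 tabB2 13456 16 = true := by decide +kernel

theorem ckB2_842 : ckB 2 tabB2 13472 16 = true := by decide +kernel

theorem ckB2_843 : ckB 2 tabB2 13488 16 = true := by decide +kernel

theorem ckB2_844 : ckB 2 tabB2 13504 16 = true := by decide +kernel

theorem ckB2_845 : ckB 2 tabB2 13520 16 = true := by decide +kernel

theorem ckB2_846 : ckB 2 tabB2 13536 16 = true := by decide +kernel

theorem ckB2_847 : ckB 2 tabB2 13552 16 = true := by decide +kernel

theorem ckB2_848 : ckB 2 tabB2 13568 16 = true := by decide +kernel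

theorem ckB2_849 : ckB 2 tabB2 13584 16 = true := by decide +kernel

theorem ckB2_850 : ckB 2 tabB2 13600 16 = true := by decide +kernel

theorem ckB2_851 : ckB 2 tabB2 13616 16 = true := by decide +kernel

theorem ckB2_852 : ckB 2 tabB2 13632 16 = true := by decide +kernel

theorem ckB2_853 : ckB 2 tabB2 13648 16 = true := by decide +kernel

theorem ckB2_854 : ckB 2 tabB2 13664 16 = true := by decide +kernel

theorem ckB2_855 : ckB 2 tabB2 13680 16 = true := by decide +kernel

theorem ckB2_856 : ckB 2 tabB2 13696 16 = true := by decide +kernel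

theorem ckB2_857 : ckB 2 tabB2 13712 16 = true := by decide +kernel

end Vale.Agent.Lib.P045.RK
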