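import Vale.Agent.Lib.P045.R42BC2v

/-! Kernel-checked blocks of the certificate for matching number two (part 22). -/

namespace Vale.Agent.Lib.P045.RK

theorem ckB2_858 : ckB 2 tabB2 13728 16 = true := by decide +kernel

theorem ckB2_859 : ckB 2 tabB2 13744 16 = true := by decide +kernel

theorem ckB2_860 : ckB 2 tabB2 13760 16 = true := by decide +kernel

theorem ckB2_861 : ckB 2 tabB2 13776 16 = true := by decide +kernel

theorem ckB2_862 : ckB 2 tabB2 13792 16 = true := by decide +kernel

theorem ckB2_863 : ckB 2 tabB2 13808 16 = true := by decide +kernel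

theorem ckB2_864 : ckB 2 tabB2 13824 16 = true := by decide +kernel

theorem ckB2_865 : ckB 2 tabB2 13840 16 = true := by decide +kernel

theorem ckB2_866 : ckB 2 tabB2 13856 16 = true := by decide +kernel

theorem ckB2_867 : ckB 2 tabB2 13872 16 = true := by decide +kernel

theorem ckB2_868 : ckB 2 tabB2 13888 16 = true := by decide +kernel

theorem ckB2_869 : ckB 2 tabB2 13904 16 = true := by decide +kernel

theorem ckB2_870 : ckB 2 tabB2 13920 16 = true := by decide +kernel

theorem ckB2_871 : ckB 2 tabB2 13936 16 = true := by decide +kernel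

theorem ckB2_872 : ckB 2 tabB2 13952 16 = true := by decide +kernel

theorem ckB2_873 : ckB 2 tabB2 13968 16 = true := by decide +kernel

theorem ckB2_874 : ckB 2 tabB2 13984 16 = true := by decide +kernel

theorem ckB2_875 : ckB 2 tabB2 14000 16 = true := by decide +kernel

theorem ckB2_876 : ckB 2 tabB2 14016 16 = true := by decide +kernel

theorem ckB2_877 : ckB 2 tabB2 14032 16 = true := by decide +kernel

theorem ckB2_878 : ckB 2 tabB2 14048 16 = true := by decide +kernel

theorem ckB2_879 : ckB 2 tabB2 14064 16 = true := by decide +kernel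

theorem ckB2_880 : ckB 2 tabB2 14080 16 = true := by decide +kernel

theorem ckB2_881 : ckB 2 tabB2 14096 16 = true := by decide +kernel

theorem ckB2_882 : ckB 2 tabB2 14112 16 = true := by decide +kernel

theorem ckB2_883 : ckB 2 tabB2 14128 16 = true := by decide +kernel

theorem ckB2_884 : ckB 2 tabB2 14144 16 = true := by decide +kernel

theorem ckB2_885 : ckB 2 tabB2 14160 16 = true := by decide +kernel

theorem ckB2_886 : ckB 2 tabB2 14176 16 = true := by decide +kernel

theorem ckB2_887 : ckB 2 tabB2 14192 16 = true := by decide +kernel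

theorem ckB2_888 : ckB 2 tabB2 14208 16 = true := by decide +kernel

theorem ckB2_889 : ckB 2 tabB2 14224 16 = true := by decide +kernel

theorem ckB2_890 : ckB 2 tabB2 14240 16 = true := by decide +kernel

theorem ckB2_891 : ckB 2 tabB2 14256 16 = true := by decide +kernel

theorem ckB2_892 : ckB 2 tabB2 14272 16 = true := by decide +kernel

theorem ckB2_893 : ckB 2 tabB2 14288 16 = true := by decide +kernel

theorem ckB2_894 : ckB 2 tabB2 14304 16 = true := by decide +kernel

theorem ckB2_895 : ckB 2 tabB2 14320 16 = true := by decide +kernel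

theorem ckB2_896 : ckB 2 tabB2 14336 16 = true := by decide +kernel

end Vale.Agent.Lib.P045.RK
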