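import Vale.Agent.Lib.P045.R42BC2w

/-! Kernel-checked blocks of the certificate for matching number two (part 23). -/

namespace Vale.Agent.Lib.P045.RK

theorem ckB2_897 : ckB 2 tabB2 14352 16 = true := by decide +kernel

theorem ckB2_898 : ckB 2 tabB2 14368 16 = true := by decide +kernel

theorem ckB2_899 : ckB 2 tabB2 14384 16 = true := by decide +kernel

theorem ckB2_900 : ckB 2 tabB2 14400 16 = true := by decide +kernel

theorem ckB2_901 : ckB 2 tabB2 14416 16 = true := by decide +kernel

theorem ckB2_902 : ckB 2 tabB2 14432 16 = true := by decide +kernel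

theorem ckB2_903 : ckB 2 tabB2 14448 16 = true := by decide +kernel

theorem ckB2_904 : ckB 2 tabB2 14464 16 = true := by decide +kernel

theorem ckB2_905 : ckB 2 tabB2 14480 16 = true := by decide +kernel

theorem ckB2_906 : ckB 2 tabB2 14496 16 = true := by decide +kernel

theorem ckB2_907 : ckB 2 tabB2 14512 16 = true := by decide +kernel

theorem ckB2_908 : ckB 2 tabB2 14528 16 = true := by decide +kernel

theorem ckB2_909 : ckB 2 tabB2 14544 16 = true := by decide +kernel

theorem ckB2_910 : ckB 2 tabB2 14560 16 = true := by decide +kernel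

theorem ckB2_911 : ckB 2 tabB2 14576 16 = true := by decide +kernel

theorem ckB2_912 : ckB 2 tabB2 14592 16 = true := by decide +kernel

theorem ckB2_913 : ckB 2 tabB2 14608 16 = true := by decide +kernel

theorem ckB2_914 : ckB 2 tabB2 14624 16 = true := by decide +kernel

theorem ckB2_915 : ckB 2 tabB2 14640 16 = true := by decide +kernel

theorem ckB2_916 : ckB 2 tabB2 14656 16 = true := by decide +kernel

theorem ckB2_917 : ckB 2 tabB2 14672 16 = true := by decide +kernel

theorem ckB2_918 : ckB 2 tabB2 14688 16 = true := by decide +kernel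

theorem ckB2_919 : ckB 2 tabB2 14704 16 = true := by decide +kernel

theorem ckB2_920 : ckB 2 tabB2 14720 16 = true := by decide +kernel

theorem ckB2_921 : ckB 2 tabB2 14736 9 = true := by decide +kernel

end Vale.Agent.Lib.P045.RK
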