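import Vale.Agent.Lib.P045.R42BEng

/-! The packed certificate of the intersecting case (9 nodes). -/

namespace Vale.Agent.Lib.P045.RK

/-- The packed nodes of the certificate of the intersecting case. -/
noncomputable def tabB1 (j : Nat) : Nat :=
  (@Bool.rec (fun _ => Nat)
  (@Bool.rec (fun _ => Nat)
   (@Bool.rec (fun _ => Nat)
    (@Bool.rec (fun _ => Nat)
     0x24328821124204900000000c8404dc
     0x20b288211242049000000004e404dc
     (Nat.ble 1 j))
    (@Bool.rec (fun _ => Nat)
     0x120b0000000000000000000000000000002430000000000000000000000000000002882112420490001000010404db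
     0x100008100005000000ae4000209200000000000000000000000000000228800000000000000000000000000000000021124204900010000845049b
     (Nat.ble 3 j))
    (Nat.ble 2 j))
   (@Bool.rec (fun _ => Nat)
    (@Bool.rec (fun _ => Nat)
     0x1224204900000000c46049b
     0x100008100005000000ae4000221100000100000a000081000050e400022880000000000000000000000000000000000922420490001000014504db
     (Nat.ble 5 j))
    (@Bool.rec (fun _ => Nat)
     0x5092000000000000000000000000000004012000000000000000000000000000003211000000000000000000000000000000000000242049000180008a50493
     0x8000001000001000081e4000620a00000000000000000000000000000624200000000000000000000000000000000000000004900010000c040292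
     (Nat.ble 7 j))
    (Nat.ble 6 j))
   (Nat.ble 4 j))
  (@Bool.rec (fun _ => Nat)
   (@Bool.rec (fun _ => Nat)
    (@Bool.rec (fun _ => Nat)
     0x7049000000000000000000000000000000000000000000000080008200249
     0
     (Nat.ble 9 j))
    (@Bool.rec (fun _ => Nat)
     0
     0
     (Nat.ble 11 j))
    (Nat.ble 10 j))
   (@Bool.rec (fun _ => Nat)
    (@Bool.rec (fun _ => Nat)
     0
     0
     (Nat.ble 13 j))
    (@Bool.rec (fun _ => Nat)
     0
     0
     (Nat.ble 15 j))
    (Nat.ble 14 j))
   (Nat.ble 12 j))
  (Nat.ble 8 j))

end Vale.Agent.Lib.P045.RK
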