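import Vale.Agent.Lib.P045.R42BBase

/-!
# A bit-parallel checker for the certificates of `CertSpec`

Sets of codes `p < 4096` are stored as bit masks (natural numbers below `2 ^ 4096`).  All functions
are written with the raw operations on natural numbers, which the kernel evaluates with
arbitrary-precision arithmetic, and with raw recursors, so that the kernel needs few steps.

A node of a certificate is packed into one natural number:

* bits `0-11`: the four digit counts (3 bits each); bit `12`: the rule (`0` branching, `1`
  intersecting remainder);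
* bits `13-42`: six slots for the vertex list `S` (5 bits each; unused slots repeat a vertex);
* bits `43-47`: the number of references;
* bits `48-227`: fifteen slots for the members of the family (12 bits each; unused slots repeat a
  member);
* from bit `228`: the references (132 bits each: the pattern, the index of the earlier node, and,
  unless the reference is a direct one, the permutation of the parts and the four digit maps).
-/

namespace Vale.Agent.Lib.P045.RK

open Vale.Agent.Lib.P045

noncomputable section

/-- Conjunction. -/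
def band (a b : Bool) : Bool := @Bool.rec (fun _ => Bool) false b a

/-- Disjunction. -/
def bor (a b : Bool) : Bool := @Bool.rec (fun _ => Bool) b true a

/-- Negation. -/
def bnot (a : Bool) : Bool := @Bool.rec (fun _ => Bool) true false a

/-- Bounded universal quantifier. -/
def allN (n : Nat) (f : Nat → Bool) : Bool :=
  @Nat.rec (fun _ => Bool) true (fun i ih => band (f i) ih) n

/-- Union of the masks `g 0, ..., g (n - 1)`. -/
def orN (n : Nat) (g : Nat → Nat) : Nat :=
  @Nat.rec (fun _ => Nat) 0 (fun i ih => Nat.lor (g i) ih) n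

/-- Union of the masks `g 0, ..., g 14`. -/
def or15 (g : Nat → Nat) : Nat :=
  Nat.lor (g 14) (Nat.lor (g 13) (Nat.lor (g 12) (Nat.lor (g 11) (Nat.lor (g 10) (Nat.lor (g 9)
  (Nat.lor (g 8) (Nat.lor (g 7) (Nat.lor (g 6) (Nat.lor (g 5) (Nat.lor (g 4) (Nat.lor (g 3)
  (Nat.lor (g 2) (Nat.lor (g 1) (Nat.lor (g 0) 0))))))))))))))

/-- Bit `p` of `m`. -/
def tb (m p : Nat) : Bool := Nat.beq (Nat.land (Nat.shiftRight m p) 1) 1

/-- Every bit of `X` is a bit of `Y`. -/
def subB (X Y : Nat) : Bool := Nat.beq (Nat.lor X Y) Y

/-- The mask of all codes. -/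
def full : Nat := Nat.sub (Nat.pow 2 4096) 1

/-- The field of width `w` at offset `off` of the packed number `n`. -/
def fld (n off w : Nat) : Nat := Nat.mod (Nat.shiftRight n off) (Nat.pow 2 w)

/-- Digit `c` of the code `x` (a fast form of `dg`). -/
def dq (x c : Nat) : Nat := Nat.mod (Nat.shiftRight x (Nat.mul 3 c)) 8

/-- The mask of the codes whose digit `c` is `0` (for `c < 4`). -/
def baseA (c : Nat) : Nat :=
  @Nat.rec (fun _ => Nat) baseA0 (fun c1 _ => @Nat.rec (fun _ => Nat) baseA1
    (fun c2 _ => @Nat.rec (fun _ => Nat) baseA2 (fun _ _ => baseA3) c2) c1) c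

/-- The mask of the codes whose digit `c` is `v`. -/
def AS (c v : Nat) : Nat := Nat.shiftLeft (baseA c) (Nat.mul v (Nat.pow 8 c))

/-- The mask of the codes whose digit `c` is at most `m`. -/
def LeM (c m : Nat) : Nat :=
  Nat.land (Nat.shiftRight leTab (Nat.mul 4096 (Nat.add (Nat.mul 8 c) m))) full

/-- The mask of the codes disjoint from `f`. -/
def Dsj (f : Nat) : Nat :=
  Nat.xor full
    (Nat.lor (Nat.lor (Nat.shiftLeft baseA0 (Nat.land f 7)) (Nat.shiftLeft baseA1 (Nat.land f 56)))
      (Nat.lor (Nat.shiftLeft baseA2 (Nat.land f 448)) (Nat.shiftLeft baseA3 (Nat.land f 3584))))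

/-- The digit counts of a packed node. -/
def dK (n c : Nat) : Nat := fld n (Nat.mul 3 c) 3

/-- The rule of a packed node. -/
def dTag (n : Nat) : Nat := fld n 12 1

/-- Slot `t` of the vertex list of a packed node. -/
def sS (n t : Nat) : Nat := fld n (Nat.add 13 (Nat.mul 5 t)) 5

/-- The number of references of a packed node. -/
def nR (n : Nat) : Nat := fld n 43 5

/-- Slot `t` of the family of a packed node. -/
def fF (n t : Nat) : Nat := fld n (Nat.add 48 (Nat.mul 12 t)) 12

/-- Reference `t` of a packed node. -/
def rf (n t : Nat) : Nat := fld n (Nat.add 228 (Nat.mul 132 t)) 132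

/-- The pattern of a packed reference. -/
def rPc (r : Nat) : Nat := fld r 0 12

/-- The index of the earlier node of a packed reference. -/
def rJ (r : Nat) : Nat := fld r 12 16

/-- The permutation of the parts of a packed reference. -/
def rSig (r c : Nat) : Nat := fld r (Nat.add 28 (Nat.mul 2 c)) 2

/-- The digit maps of a packed reference. -/
def rRho (r c v : Nat) : Nat := fld r (Nat.add (Nat.add 36 (Nat.mul 24 c)) (Nat.mul 3 v)) 3

/-- The family of a packed node. -/
def dF (n : Nat) : List Nat := ((List.range 15).map (fF n)).dedup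

/-- The vertex list of a packed node (six slots). -/
def S6 (n : Nat) : List Nat := (List.range 6).map (sS n)

/-- The vertex list of a packed node (three slots). -/
def S3 (n : Nat) : List Nat := (List.range 3).map (sS n)

/-- The family of node `i` of a table. -/
def fam (T : Nat → Nat) (i : Nat) : List Nat := dF (T i)

/-- The digit counts of node `i` of a table. -/
def kk (T : Nat → Nat) (i c : Nat) : Nat := dK (T i) c

/-- The mask of the codes disjoint from some member of the family. -/
def Inc1 (n : Nat) : Nat := or15 fun s => Dsj (fF n s)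

/-- The mask of the codes disjoint from two disjoint members of the family. -/
def Inc2 (n : Nat) : Nat :=
  or15 fun s => Nat.land (Dsj (fF n s))
    (or15 fun t => Nat.mul (Nat.land (Nat.shiftRight (Dsj (fF n s)) (fF n t)) 1) (Dsj (fF n t)))

/-- The mask of the codes whose digits are at most the digit counts. -/
def Val (n : Nat) : Nat :=
  Nat.land (Nat.land (LeM 0 (dK n 0)) (LeM 1 (dK n 1)))
    (Nat.land (LeM 2 (dK n 2)) (LeM 3 (dK n 3)))

/-- The mask of the codes whose digit `c` is a used digit. -/
def U (n c : Nat) : Nat := LeM c (Nat.sub (dK n c) 1)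

/-- The mask of the codes all of whose digits are used digits. -/
def Ua (n : Nat) : Nat := Nat.land (Nat.land (U n 0) (U n 1)) (Nat.land (U n 2) (U n 3))

/-- The mask of the set of the members of the family. -/
def MFam (n : Nat) : Nat := or15 fun t => Nat.pow 2 (fF n t)

/-- The mask of the codes containing the vertex with code `x`. -/
def AX (x : Nat) : Nat := AS (Nat.div x 8) (Nat.mod x 8)

/-- The mask of the codes avoiding the first three vertex slots. -/
def Avo3 (n : Nat) : Nat :=
  Nat.xor full (Nat.lor (AX (sS n 0)) (Nat.lor (AX (sS n 1)) (AX (sS n 2))))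

/-- The mask of the codes avoiding the six vertex slots. -/
def Avo6 (n : Nat) : Nat :=
  Nat.xor full (Nat.lor (Nat.lor (AX (sS n 0)) (Nat.lor (AX (sS n 1)) (AX (sS n 2))))
    (Nat.lor (AX (sS n 3)) (Nat.lor (AX (sS n 4)) (AX (sS n 5)))))

/-- The mask of the possible patterns in range that avoid the vertex list. -/
def cand (n avo inc : Nat) : Nat := Nat.land (Nat.land (Val n) avo) (Nat.xor full inc)

/-- The check of `WfFam` (the bounds that hold by construction are left out). -/
def wfB (n : Nat) : Bool :=
  band (Nat.ble 1 (dK n 0)) (band (Nat.ble 1 (dK n 1)) (band (Nat.ble 1 (dK n 2))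
    (band (Nat.ble 1 (dK n 3)) (subB (MFam n) (Ua n)))))

/-- Vertex slot `t` is a vertex with a used digit. -/
def sOK (n t : Nat) : Bool :=
  Nat.ble (Nat.succ (Nat.mod (sS n t) 8)) (dK n (Nat.div (sS n t) 8))

/-- The check of `WfS` for the first three vertex slots. -/
def sB3 (n : Nat) : Bool := band (sOK n 0) (band (sOK n 1) (sOK n 2))

/-- The check of `WfS` for the six vertex slots. -/
def sB6 (n : Nat) : Bool := band (sB3 n) (band (sOK n 3) (band (sOK n 4) (sOK n 5)))

/-- The mask of the patterns of the references. -/
def refMask (n : Nat) : Nat := orN (nR n) fun t => Nat.pow 2 (rPc (rf n t))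

/-- The digit count of part `c` after adding the pattern `p` (a fast form of `kNext`). -/
def kn (n p c : Nat) : Nat :=
  @Bool.rec (fun _ => Nat) (dK n c) (Nat.succ (dK n c)) (Nat.beq (dq p c) (dK n c))

/-- The check of a direct reference. -/
def refId (nG n r : Nat) : Bool :=
  band (subB (MFam nG) (Nat.lor (MFam n) (Nat.pow 2 (rPc r))))
    (band (Nat.ble (dK nG 0) (kn n (rPc r) 0)) (band (Nat.ble (dK nG 1) (kn n (rPc r) 1))
      (band (Nat.ble (dK nG 2) (kn n (rPc r) 2)) (Nat.ble (dK nG 3) (kn n (rPc r) 3)))))

/-- The code with the four given digits. -/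
def enc4 (a b c d : Nat) : Nat :=
  Nat.add (Nat.add a (Nat.mul 8 b)) (Nat.add (Nat.mul 64 c) (Nat.mul 512 d))

/-- The code `f` read through the permutation of the parts of the reference `r`. -/
def pull (r f : Nat) : Nat :=
  enc4 (dq f (rSig r 0)) (dq f (rSig r 1)) (dq f (rSig r 2)) (dq f (rSig r 3))

/-- The image of the code `g` under the digit maps of the reference `r`. -/
def push (r g : Nat) : Nat :=
  enc4 (rRho r 0 (dq g 0)) (rRho r 1 (dq g 1)) (rRho r 2 (dq g 2)) (rRho r 3 (dq g 3))

/-- The mask of the pulled-back codes of the pattern of `r` and of the family of `n`. -/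
def imgMask (n r : Nat) : Nat :=
  Nat.lor (Nat.pow 2 (pull r (rPc r))) (or15 fun t => Nat.pow 2 (pull r (fF n t)))

/-- The mask of the images of the family of `nG`. -/
def pushMask (nG r : Nat) : Nat := or15 fun s => Nat.pow 2 (push r (fF nG s))

/-- The check of a reference with a permutation of the parts and digit maps. -/
def refGen (nG n r : Nat) : Bool :=
  band (Nat.beq (Nat.lor (Nat.lor (Nat.pow 2 (rSig r 0)) (Nat.pow 2 (rSig r 1)))
      (Nat.lor (Nat.pow 2 (rSig r 2)) (Nat.pow 2 (rSig r 3)))) 15)
    (band (allN 4 fun c => allN (dK nG c) fun v =>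
        band (Nat.ble (Nat.succ (rRho r c v)) (kn n (rPc r) (rSig r c)))
          (allN v fun w => bnot (Nat.beq (rRho r c v) (rRho r c w))))
      (subB (pushMask nG r) (imgMask n r)))

/-- The check of a reference. -/
def refB (nG n r : Nat) : Bool :=
  @Bool.rec (fun _ => Bool) (refGen nG n r) (refId nG n r) (Nat.beq (Nat.shiftRight r 28) 0)

/-- The check of all references of the node `n` with index `i`. -/
def refsB (T : Nat → Nat) (i n : Nat) : Bool :=
  allN (nR n) fun t => band (Nat.ble (Nat.succ (rJ (rf n t))) i)
    (refB (T (rJ (rf n t))) n (rf n t))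

/-- The index of the lowest set bit of `M` (for `0 < M < 2 ^ 4096`; only used as a guess). -/
def lowIdx (M : Nat) : Nat :=
  Nat.land (Nat.shiftRight dlogTab
    (Nat.mul 12 (Nat.mod (Nat.land M (Nat.xor M (Nat.sub M 1))) 4099))) 4095

/-- The predicate `f` holds at every set bit of `M` (with enough fuel). -/
def bitsAll (fuel M : Nat) (f : Nat → Bool) : Bool :=
  @Nat.rec (fun _ => Nat → Bool) (fun M => Nat.beq M 0)
    (fun _ ih M => bor (Nat.beq M 0)
      (band (f (lowIdx M)) (ih (Nat.xor M (Nat.pow 2 (lowIdx M)))))) fuel M

/-- The mask of the codes sharing a used digit with `p`. -/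
def isect (n p : Nat) : Nat :=
  Nat.lor
    (Nat.lor (Nat.land (Nat.shiftLeft baseA0 (Nat.land p 7)) (U n 0))
      (Nat.land (Nat.shiftLeft baseA1 (Nat.land p 56)) (U n 1)))
    (Nat.lor (Nat.land (Nat.shiftLeft baseA2 (Nat.land p 448)) (U n 2))
      (Nat.land (Nat.shiftLeft baseA3 (Nat.land p 3584)) (U n 3)))

/-- The mask of the codes disjoint from a member of the family that is disjoint from `p`. -/
def cov (n p : Nat) : Nat :=
  or15 fun t => Nat.mul (Nat.land (Nat.shiftRight (Dsj (fF n t)) p) 1) (Dsj (fF n t))

/-- The check of the intersecting-remainder rule. -/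
def tag1B (n : Nat) : Bool :=
  bitsAll 4096 (cand n (Avo3 n) (Inc2 n)) fun p =>
    subB (cand n (Avo3 n) (Inc2 n)) (Nat.lor (isect n p) (cov n p))

/-- The check of node `i` of a table. -/
def nodeB (mode : Nat) (T : Nat → Nat) (i : Nat) : Bool :=
  band (wfB (T i))
    (@Bool.rec (fun _ => Bool)
      (band (Nat.beq mode 2) (band (sB3 (T i)) (tag1B (T i))))
      (@Bool.rec (fun _ => Bool)
        (band (Nat.beq mode 2) (band (sB6 (T i))
          (band (subB (cand (T i) (Avo6 (T i)) (Inc2 (T i))) (refMask (T i)))
            (refsB T i (T i)))))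
        (band (sB3 (T i))
          (band (subB (cand (T i) (Avo3 (T i)) (Inc1 (T i))) (refMask (T i)))
            (refsB T i (T i))))
        (Nat.beq mode 1))
      (Nat.beq (dTag (T i)) 0))

/-- The check of the nodes `a, ..., a + B - 1` of a table. -/
def ckB (mode : Nat) (T : Nat → Nat) (a B : Nat) : Bool :=
  allN B fun t => nodeB mode T (Nat.add a t)

end

end Vale.Agent.Lib.P045.RK
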