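import Vale.Agent.Lib.P045.R42BChain
import Vale.Agent.Lib.P045.R42BD1

/-!
# The two certificates of `CertSpec`

`cert41B : CertSpec 1` (9 nodes) and `cert42B : CertSpec 2` (14745 nodes), checked by the kernel
with the bit-parallel checker of `R42BEng` and its soundness theorem `nodeB_sound`.
-/

namespace Vale.Agent.Lib.P045.RK

open Vale.Agent.Lib.P045

theorem ckB1_0 : ckB 1 tabB1 0 9 = true := by decide +kernel

theorem rootB1 : fam tabB1 8 = [0] ∧ ∀ c < 4, kk tabB1 8 c = 1 := by decide +kernel

theorem rootB2 : fam tabB2 14744 = [0] ∧ ∀ c < 4, kk tabB2 14744 c = 1 := by decide +kernel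

end Vale.Agent.Lib.P045.RK

namespace Vale.Agent.Lib.P045

open Vale.Agent.Lib.P045.RK

/-- The certificate of the intersecting case. -/
theorem cert41B : CertSpec 1 :=
  ⟨fam tabB1, kk tabB1, 8,
    fun i hi => pre_step 1 tabB1 0 9 (pre_zero 1 tabB1) ckB1_0 i (Nat.lt_succ_of_le hi),
    rootB1.1, rootB1.2⟩

/-- The certificate of the case of matching number at most two. -/
theorem cert42B : CertSpec 2 :=
  ⟨fam tabB2, kk tabB2, 14744, fun i hi => preB2_921 i (Nat.lt_succ_of_le hi),
    rootB2.1, rootB2.2⟩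

end Vale.Agent.Lib.P045
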