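import Vale.Agent.Lib.P045.R42BEng

/-!
# Basic lemmas on the mask operations of the bit-parallel checker
-/

namespace Vale.Agent.Lib.P045.RK

open Vale.Agent.Lib.P045

theorem band_eq (a b : Bool) : band a b = (a && b) := by cases a <;> rfl

theorem bor_eq (a b : Bool) : bor a b = (a || b) := by cases a <;> rfl

theorem bnot_eq (a : Bool) : bnot a = !a := by cases a <;> rfl

theorem band_true {a b : Bool} : band a b = true ↔ a = true ∧ b = true := by
  rw [band_eq, Bool.and_eq_true]

theorem allN_succ (n : Nat) (f : Nat → Bool) : allN (n + 1) f = band (f n) (allN n f) := rfl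

theorem allN_iff (n : Nat) (f : Nat → Bool) : allN n f = true ↔ ∀ i < n, f i = true := by
  induction n with
  | zero => exact ⟨fun _ i hi => absurd hi (Nat.not_lt_zero i), fun _ => rfl⟩
  | succ n ih =>
    rw [allN_succ, band_true, ih]
    constructor
    · rintro ⟨h1, h2⟩ i hi
      rcases Nat.lt_succ_iff_lt_or_eq.mp hi with h | h
      · exact h2 i h
      · rw [h]; exact h1
    · intro h
      exact ⟨h n (Nat.lt_succ_self n), fun i hi => h i (Nat.lt_succ_of_lt hi)⟩

theorem tb_eq (m p : Nat) : tb m p = m.testBit p := by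
  unfold tb Nat.testBit
  show Nat.beq ((m >>> p) &&& 1) 1 = (1 &&& m >>> p != 0)
  rw [Nat.and_comm 1, Nat.and_one_is_mod]
  rcases Nat.mod_two_eq_zero_or_one (m >>> p) with h | h <;> rw [h] <;> rfl

theorem tb_lor (a b p : Nat) : tb (Nat.lor a b) p = (tb a p || tb b p) := by
  rw [tb_eq, tb_eq, tb_eq]; exact Nat.testBit_or a b p

theorem tb_land (a b p : Nat) : tb (Nat.land a b) p = (tb a p && tb b p) := by
  rw [tb_eq, tb_eq, tb_eq]; exact Nat.testBit_and a b p

theorem tb_xor (a b p : Nat) : tb (Nat.xor a b) p = (tb a p ^^ tb b p) := by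
  rw [tb_eq, tb_eq, tb_eq]; exact Nat.testBit_xor a b p

theorem tb_zero (p : Nat) : tb 0 p = false := by
  rw [tb_eq]; exact Nat.zero_testBit p

theorem tb_full_all : allN 4096 (fun p => tb full p) = true := by decide +kernel

theorem tb_full (p : Nat) (hp : p < 4096) : tb full p = true :=
  (allN_iff 4096 (fun p => tb full p)).mp tb_full_all p hp

theorem tb_pow (a p : Nat) : tb (Nat.pow 2 a) p = true ↔ a = p := by
  rw [tb_eq]
  show (2 ^ a).testBit p = true ↔ a = p
  rw [Nat.testBit_two_pow]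
  exact decide_eq_true_iff

theorem subB_imp {X Y : Nat} (h : subB X Y = true) (p : Nat) (hp : tb X p = true) :
    tb Y p = true := by
  have h1 : Nat.lor X Y = Y := Nat.eq_of_beq_eq_true h
  rw [← h1, tb_lor, hp]; rfl

/-- `M` is the mask of the set of the codes `p < 4096` with `P p`. -/
def IsM (M : Nat) (P : Nat → Prop) : Prop := ∀ p < 4096, (tb M p = true ↔ P p)

theorem IsM.lor {M N : Nat} {P Q : Nat → Prop} (h1 : IsM M P) (h2 : IsM N Q) :
    IsM (Nat.lor M N) (fun p => P p ∨ Q p) := by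
  intro p hp
  rw [tb_lor, Bool.or_eq_true, h1 p hp, h2 p hp]

theorem IsM.land {M N : Nat} {P Q : Nat → Prop} (h1 : IsM M P) (h2 : IsM N Q) :
    IsM (Nat.land M N) (fun p => P p ∧ Q p) := by
  intro p hp
  rw [tb_land, Bool.and_eq_true, h1 p hp, h2 p hp]

theorem IsM.compl {M : Nat} {P : Nat → Prop} (h : IsM M P) :
    IsM (Nat.xor full M) (fun p => ¬ P p) := by
  intro p hp
  rw [tb_xor, tb_full p hp]
  show (true ^^ tb M p) = true ↔ ¬ P p
  rw [← h p hp]
  cases tb M p <;> simp

theorem IsM.congr {M : Nat} {P Q : Nat → Prop} (h : IsM M P) (hPQ : ∀ p < 4096, (P p ↔ Q p)) :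
    IsM M Q := fun p hp => (h p hp).trans (hPQ p hp)

theorem isM_zero : IsM 0 (fun _ => False) := by
  intro p _
  rw [tb_zero]; simp

theorem isM_pow (a : Nat) : IsM (Nat.pow 2 a) (fun p => a = p) := fun p _ => tb_pow a p

theorem isM_orN (n : Nat) (g : Nat → Nat) (P : Nat → Nat → Prop)
    (h : ∀ t < n, IsM (g t) (P t)) : IsM (orN n g) (fun p => ∃ t < n, P t p) := by
  induction n with
  | zero =>
    refine isM_zero.congr ?_
    intro p _
    constructor
    · exact False.elim
    · rintro ⟨t, ht, _⟩; exact absurd ht (Nat.not_lt_zero t)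
  | succ n ih =>
    have h1 := h n (Nat.lt_succ_self n)
    have h2 := ih (fun t ht => h t (Nat.lt_succ_of_lt ht))
    refine (h1.lor h2).congr ?_
    intro p _
    constructor
    · rintro (hh | ⟨t, ht, hh⟩)
      · exact ⟨n, Nat.lt_succ_self n, hh⟩
      · exact ⟨t, Nat.lt_succ_of_lt ht, hh⟩
    · rintro ⟨t, ht, hh⟩
      rcases Nat.lt_succ_iff_lt_or_eq.mp ht with h' | h'
      · exact Or.inr ⟨t, h', hh⟩
      · rw [h'] at hh; exact Or.inl hh

theorem or15_eq (g : Nat → Nat) : or15 g = orN 15 g := rfl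

theorem isM_or15 (g : Nat → Nat) (P : Nat → Nat → Prop)
    (h : ∀ t < 15, IsM (g t) (P t)) : IsM (or15 g) (fun p => ∃ t < 15, P t p) := by
  rw [or15_eq]; exact isM_orN 15 g P h

theorem isM_mulbit (X g D : Nat) (P : Nat → Prop) (h : IsM D P) :
    IsM (Nat.mul (Nat.land (Nat.shiftRight X g) 1) D) (fun p => tb X g = true ∧ P p) := by
  intro p hp
  have hb : Nat.land (Nat.shiftRight X g) 1 = 0 ∨ Nat.land (Nat.shiftRight X g) 1 = 1 := by
    show (X >>> g) &&& 1 = 0 ∨ (X >>> g) &&& 1 = 1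
    rw [Nat.and_one_is_mod]
    exact Nat.mod_two_eq_zero_or_one _
  rcases hb with hb | hb
  · have ht : tb X g = false := by unfold tb; rw [hb]; rfl
    rw [hb, ht]
    show tb (0 * D) p = true ↔ _
    rw [Nat.zero_mul, tb_zero]; simp
  · have ht : tb X g = true := by unfold tb; rw [hb]; rfl
    rw [hb, ht]
    show tb (1 * D) p = true ↔ _
    rw [Nat.one_mul, h p hp]; simp

theorem fld_lt (n off w : Nat) : fld n off w < 2 ^ w := by
  unfold fld
  exact Nat.mod_lt _ (Nat.two_pow_pos w)

theorem dq_lt (x c : Nat) : dq x c < 8 := Nat.mod_lt _ (by norm_num)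

theorem dq_eq (x c : Nat) : dq x c = dg x c := by
  unfold dq dg
  show (x >>> (3 * c)) % 8 = x / 8 ^ c % 8
  rw [Nat.shiftRight_eq_div_pow, pow_mul]
  norm_num

theorem dg_lt (x c : Nat) : dg x c < 8 := Nat.mod_lt _ (by norm_num)

end Vale.Agent.Lib.P045.RK
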