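import Vale.Agent.Lib.P045.R42BTab

/-!
# Soundness of the bit-parallel checker: a passed check proves `NodeSpec`
-/

namespace Vale.Agent.Lib.P045.RK

open Vale.Agent.Lib.P045

theorem isM_AX (x : Nat) (hx : x < 32) : IsM (AX x) (fun p => dg p (x / 8) = x % 8) :=
  isM_AS (Nat.div x 8) (Nat.mod x 8) (by show x / 8 < 4; omega) (Nat.mod_lt _ (by norm_num))

theorem avoids_iff (S : List Nat) (hS : ∀ x ∈ S, x < 32) (p : Nat) :
    avoids S p ↔ ¬ ∃ x ∈ S, dg p (x / 8) = x % 8 := by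
  unfold avoids
  constructor
  · rintro h ⟨x, hx, e⟩
    have hx32 := hS x hx
    apply h (x / 8) (by omega)
    rw [e, Nat.div_add_mod x 8]
    exact hx
  · intro h c hc hmem
    apply h
    refine ⟨8 * c + dg p c, hmem, ?_⟩
    have hd := dg_lt p c
    have h1 : (8 * c + dg p c) / 8 = c := by omega
    have h2 : (8 * c + dg p c) % 8 = dg p c := by omega
    rw [h1, h2]

theorem S3_eq (n : Nat) : S3 n = [sS n 0, sS n 1, sS n 2] := rfl

theorem S6_eq (n : Nat) : S6 n = [sS n 0, sS n 1, sS n 2, sS n 3, sS n 4, sS n 5] := rfl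

theorem S3_lt (n x : Nat) (h : x ∈ S3 n) : x < 32 := by
  unfold S3 at h
  obtain ⟨t, _, e⟩ := List.mem_map.mp h
  rw [← e]; exact sS_lt n t

theorem S6_lt (n x : Nat) (h : x ∈ S6 n) : x < 32 := by
  unfold S6 at h
  obtain ⟨t, _, e⟩ := List.mem_map.mp h
  rw [← e]; exact sS_lt n t

theorem isM_Avo3 (n : Nat) : IsM (Avo3 n) (avoids (S3 n)) := by
  have h := ((isM_AX (sS n 0) (sS_lt n 0)).lor
    ((isM_AX (sS n 1) (sS_lt n 1)).lor (isM_AX (sS n 2) (sS_lt n 2)))).compl
  refine h.congr ?_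
  intro p _
  rw [avoids_iff (S3 n) (S3_lt n) p, S3_eq]
  simp

theorem isM_Avo6 (n : Nat) : IsM (Avo6 n) (avoids (S6 n)) := by
  have h := (((isM_AX (sS n 0) (sS_lt n 0)).lor
    ((isM_AX (sS n 1) (sS_lt n 1)).lor (isM_AX (sS n 2) (sS_lt n 2)))).lor
    ((isM_AX (sS n 3) (sS_lt n 3)).lor
      ((isM_AX (sS n 4) (sS_lt n 4)).lor (isM_AX (sS n 5) (sS_lt n 5))))).compl
  refine h.congr ?_
  intro p _
  rw [avoids_iff (S6 n) (S6_lt n) p, S6_eq]
  simp [or_assoc]

theorem sOK_imp (n t : Nat) (h : sOK n t = true) :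
    sS n t / 8 < 4 ∧ sS n t % 8 < dK n (sS n t / 8) := by
  have h1 := sS_lt n t
  refine ⟨by omega, ?_⟩
  exact Nat.lt_of_succ_le (Nat.le_of_ble_eq_true h)

theorem wfS3 (n : Nat) (h : sB3 n = true) : WfS (S3 n) (dK n) := by
  unfold sB3 at h
  rw [band_true, band_true] at h
  obtain ⟨h0, h1, h2⟩ := h
  intro x hx
  rw [S3_eq] at hx
  simp only [List.mem_cons, List.not_mem_nil, or_false] at hx
  rcases hx with e | e | e <;> rw [e]
  · exact sOK_imp n 0 h0
  · exact sOK_imp n 1 h1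
  · exact sOK_imp n 2 h2

theorem wfS6 (n : Nat) (h : sB6 n = true) : WfS (S6 n) (dK n) := by
  unfold sB6 sB3 at h
  rw [band_true, band_true, band_true, band_true, band_true] at h
  obtain ⟨⟨h0, h1, h2⟩, h3, h4, h5⟩ := h
  intro x hx
  rw [S6_eq] at hx
  simp only [List.mem_cons, List.not_mem_nil, or_false] at hx
  rcases hx with e | e | e | e | e | e <;> rw [e]
  · exact sOK_imp n 0 h0
  · exact sOK_imp n 1 h1
  · exact sOK_imp n 2 h2
  · exact sOK_imp n 3 h3
  · exact sOK_imp n 4 h4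
  · exact sOK_imp n 5 h5

theorem isM_cand (n avo inc : Nat) (Pa Pi : Nat → Prop) (ha : IsM avo Pa) (hi : IsM inc Pi) :
    IsM (cand n avo inc) (fun p => ((∀ c < 4, dg p c ≤ dK n c) ∧ Pa p) ∧ ¬ Pi p) :=
  ((isM_Val n).land ha).land hi.compl

theorem isM_refMask (n : Nat) : IsM (refMask n) (fun p => ∃ t < nR n, rPc (rf n t) = p) :=
  isM_orN _ _ _ (fun _ _ => isM_pow _)

theorem incomp_one (F : List Nat) (p : Nat) : incomp 1 F p ↔ ∃ f ∈ F, cdisj f p := by
  unfold incomp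
  simp

theorem incomp_two (F : List Nat) (p : Nat) :
    incomp 2 F p ↔ ∃ f ∈ F, ∃ g ∈ F, cdisj f g ∧ cdisj f p ∧ cdisj g p := by
  unfold incomp
  simp

theorem isM_Inc1' (n : Nat) : IsM (Inc1 n) (incomp 1 (dF n)) :=
  (isM_Inc1 n).congr (fun p _ => (incomp_one (dF n) p).symm)

theorem isM_Inc2' (n : Nat) : IsM (Inc2 n) (incomp 2 (dF n)) :=
  (isM_Inc2 n).congr (fun p _ => (incomp_two (dF n) p).symm)

theorem kn_eq (n p c : Nat) : kn n p c = kNext (dK n) p c := by
  unfold kn kNext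
  rw [← dq_eq]
  by_cases h : dq p c = dK n c
  · have hb : Nat.beq (dq p c) (dK n c) = true := by rw [Nat.beq_eq]; exact h
    rw [hb, if_pos h]
  · have hb : Nat.beq (dq p c) (dK n c) = false := by
      cases hb' : Nat.beq (dq p c) (dK n c) with
      | false => rfl
      | true => exact absurd (Nat.eq_of_beq_eq_true hb') h
    rw [hb, if_neg h]

theorem dF_lt (n g : Nat) (h : g ∈ dF n) : g < 4096 := by
  obtain ⟨t, _, e⟩ := (mem_dF n g).mp h
  rw [← e]; exact fF_lt n t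

theorem refId_sound (nG n r : Nat) (h : refId nG n r = true) :
    RefOK (dF nG) (dK nG) (dF n) (dK n) (rPc r) (fun c => c) (fun _ v => v) := by
  unfold refId at h
  rw [band_true, band_true, band_true, band_true] at h
  obtain ⟨h0, h1, h2, h3, h4⟩ := h
  have hk : ∀ c < 4, dK nG c ≤ kNext (dK n) (rPc r) c := by
    rw [forall_lt_four]
    refine ⟨?_, ?_, ?_, ?_⟩ <;> rw [← kn_eq]
    · exact Nat.le_of_ble_eq_true h1
    · exact Nat.le_of_ble_eq_true h2
    · exact Nat.le_of_ble_eq_true h3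
    · exact Nat.le_of_ble_eq_true h4
  refine ⟨fun c hc => hc, fun c _ d _ e => e, fun c hc v hv => lt_of_lt_of_le hv (hk c hc),
    fun c _ v _ w _ e => e, ?_⟩
  intro g hg
  have hlt : g < 4096 := dF_lt nG g hg
  have h5 := subB_imp h0 g ((isM_MFam nG g hlt).mpr hg)
  have h6 := (((isM_MFam n).lor (isM_pow (rPc r))) g hlt).mp h5
  rcases h6 with h6 | h6
  · exact ⟨g, List.mem_cons_of_mem _ h6, fun c _ => rfl⟩
  · exact ⟨g, by rw [← h6]; exact List.mem_cons_self, fun c _ => rfl⟩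

theorem sig_injB : allN 4 (fun a => allN 4 (fun b => allN 4 (fun c => allN 4 (fun d =>
    bor (bnot (Nat.beq (Nat.lor (Nat.lor (Nat.pow 2 a) (Nat.pow 2 b))
        (Nat.lor (Nat.pow 2 c) (Nat.pow 2 d))) 15))
      (band (bnot (Nat.beq a b)) (band (bnot (Nat.beq a c)) (band (bnot (Nat.beq a d))
        (band (bnot (Nat.beq b c)) (band (bnot (Nat.beq b d)) (bnot (Nat.beq c d))))))))))) =
    true := by decide +kernel

theorem bnot_beq {a b : Nat} (h : bnot (Nat.beq a b) = true) : a ≠ b := by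
  intro e
  have h5 : Nat.beq a b = true := by rw [Nat.beq_eq]; exact e
  rw [h5] at h
  exact absurd h (by decide)

theorem sig_inj (a b c d : Nat) (ha : a < 4) (hb : b < 4) (hc : c < 4) (hd : d < 4)
    (h : Nat.lor (Nat.lor (Nat.pow 2 a) (Nat.pow 2 b)) (Nat.lor (Nat.pow 2 c) (Nat.pow 2 d)) = 15) :
    a ≠ b ∧ a ≠ c ∧ a ≠ d ∧ b ≠ c ∧ b ≠ d ∧ c ≠ d := by
  have h1 := (allN_iff _ _).mp ((allN_iff _ _).mp ((allN_iff _ _).mp
    ((allN_iff _ _).mp sig_injB a ha) b hb) c hc) d hd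
  rw [bor_eq, Bool.or_eq_true] at h1
  rcases h1 with h1 | h1
  · exact absurd h (bnot_beq h1)
  · rw [band_true, band_true, band_true, band_true, band_true] at h1
    obtain ⟨h2, h3, h4, h5, h6, h7⟩ := h1
    exact ⟨bnot_beq h2, bnot_beq h3, bnot_beq h4, bnot_beq h5, bnot_beq h6, bnot_beq h7⟩

theorem enc4_inj {a b c d a' b' c' d' : Nat} (ha : a < 8) (hb : b < 8) (hc : c < 8)
    (ha' : a' < 8) (hb' : b' < 8) (hc' : c' < 8)
    (h : enc4 a b c d = enc4 a' b' c' d') : a = a' ∧ b = b' ∧ c = c' ∧ d = d' := by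
  have h' : a + 8 * b + (64 * c + 512 * d) = a' + 8 * b' + (64 * c' + 512 * d') := h
  omega

theorem enc4_lt {a b c d : Nat} (ha : a < 8) (hb : b < 8) (hc : c < 8) (hd : d < 8) :
    enc4 a b c d < 4096 := by
  show a + 8 * b + (64 * c + 512 * d) < 4096
  omega

theorem rSig_lt (r c : Nat) : rSig r c < 4 := fld_lt r _ 2

theorem rRho_lt (r c v : Nat) : rRho r c v < 8 := fld_lt r _ 3

theorem isM_pushMask (nG r : Nat) :
    IsM (pushMask nG r) (fun x => ∃ s < 15, push r (fF nG s) = x) :=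
  isM_or15 _ _ (fun _ _ => isM_pow _)

theorem isM_imgMask (n r : Nat) :
    IsM (imgMask n r) (fun x => pull r (rPc r) = x ∨ ∃ t < 15, pull r (fF n t) = x) :=
  (isM_pow _).lor (isM_or15 _ _ (fun _ _ => isM_pow _))

theorem refGen_sound (nG n r : Nat) (h : refGen nG n r = true) :
    RefOK (dF nG) (dK nG) (dF n) (dK n) (rPc r) (rSig r) (rRho r) := by
  unfold refGen at h
  rw [band_true, band_true] at h
  obtain ⟨h0, h1, h2⟩ := h
  have hs := sig_inj (rSig r 0) (rSig r 1) (rSig r 2) (rSig r 3) (rSig_lt r 0) (rSig_lt r 1)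
    (rSig_lt r 2) (rSig_lt r 3) (Nat.eq_of_beq_eq_true h0)
  have h1' : ∀ c < 4, ∀ v < dK nG c,
      rRho r c v < kNext (dK n) (rPc r) (rSig r c) ∧ ∀ w < v, rRho r c v ≠ rRho r c w := by
    intro c hc v hv
    have h3 := (allN_iff _ _).mp ((allN_iff _ _).mp h1 c hc) v hv
    rw [band_true] at h3
    refine ⟨?_, ?_⟩
    · rw [← kn_eq]; exact Nat.lt_of_succ_le (Nat.le_of_ble_eq_true h3.1)
    · intro w hw e
      exact bnot_beq ((allN_iff _ _).mp h3.2 w hw) e
  refine ⟨fun c _ => rSig_lt r c, ?_, fun c hc v hv => (h1' c hc v hv).1, ?_, ?_⟩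
  · obtain ⟨s01, s02, s03, s12, s13, s23⟩ := hs
    intro c hc d hd e
    interval_cases c <;> interval_cases d <;>
      first
      | rfl
      | exact absurd e s01 | exact absurd e.symm s01
      | exact absurd e s02 | exact absurd e.symm s02
      | exact absurd e s03 | exact absurd e.symm s03
      | exact absurd e s12 | exact absurd e.symm s12
      | exact absurd e s13 | exact absurd e.symm s13
      | exact absurd e s23 | exact absurd e.symm s23
  · intro c hc v hv w hw e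
    rcases Nat.lt_trichotomy v w with hvw | hvw | hvw
    · exact absurd e.symm ((h1' c hc w hw).2 v hvw)
    · exact hvw
    · exact absurd e ((h1' c hc v hv).2 w hvw)
  · intro g hg
    obtain ⟨s, hs15, e⟩ := (mem_dF nG g).mp hg
    have hpush : push r g < 4096 :=
      enc4_lt (rRho_lt _ _ _) (rRho_lt _ _ _) (rRho_lt _ _ _) (rRho_lt _ _ _)
    have h3 : tb (pushMask nG r) (push r g) = true :=
      (isM_pushMask nG r (push r g) hpush).mpr ⟨s, hs15, by rw [e]⟩
    have h5 := (isM_imgMask n r (push r g) hpush).mp (subB_imp h2 _ h3)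
    have key : ∀ f, pull r f = push r g → ∀ c < 4, dg f (rSig r c) = rRho r c (dg g c) := by
      intro f hf
      obtain ⟨e0, e1, e2, e3⟩ := enc4_inj (dq_lt _ _) (dq_lt _ _) (dq_lt _ _)
        (rRho_lt _ _ _) (rRho_lt _ _ _) (rRho_lt _ _ _) hf
      rw [forall_lt_four]
      simp only [← dq_eq]
      exact ⟨e0, e1, e2, e3⟩
    rcases h5 with h5 | ⟨t, ht, h5⟩
    · exact ⟨rPc r, List.mem_cons_self, key _ h5⟩
    · exact ⟨fF n t, List.mem_cons_of_mem _ ((mem_dF n _).mpr ⟨t, ht, rfl⟩), key _ h5⟩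

theorem refB_sound (nG n r : Nat) (h : refB nG n r = true) :
    ∃ σ ρ, RefOK (dF nG) (dK nG) (dF n) (dK n) (rPc r) σ ρ := by
  unfold refB at h
  cases hb : Nat.beq (Nat.shiftRight r 28) 0 with
  | true =>
    rw [hb] at h
    exact ⟨_, _, refId_sound nG n r h⟩
  | false =>
    rw [hb] at h
    exact ⟨_, _, refGen_sound nG n r h⟩

theorem refsB_sound (T : Nat → Nat) (i n : Nat) (h : refsB T i n = true) (t : Nat)
    (ht : t < nR n) : rJ (rf n t) < i ∧
      ∃ σ ρ, RefOK (dF (T (rJ (rf n t)))) (dK (T (rJ (rf n t)))) (dF n) (dK n) (rPc (rf n t)) σ ρ := by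
  have h1 := (allN_iff _ _).mp h t ht
  rw [band_true] at h1
  exact ⟨Nat.lt_of_succ_le (Nat.le_of_ble_eq_true h1.1), refB_sound _ _ _ h1.2⟩

theorem branch_sound (mode : Nat) (T : Nat → Nat) (i : Nat) (S : List Nat) (avo inc : Nat)
    (ha : IsM avo (avoids S)) (hi : IsM inc (incomp mode (fam T i)))
    (hsub : subB (cand (T i) avo inc) (refMask (T i)) = true) (hr : refsB T i (T i) = true) :
    ∀ p, inRange (kk T i) p → avoids S p → incomp mode (fam T i) p ∨
      ∃ j, j < i ∧ ∃ σ ρ, RefOK (fam T j) (kk T j) (fam T i) (kk T i) p σ ρ := by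
  intro p hp hav
  by_cases hinc : incomp mode (fam T i) p
  · exact Or.inl hinc
  · right
    have hc : tb (cand (T i) avo inc) p = true :=
      (isM_cand (T i) avo inc _ _ ha hi p hp.1).mpr ⟨⟨hp.2, hav⟩, hinc⟩
    obtain ⟨t, ht, e⟩ := (isM_refMask (T i) p hp.1).mp (subB_imp hsub p hc)
    obtain ⟨hj, σ, ρ, hok⟩ := refsB_sound T i (T i) hr t ht
    exact ⟨rJ (rf (T i) t), hj, σ, ρ, by rw [← e]; exact hok⟩

theorem bitsAll_zero (M : Nat) (f : Nat → Bool) : bitsAll 0 M f = Nat.beq M 0 := rfl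

theorem bitsAll_succ (fuel M : Nat) (f : Nat → Bool) :
    bitsAll (fuel + 1) M f = bor (Nat.beq M 0)
      (band (f (lowIdx M)) (bitsAll fuel (Nat.xor M (Nat.pow 2 (lowIdx M))) f)) := rfl

theorem bitsAll_sound (fuel : Nat) : ∀ (M : Nat) (f : Nat → Bool), bitsAll fuel M f = true →
    ∀ q, tb M q = true → f q = true := by
  induction fuel with
  | zero =>
    intro M f h q hq
    rw [bitsAll_zero] at h
    rw [Nat.eq_of_beq_eq_true h, tb_zero] at hq
    exact absurd hq (by decide)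
  | succ fuel ih =>
    intro M f h q hq
    rw [bitsAll_succ, bor_eq, Bool.or_eq_true] at h
    rcases h with h | h
    · rw [Nat.eq_of_beq_eq_true h, tb_zero] at hq
      exact absurd hq (by decide)
    · rw [band_true] at h
      by_cases e : lowIdx M = q
      · rw [← e]; exact h.1
      · apply ih _ f h.2 q
        have h3 : tb (Nat.pow 2 (lowIdx M)) q = false := by
          cases hh : tb (Nat.pow 2 (lowIdx M)) q with
          | false => rfl
          | true => exact absurd ((tb_pow _ _).mp hh) e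
        rw [tb_xor, hq, h3]; rfl

theorem isM_isect (n p : Nat) (hp : p < 4096) (hk : ∀ c < 4, 1 ≤ dK n c) :
    IsM (isect n p) (fun q => ∃ c < 4, dg p c = dg q c ∧ dg p c < dK n c) := by
  have h := (((isM_sh0 p hp).land (isM_U n 0 (by norm_num) (hk 0 (by norm_num)))).lor
    ((isM_sh1 p hp).land (isM_U n 1 (by norm_num) (hk 1 (by norm_num))))).lor
    (((isM_sh2 p hp).land (isM_U n 2 (by norm_num) (hk 2 (by norm_num)))).lor
      ((isM_sh3 p hp).land (isM_U n 3 (by norm_num) (hk 3 (by norm_num)))))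
  refine h.congr ?_
  intro q _
  rw [exists_lt_four]
  constructor
  · rintro ((⟨e, hh⟩ | ⟨e, hh⟩) | (⟨e, hh⟩ | ⟨e, hh⟩))
    · exact Or.inl ⟨e.symm, by rw [← e]; exact hh⟩
    · exact Or.inr (Or.inl ⟨e.symm, by rw [← e]; exact hh⟩)
    · exact Or.inr (Or.inr (Or.inl ⟨e.symm, by rw [← e]; exact hh⟩))
    · exact Or.inr (Or.inr (Or.inr ⟨e.symm, by rw [← e]; exact hh⟩))
  · rintro (⟨e, hh⟩ | ⟨e, hh⟩ | ⟨e, hh⟩ | ⟨e, hh⟩)
    · exact Or.inl (Or.inl ⟨e.symm, by rw [← e]; exact hh⟩)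
    · exact Or.inl (Or.inr ⟨e.symm, by rw [← e]; exact hh⟩)
    · exact Or.inr (Or.inl ⟨e.symm, by rw [← e]; exact hh⟩)
    · exact Or.inr (Or.inr ⟨e.symm, by rw [← e]; exact hh⟩)

theorem isM_cov (n p : Nat) (hp : p < 4096) :
    IsM (cov n p) (fun q => ∃ f ∈ dF n, cdisj f p ∧ cdisj f q) := by
  have h := isM_or15
    (fun t => Nat.mul (Nat.land (Nat.shiftRight (Dsj (fF n t)) p) 1) (Dsj (fF n t)))
    (fun t q => tb (Dsj (fF n t)) p = true ∧ cdisj (fF n t) q)
    (fun t _ => isM_mulbit _ _ _ _ (isM_Dsj (fF n t) (fF_lt n t)))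
  refine h.congr ?_
  intro q _
  constructor
  · rintro ⟨t, ht, h1, h2⟩
    exact ⟨fF n t, (mem_dF n _).mpr ⟨t, ht, rfl⟩, (tb_Dsj _ _ (fF_lt n t) hp).mp h1, h2⟩
  · rintro ⟨f, hf, h1, h2⟩
    obtain ⟨t, ht, e⟩ := (mem_dF n f).mp hf
    subst e
    exact ⟨t, ht, (tb_Dsj _ _ (fF_lt n t) hp).mpr h1, h2⟩

theorem tag1_sound (n : Nat) (hk : ∀ c < 4, 1 ≤ dK n c) (h : tag1B n = true) :
    ∀ p q, inRange (dK n) p → inRange (dK n) q → avoids (S3 n) p → avoids (S3 n) q →
      ¬ incomp 2 (dF n) p → ¬ incomp 2 (dF n) q →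
      (∃ c < 4, dg p c = dg q c ∧ dg p c < dK n c) ∨ ∃ f ∈ dF n, cdisj f p ∧ cdisj f q := by
  intro p q hp hq hap haq hip hiq
  have hC := isM_cand n (Avo3 n) (Inc2 n) _ _ (isM_Avo3 n) (isM_Inc2' n)
  have hcp : tb (cand n (Avo3 n) (Inc2 n)) p = true := (hC p hp.1).mpr ⟨⟨hp.2, hap⟩, hip⟩
  have hcq : tb (cand n (Avo3 n) (Inc2 n)) q = true := (hC q hq.1).mpr ⟨⟨hq.2, haq⟩, hiq⟩
  have h1 := bitsAll_sound 4096 _ _ h p hcp
  exact (((isM_isect n p hp.1 hk).lor (isM_cov n p hp.1)) q hq.1).mp (subB_imp h1 q hcq)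

theorem nodeB_sound (mode : Nat) (T : Nat → Nat) (i : Nat) (h : nodeB mode T i = true) :
    NodeSpec mode (fam T) (kk T) i := by
  unfold nodeB at h
  rw [band_true] at h
  obtain ⟨hw, h⟩ := h
  obtain ⟨hk, hwf⟩ := wfB_sound (T i) hw
  refine ⟨hwf, ?_⟩
  cases htag : Nat.beq (dTag (T i)) 0 with
  | false =>
    rw [htag] at h
    have h' : band (Nat.beq mode 2) (band (sB3 (T i)) (tag1B (T i))) = true := h
    rw [band_true, band_true] at h'
    obtain ⟨hm, hs, ht⟩ := h'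
    right
    exact ⟨Nat.eq_of_beq_eq_true hm, S3 (T i), le_refl 3, wfS3 (T i) hs, tag1_sound (T i) hk ht⟩
  | true =>
    rw [htag] at h
    left
    cases hm1 : Nat.beq mode 1 with
    | true =>
      rw [hm1] at h
      have h' : band (sB3 (T i)) (band (subB (cand (T i) (Avo3 (T i)) (Inc1 (T i)))
          (refMask (T i))) (refsB T i (T i))) = true := h
      rw [band_true, band_true] at h'
      obtain ⟨hs, hsub, hr⟩ := h'
      have hm : mode = 1 := Nat.eq_of_beq_eq_true hm1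
      subst hm
      exact ⟨S3 (T i), le_refl 3, wfS3 (T i) hs,
        branch_sound 1 T i (S3 (T i)) _ _ (isM_Avo3 (T i)) (isM_Inc1' (T i)) hsub hr⟩
    | false =>
      rw [hm1] at h
      have h' : band (Nat.beq mode 2) (band (sB6 (T i))
          (band (subB (cand (T i) (Avo6 (T i)) (Inc2 (T i))) (refMask (T i)))
            (refsB T i (T i)))) = true := h
      rw [band_true, band_true, band_true] at h'
      obtain ⟨hm, hs, hsub, hr⟩ := h'
      have hm2 : mode = 2 := Nat.eq_of_beq_eq_true hm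
      subst hm2
      exact ⟨S6 (T i), le_refl 6, wfS6 (T i) hs,
        branch_sound 2 T i (S6 (T i)) _ _ (isM_Avo6 (T i)) (isM_Inc2' (T i)) hsub hr⟩

/-- All nodes with index below `m` are justified. -/
def Pre (mode : Nat) (T : Nat → Nat) (m : Nat) : Prop :=
  ∀ i < m, NodeSpec mode (fam T) (kk T) i

theorem pre_zero (mode : Nat) (T : Nat → Nat) : Pre mode T 0 :=
  fun i hi => absurd hi (Nat.not_lt_zero i)

theorem pre_step (mode : Nat) (T : Nat → Nat) (a B : Nat) (hp : Pre mode T a)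
    (h : ckB mode T a B = true) : Pre mode T (a + B) := by
  intro i hi
  rcases Nat.lt_or_ge i a with h1 | h1
  · exact hp i h1
  · have h2 := (allN_iff _ _).mp h (i - a) (by omega)
    have e : Nat.add a (i - a) = i := by
      show a + (i - a) = i
      omega
    rw [e] at h2
    exact nodeB_sound mode T i h2

end Vale.Agent.Lib.P045.RK
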