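import Vale.Agent.Lib.P045.R42BMask

/-!
# The masks of the checker and the sets of codes they stand for
-/

namespace Vale.Agent.Lib.P045.RK

open Vale.Agent.Lib.P045

/-- Equality of two truth values. -/
noncomputable def eqB (a b : Bool) : Bool := @Bool.rec (fun _ => Bool) (bnot b) b a

theorem eqB_true {a b : Bool} (h : eqB a b = true) : a = b := by
  cases a <;> cases b <;> first | rfl | exact absurd h (by decide)

theorem AS_specB : allN 4 (fun c => allN 8 (fun v => allN 4096 (fun p =>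
    eqB (tb (AS c v) p) (Nat.beq (dq p c) v)))) = true := by decide +kernel

theorem LeM_specB : allN 4 (fun c => allN 8 (fun m => allN 4096 (fun p =>
    eqB (tb (LeM c m) p) (Nat.ble (dq p c) m)))) = true := by decide +kernel

theorem land_specB : allN 4096 (fun f =>
    band (Nat.beq (Nat.land f 7) (Nat.mul (dq f 0) (Nat.pow 8 0)))
      (band (Nat.beq (Nat.land f 56) (Nat.mul (dq f 1) (Nat.pow 8 1)))
        (band (Nat.beq (Nat.land f 448) (Nat.mul (dq f 2) (Nat.pow 8 2)))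
          (Nat.beq (Nat.land f 3584) (Nat.mul (dq f 3) (Nat.pow 8 3)))))) = true := by
  decide +kernel

theorem isM_AS (c v : Nat) (hc : c < 4) (hv : v < 8) : IsM (AS c v) (fun p => dg p c = v) := by
  intro p hp
  have h := (allN_iff _ _).mp ((allN_iff _ _).mp ((allN_iff _ _).mp AS_specB c hc) v hv) p hp
  rw [eqB_true h]
  show Nat.beq (dq p c) v = true ↔ dg p c = v
  rw [← dq_eq]
  exact Iff.of_eq Nat.beq_eq

theorem isM_LeM (c m : Nat) (hc : c < 4) (hm : m < 8) : IsM (LeM c m) (fun p => dg p c ≤ m) := by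
  intro p hp
  have h := (allN_iff _ _).mp ((allN_iff _ _).mp ((allN_iff _ _).mp LeM_specB c hc) m hm) p hp
  rw [eqB_true h]
  show Nat.ble (dq p c) m = true ↔ dg p c ≤ m
  rw [← dq_eq]
  exact Iff.of_eq Nat.ble_eq

theorem land_spec (f : Nat) (hf : f < 4096) :
    Nat.land f 7 = Nat.mul (dq f 0) (Nat.pow 8 0) ∧ Nat.land f 56 = Nat.mul (dq f 1) (Nat.pow 8 1) ∧
    Nat.land f 448 = Nat.mul (dq f 2) (Nat.pow 8 2) ∧
    Nat.land f 3584 = Nat.mul (dq f 3) (Nat.pow 8 3) := by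
  have h := (allN_iff _ _).mp land_specB f hf
  rw [band_true, band_true, band_true] at h
  exact ⟨Nat.eq_of_beq_eq_true h.1, Nat.eq_of_beq_eq_true h.2.1, Nat.eq_of_beq_eq_true h.2.2.1,
    Nat.eq_of_beq_eq_true h.2.2.2⟩

theorem isM_sh0 (f : Nat) (hf : f < 4096) :
    IsM (Nat.shiftLeft baseA0 (Nat.land f 7)) (fun p => dg p 0 = dg f 0) := by
  rw [(land_spec f hf).1, dq_eq]
  exact isM_AS 0 (dg f 0) (by norm_num) (dg_lt f 0)

theorem isM_sh1 (f : Nat) (hf : f < 4096) :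
    IsM (Nat.shiftLeft baseA1 (Nat.land f 56)) (fun p => dg p 1 = dg f 1) := by
  rw [(land_spec f hf).2.1, dq_eq]
  exact isM_AS 1 (dg f 1) (by norm_num) (dg_lt f 1)

theorem isM_sh2 (f : Nat) (hf : f < 4096) :
    IsM (Nat.shiftLeft baseA2 (Nat.land f 448)) (fun p => dg p 2 = dg f 2) := by
  rw [(land_spec f hf).2.2.1, dq_eq]
  exact isM_AS 2 (dg f 2) (by norm_num) (dg_lt f 2)

theorem isM_sh3 (f : Nat) (hf : f < 4096) :
    IsM (Nat.shiftLeft baseA3 (Nat.land f 3584)) (fun p => dg p 3 = dg f 3) := by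
  rw [(land_spec f hf).2.2.2, dq_eq]
  exact isM_AS 3 (dg f 3) (by norm_num) (dg_lt f 3)

theorem forall_lt_four {P : Nat → Prop} : (∀ c < 4, P c) ↔ P 0 ∧ P 1 ∧ P 2 ∧ P 3 := by
  constructor
  · intro h
    exact ⟨h 0 (by norm_num), h 1 (by norm_num), h 2 (by norm_num), h 3 (by norm_num)⟩
  · rintro ⟨h0, h1, h2, h3⟩ c hc
    interval_cases c <;> assumption

theorem exists_lt_four {P : Nat → Prop} : (∃ c < 4, P c) ↔ P 0 ∨ P 1 ∨ P 2 ∨ P 3 := by
  constructor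
  · rintro ⟨c, hc, h⟩
    interval_cases c
    · exact Or.inl h
    · exact Or.inr (Or.inl h)
    · exact Or.inr (Or.inr (Or.inl h))
    · exact Or.inr (Or.inr (Or.inr h))
  · rintro (h | h | h | h)
    · exact ⟨0, by norm_num, h⟩
    · exact ⟨1, by norm_num, h⟩
    · exact ⟨2, by norm_num, h⟩
    · exact ⟨3, by norm_num, h⟩

theorem isM_Dsj (f : Nat) (hf : f < 4096) : IsM (Dsj f) (cdisj f) := by
  have h := (((isM_sh0 f hf).lor (isM_sh1 f hf)).lor ((isM_sh2 f hf).lor (isM_sh3 f hf))).compl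
  refine h.congr ?_
  intro p _
  unfold cdisj
  rw [forall_lt_four]
  constructor
  · intro hh
    refine ⟨fun e => hh (Or.inl (Or.inl e.symm)), fun e => hh (Or.inl (Or.inr e.symm)),
      fun e => hh (Or.inr (Or.inl e.symm)), fun e => hh (Or.inr (Or.inr e.symm))⟩
  · rintro ⟨h0, h1, h2, h3⟩ ((e | e) | (e | e))
    · exact h0 e.symm
    · exact h1 e.symm
    · exact h2 e.symm
    · exact h3 e.symm

theorem tb_Dsj (f g : Nat) (hf : f < 4096) (hg : g < 4096) : tb (Dsj f) g = true ↔ cdisj f g :=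
  isM_Dsj f hf g hg

theorem fF_lt (n t : Nat) : fF n t < 4096 := fld_lt n _ 12

theorem dK_lt (n c : Nat) : dK n c < 8 := fld_lt n _ 3

theorem sS_lt (n t : Nat) : sS n t < 32 := fld_lt n _ 5

theorem mem_dF (n x : Nat) : x ∈ dF n ↔ ∃ t < 15, fF n t = x := by
  unfold dF
  rw [List.mem_dedup, List.mem_map]
  constructor
  · rintro ⟨t, ht, e⟩
    exact ⟨t, List.mem_range.mp ht, e⟩
  · rintro ⟨t, ht, e⟩
    exact ⟨t, List.mem_range.mpr ht, e⟩

theorem isM_Inc1 (n : Nat) : IsM (Inc1 n) (fun p => ∃ f ∈ dF n, cdisj f p) := by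
  have h := isM_or15 (fun s => Dsj (fF n s)) (fun s p => cdisj (fF n s) p)
    (fun s _ => isM_Dsj (fF n s) (fF_lt n s))
  refine h.congr ?_
  intro p _
  constructor
  · rintro ⟨t, ht, hh⟩
    exact ⟨fF n t, (mem_dF n _).mpr ⟨t, ht, rfl⟩, hh⟩
  · rintro ⟨f, hf, hh⟩
    obtain ⟨t, ht, e⟩ := (mem_dF n f).mp hf
    exact ⟨t, ht, by rw [e]; exact hh⟩

theorem isM_Inc2 (n : Nat) :
    IsM (Inc2 n) (fun p => ∃ f ∈ dF n, ∃ g ∈ dF n, cdisj f g ∧ cdisj f p ∧ cdisj g p) := by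
  have h := isM_or15
    (fun s => Nat.land (Dsj (fF n s))
      (or15 fun t => Nat.mul (Nat.land (Nat.shiftRight (Dsj (fF n s)) (fF n t)) 1) (Dsj (fF n t))))
    (fun s p => cdisj (fF n s) p ∧
      ∃ t < 15, tb (Dsj (fF n s)) (fF n t) = true ∧ cdisj (fF n t) p)
    (fun s _ => (isM_Dsj (fF n s) (fF_lt n s)).land
      (isM_or15 _ (fun t p => tb (Dsj (fF n s)) (fF n t) = true ∧ cdisj (fF n t) p)
        (fun t _ => isM_mulbit _ _ _ _ (isM_Dsj (fF n t) (fF_lt n t)))))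
  refine h.congr ?_
  intro p _
  constructor
  · rintro ⟨s, hs, h1, t, ht, h2, h3⟩
    exact ⟨fF n s, (mem_dF n _).mpr ⟨s, hs, rfl⟩, fF n t, (mem_dF n _).mpr ⟨t, ht, rfl⟩,
      (tb_Dsj _ _ (fF_lt n s) (fF_lt n t)).mp h2, h1, h3⟩
  · rintro ⟨f, hf, g, hg, h1, h2, h3⟩
    obtain ⟨s, hs, e⟩ := (mem_dF n f).mp hf
    obtain ⟨t, ht, e'⟩ := (mem_dF n g).mp hg
    subst e
    subst e'
    exact ⟨s, hs, h2, t, ht, (tb_Dsj _ _ (fF_lt n s) (fF_lt n t)).mpr h1, h3⟩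

theorem isM_Val (n : Nat) : IsM (Val n) (fun p => ∀ c < 4, dg p c ≤ dK n c) := by
  have h := ((isM_LeM 0 (dK n 0) (by norm_num) (dK_lt n 0)).land
    (isM_LeM 1 (dK n 1) (by norm_num) (dK_lt n 1))).land
    ((isM_LeM 2 (dK n 2) (by norm_num) (dK_lt n 2)).land
      (isM_LeM 3 (dK n 3) (by norm_num) (dK_lt n 3)))
  refine h.congr ?_
  intro p _
  rw [forall_lt_four]
  constructor
  · rintro ⟨⟨h0, h1⟩, h2, h3⟩
    exact ⟨h0, h1, h2, h3⟩
  · rintro ⟨h0, h1, h2, h3⟩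
    exact ⟨⟨h0, h1⟩, h2, h3⟩

theorem isM_U (n c : Nat) (hc : c < 4) (hk : 1 ≤ dK n c) :
    IsM (U n c) (fun p => dg p c < dK n c) := by
  have hlt : Nat.sub (dK n c) 1 < 8 := lt_of_le_of_lt (Nat.sub_le _ _) (dK_lt n c)
  refine (isM_LeM c (Nat.sub (dK n c) 1) hc hlt).congr ?_
  intro p _
  show dg p c ≤ dK n c - 1 ↔ dg p c < dK n c
  omega

theorem isM_Ua (n : Nat) (hk : ∀ c < 4, 1 ≤ dK n c) :
    IsM (Ua n) (fun p => ∀ c < 4, dg p c < dK n c) := by
  have h := ((isM_U n 0 (by norm_num) (hk 0 (by norm_num))).land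
    (isM_U n 1 (by norm_num) (hk 1 (by norm_num)))).land
    ((isM_U n 2 (by norm_num) (hk 2 (by norm_num))).land
      (isM_U n 3 (by norm_num) (hk 3 (by norm_num))))
  refine h.congr ?_
  intro p _
  rw [forall_lt_four]
  constructor
  · rintro ⟨⟨h0, h1⟩, h2, h3⟩
    exact ⟨h0, h1, h2, h3⟩
  · rintro ⟨h0, h1, h2, h3⟩
    exact ⟨⟨h0, h1⟩, h2, h3⟩

theorem isM_MFam (n : Nat) : IsM (MFam n) (fun x => x ∈ dF n) := by
  have h := isM_or15 (fun t => Nat.pow 2 (fF n t)) (fun t x => fF n t = x)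
    (fun t _ => isM_pow (fF n t))
  refine h.congr ?_
  intro x _
  exact (mem_dF n x).symm

theorem wfB_sound (n : Nat) (h : wfB n = true) :
    (∀ c < 4, 1 ≤ dK n c) ∧ WfFam (dF n) (dK n) := by
  unfold wfB at h
  rw [band_true, band_true, band_true, band_true] at h
  obtain ⟨h0, h1, h2, h3, h4⟩ := h
  have hk : ∀ c < 4, 1 ≤ dK n c := by
    rw [forall_lt_four]
    exact ⟨Nat.le_of_ble_eq_true h0, Nat.le_of_ble_eq_true h1, Nat.le_of_ble_eq_true h2,
      Nat.le_of_ble_eq_true h3⟩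
  refine ⟨hk, fun c _ => Nat.le_of_lt_succ (dK_lt n c), ?_⟩
  intro f hf
  obtain ⟨t, _, e⟩ := (mem_dF n f).mp hf
  have hlt : f < 4096 := by rw [← e]; exact fF_lt n t
  refine ⟨hlt, ?_⟩
  have h5 := subB_imp h4 f ((isM_MFam n f hlt).mpr hf)
  exact (isM_Ua n hk f hlt).mp h5

end Vale.Agent.Lib.P045.RK
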