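import Mathlib
import Vale.Agent.Lib.P045.R42Abs

/-!
# From matching number two to every matching number

Deleting the four vertices of one edge of a maximum matching lowers the matching number by one.
So a cover of size `6` for matching number `2` gives covers of size `4 * ν - 2` for every
matching number `ν ≥ 2` of a 4-partite 4-uniform hypergraph.
-/

namespace Vale.Agent.Lib.P045

universe u

/-- An edge with exactly one vertex in each of the four parts has at most four vertices. -/
theorem card_le_four_of_parts {V : Type u} (part : V → Fin 4) (e : Finset V)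
    (he : ∀ i : Fin 4, ∃! v, v ∈ e ∧ part v = i) : e.card ≤ 4 := by
  classical
  have hinj : Set.InjOn part (e : Set V) := by
    intro v hv w hw hvw
    exact (he (part v)).unique ⟨hv, rfl⟩ ⟨hw, hvw.symm⟩
  have h := Finset.card_le_card_of_injOn (s := e) (t := (Finset.univ : Finset (Fin 4))) part
    (fun v _ => Finset.mem_univ _) hinj
  simpa using h

/-- Abstract induction: if hypergraphs with matching number at most two have covers of size six,
then matching number `ν ≥ 2` gives a cover of size `4 * ν - 2`. -/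
theorem cover_general_of_two {V : Type u} (part : V → Fin 4)
    (base : ∀ E : Set (Finset V), (∀ e ∈ E, ∀ i : Fin 4, ∃! v, v ∈ e ∧ part v = i) →
      (∀ M : Finset (Finset V), (∀ e ∈ M, e ∈ E) →
        (∀ e ∈ M, ∀ f ∈ M, e ≠ f → Disjoint e f) → M.card ≤ 2) →
      ∃ C : Finset V, C.card ≤ 6 ∧ ∀ e ∈ E, ∃ v ∈ C, v ∈ e)
    (ν : ℕ) (hν2 : 2 ≤ ν) :
    ∀ E : Set (Finset V), (∀ e ∈ E, ∀ i : Fin 4, ∃! v, v ∈ e ∧ part v = i) →
      (∀ M : Finset (Finset V), (∀ e ∈ M, e ∈ E) →
        (∀ e ∈ M, ∀ f ∈ M, e ≠ f → Disjoint e f) → M.card ≤ ν) →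
      ∃ C : Finset V, C.card ≤ 4 * ν - 2 ∧ ∀ e ∈ E, ∃ v ∈ C, v ∈ e := by
  classical
  induction ν, hν2 using Nat.le_induction with
  | base =>
    intro E hE hν
    obtain ⟨C, hC, hcov⟩ := base E hE hν
    exact ⟨C, by omega, hcov⟩
  | succ n hn ih =>
    intro E hE hν
    by_cases hsmall : ∀ M : Finset (Finset V), (∀ e ∈ M, e ∈ E) →
        (∀ e ∈ M, ∀ f ∈ M, e ≠ f → Disjoint e f) → M.card ≤ n
    · obtain ⟨C, hC, hcov⟩ := ih E hE hsmall
      exact ⟨C, by omega, hcov⟩
    · simp only [not_forall, not_le] at hsmall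
      obtain ⟨M, hME, hMd, hMcard⟩ := hsmall
      have hMne : M.Nonempty := by
        rw [← Finset.card_pos]; omega
      obtain ⟨e, heM⟩ := hMne
      have heE : e ∈ E := hME e heM
      have hene : e.Nonempty := ⟨_, (hE e heE 0).exists.choose_spec.1⟩
      -- the edges disjoint from `e`
      let E' : Set (Finset V) := {g | g ∈ E ∧ Disjoint g e}
      have hE' : ∀ g ∈ E', ∀ i : Fin 4, ∃! v, v ∈ g ∧ part v = i := fun g hg => hE g hg.1
      have hν' : ∀ M' : Finset (Finset V), (∀ g ∈ M', g ∈ E') →
          (∀ g ∈ M', ∀ f ∈ M', g ≠ f → Disjoint g f) → M'.card ≤ n := by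
        intro M' hM'E hM'd
        have henot : e ∉ M' := by
          intro heM'
          have := (hM'E e heM').2
          exact hene.ne_empty (Finset.disjoint_self_iff_empty e |>.mp this)
        have hcard := hν (insert e M') (by
          intro g hg
          rcases Finset.mem_insert.mp hg with h1 | h1
          · rw [h1]; exact heE
          · exact (hM'E g h1).1) (by
          intro g hg f hf hgf
          rcases Finset.mem_insert.mp hg with h1 | h1 <;>
            rcases Finset.mem_insert.mp hf with h2 | h2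
          · exact absurd (h1.trans h2.symm) hgf
          · rw [h1]; exact (hM'E f h2).2.symm
          · rw [h2]; exact (hM'E g h1).2
          · exact hM'd g h1 f h2 hgf)
        rw [Finset.card_insert_of_notMem henot] at hcard
        omega
      obtain ⟨C', hC', hcov'⟩ := ih E' hE' hν'
      have he4 : e.card ≤ 4 := card_le_four_of_parts part e (hE e heE)
      refine ⟨C' ∪ e, ?_, ?_⟩
      · have := Finset.card_union_le C' e
        omega
      · intro g hg
        by_cases hdis : Disjoint g e
        · obtain ⟨v, hv, hvg⟩ := hcov' g ⟨hg, hdis⟩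
          exact ⟨v, Finset.mem_union_left _ hv, hvg⟩
        · rw [Finset.not_disjoint_iff] at hdis
          obtain ⟨v, hvg, hve⟩ := hdis
          exact ⟨v, Finset.mem_union_right _ hve, hvg⟩

/-- From the two certificates: a 4-partite 4-uniform hypergraph with matching number at most
`ν`, `ν ≥ 2`, has a vertex cover with at most `4 * ν - 2` vertices. -/
theorem ryser_four_general_of_cert (hc1 : CertSpec 1) (hc2 : CertSpec 2) {V : Type u}
    (part : V → Fin 4) (E : Set (Finset V))
    (hE : ∀ e ∈ E, ∀ i : Fin 4, ∃! v, v ∈ e ∧ part v = i)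
    (ν : ℕ) (hν2 : 2 ≤ ν)
    (hν : ∀ M : Finset (Finset V), (∀ e ∈ M, e ∈ E) →
      (∀ e ∈ M, ∀ f ∈ M, e ≠ f → Disjoint e f) → M.card ≤ ν) :
    ∃ C : Finset V, C.card ≤ 4 * ν - 2 ∧ ∀ e ∈ E, ∃ v ∈ C, v ∈ e := by
  refine cover_general_of_two part ?_ ν hν2 E hE hν
  intro E' hE' hν'
  exact ryser_four_of_cert hc1 hc2 part E' hE' 2 le_rfl hν'

end Vale.Agent.Lib.P045
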